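import Vale.Agent.P310.WL

/-! From systems of linear equations over `ZMod 2` to pairs of graphs. -/

namespace Vale.Agent.P310

open Function

abbrev Z2 := ZMod 2

/-- blocks with five variable slots each, a variable forced to vanish and right-hand sides -/
structure Csp (Var Blk : Type) where
  z : Var
  var : Blk → Fin 5 → Var
  rhs : Blk → Z2

namespace Csp

variable {Var Blk : Type} (c : Csp Var Blk)

def Valid (b : Z2) (B : Blk) (u : Fin 5 → Z2) : Prop :=
  ∑ s, u s = b * c.rhs B ∧ (∀ s s', c.var B s = c.var B s' → u s = u s') ∧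
    ∀ s, c.var B s = c.z → u s = 0

def Agree (B : Blk) (u : Fin 5 → Z2) (B' : Blk) (u' : Fin 5 → Z2) : Prop :=
  ∀ s s', c.var B s = c.var B' s' → u s = u' s'

def Sat (g : Var → Z2) (B : Blk) : Prop := ∑ s, g (c.var B s) = c.rhs B

abbrev Vtx (M N : ℕ) := (Fin M × (Fin 5 → Z2)) ⊕ Fin N

variable {M N : ℕ} (blk : Fin M → Blk)

def adj (b : Z2) : Vtx M N → Vtx M N → Prop
  | .inl p, .inl q => p.1 ≠ q.1 ∧ c.Valid b (blk p.1) p.2 ∧ c.Valid b (blk q.1) q.2 ∧
      c.Agree (blk p.1) p.2 (blk q.1) q.2
  | .inl p, .inr ν => c.Valid b (blk p.1) p.2 ∧ ν.1 < (p.1.1 + 1) * (32 * M + 1)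
  | .inr ν, .inl p => c.Valid b (blk p.1) p.2 ∧ ν.1 < (p.1.1 + 1) * (32 * M + 1)
  | .inr _, .inr _ => False

variable (N) in
def graph (b : Z2) : SimpleGraph (Vtx M N) where
  Adj := c.adj blk b
  symm := ⟨by
    rintro (p | ν) (q | μ) h
    · exact ⟨h.1.symm, h.2.2.1, h.2.1, fun s s' e => (h.2.2.2 s' s e.symm).symm⟩
    · exact h
    · exact h
    · exact h⟩
  loopless := ⟨by
    rintro (p | ν) h
    · exact h.1 rfl
    · exact h⟩

/-- translation by an assignment -/
def tr (g : Var → Z2) : Vtx M N → Vtx M N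
  | .inl p => .inl (p.1, p.2 + fun s => g (c.var (blk p.1) s))
  | .inr ν => .inr ν

def bs [DecidableEq Blk] : Vtx M N → Finset Blk
  | .inl p => {blk p.1}
  | .inr _ => ∅

lemma z2_add_self (a : Z2) : a + a = 0 := by revert a; decide

lemma tr_tr (g : Var → Z2) (w : Vtx M N) : c.tr blk g (c.tr blk g w) = w := by
  rcases w with p | ν
  · simp only [tr]
    congr 2
    funext s
    simp [add_assoc, z2_add_self]
  · rfl

lemma bs_tr [DecidableEq Blk] (g : Var → Z2) (w : Vtx M N) : bs blk (c.tr blk g w) = bs blk w := by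
  rcases w with p | ν <;> rfl

lemma card_bs [DecidableEq Blk] (w : Vtx M N) : (bs blk w).card ≤ 1 := by
  rcases w with p | ν <;> simp [bs]

lemma valid_tr {g : Var → Z2} (hz : g c.z = 0) {B : Blk} (hs : c.Sat g B) (u : Fin 5 → Z2) :
    c.Valid 0 B u ↔ c.Valid 1 B (u + fun s => g (c.var B s)) := by
  unfold Valid
  unfold Sat at hs
  simp only [Pi.add_apply, Finset.sum_add_distrib, hs, zero_mul, one_mul, add_eq_right]
  refine and_congr Iff.rfl (and_congr ?_ ?_)
  · refine forall₃_congr fun s s' e => ?_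
    rw [e, add_left_inj]
  · refine forall₂_congr fun s e => ?_
    rw [e, hz, add_zero]

lemma adj_tr [DecidableEq Blk] {g : Var → Z2} (hz : g c.z = 0) (a b : Vtx M N)
    (ha : ∀ B ∈ bs blk a, c.Sat g B) (hb : ∀ B ∈ bs blk b, c.Sat g B) :
    c.adj blk 0 a b ↔ c.adj blk 1 (c.tr blk g a) (c.tr blk g b) := by
  rcases a with p | ν <;> rcases b with q | μ
  · simp only [adj, tr]
    rw [c.valid_tr hz (ha _ (by simp [bs])), c.valid_tr hz (hb _ (by simp [bs]))]
    refine and_congr Iff.rfl (and_congr Iff.rfl (and_congr Iff.rfl ?_))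
    refine forall₃_congr fun s s' e => ?_
    simp only [Pi.add_apply]
    rw [e, add_left_inj]
  · simp only [adj, tr]
    rw [c.valid_tr hz (ha _ (by simp [bs]))]
  · simp only [adj, tr]
    rw [c.valid_tr hz (hb _ (by simp [bs]))]
  · rfl

lemma tr_congr [DecidableEq Blk] {g g' : Var → Z2} (w : Vtx M N)
    (h : ∀ B ∈ bs blk w, ∀ s, g' (c.var B s) = g (c.var B s)) : c.tr blk g' w = c.tr blk g w := by
  rcases w with p | ν
  · simp only [tr]
    congr 3
    funext s
    exact h _ (by simp [bs]) s
  · rfl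

/-- A winning strategy for Duplicator on the system gives equivalent graphs. -/
theorem equiv_of_good [DecidableEq Blk] {k : ℕ} (Good : Finset Blk → (Var → Z2) → Prop)
    (hz : ∀ S g, Good S g → g c.z = 0) (hsat : ∀ S g, Good S g → ∀ B ∈ S, c.Sat g B)
    (mono : ∀ S S' g, Good S g → S' ⊆ S → Good S' g)
    (ext : ∀ S g, Good S g → S.card ≤ k → ∀ i, ∃ g', Good (insert (blk i) S) g' ∧
      ∀ B ∈ S, ∀ s, g' (c.var B s) = g (c.var B s))
    (init : ∃ g, Good ∅ g) : WLEquiv k (c.graph N blk 0) (c.graph N blk 1) := by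
  have ext' : ∀ S g, Good S g → S.card ≤ k → ∀ w : Vtx M N, ∃ g', Good (bs blk w ∪ S) g' ∧
      ∀ B ∈ S, ∀ s, g' (c.var B s) = g (c.var B s) := by
    rintro S g h hc (p | ν)
    · simpa [bs] using ext S g h hc p.1
    · exact ⟨g, by simpa [bs] using h, fun _ _ _ => rfl⟩
  let SS : Finset (Fin k) → (Fin k → Vtx M N) → Finset Blk := fun I x =>
    I.biUnion fun i => bs blk (x i)
  have cardS : ∀ I x, (SS I x).card ≤ k := fun I x =>
    (Finset.card_biUnion_le_card_mul _ _ 1 fun i _ => card_bs blk _).trans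
      (by simpa using Finset.card_le_univ I)
  have subS : ∀ x i, bs blk (x i) ⊆ SS Finset.univ x := fun x i =>
    Finset.subset_biUnion_of_mem (fun i => bs blk (x i)) (Finset.mem_univ i)
  have exS : ∀ I x, ∃ g, Good (SS I x) g := by
    intro I x
    induction I using Finset.induction_on with
    | empty => simpa [SS] using init
    | insert i I hi ih =>
      obtain ⟨g, hg⟩ := ih
      obtain ⟨g', h', -⟩ := ext' _ g hg (cardS _ _) (x i)
      exact ⟨g', by simpa [SS, Finset.biUnion_insert] using h'⟩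
  let Φ : (Fin k → Vtx M N) → Fin k → Vtx M N := fun x i =>
    c.tr blk (Classical.epsilon (Good (SS Finset.univ x))) (x i)
  have hΦ : Involutive Φ := by
    intro x
    have : SS Finset.univ (Φ x) = SS Finset.univ x := by simp only [SS, Φ, bs_tr]
    funext i
    simp only [Φ] at this ⊢
    rw [this, tr_tr]
  refine wlEquiv_of_strategy _ _
    (fun x y => ∃ g, Good (SS Finset.univ x) g ∧ ∀ i, y i = c.tr blk g (x i)) ?_ ?_ hΦ.toPerm ?_
  · rintro x y ⟨g, hg, hy⟩ i j
    rw [hy, hy]
    refine ⟨(Involutive.injective (c.tr_tr blk g)).eq_iff.symm, ?_⟩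
    exact c.adj_tr blk (hz _ _ hg) _ _ (fun B hB => hsat _ _ hg B (subS x i hB))
      (fun B hB => hsat _ _ hg B (subS x j hB))
  · rintro x y ⟨g, hg, hy⟩
    let P : Finset Blk → (Var → Z2) → Prop := fun T g' => Good (T ∪ SS Finset.univ x) g' ∧
      ∀ B ∈ SS Finset.univ x, ∀ s, g' (c.var B s) = g (c.var B s)
    let f : Vtx M N → Vtx M N := fun a => c.tr blk (Classical.epsilon (P (bs blk a))) a
    have hf : Involutive f := by
      intro a
      simp only [f, bs_tr, tr_tr]
    refine ⟨hf.toPerm, fun a i => ?_⟩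
    obtain ⟨h1, h2⟩ := Classical.epsilon_spec (p := P (bs blk a)) (ext' _ g hg (cardS _ _) a)
    refine ⟨_, mono _ _ _ h1 ?_, fun j => ?_⟩
    · intro B hB
      obtain ⟨j, -, hj⟩ := Finset.mem_biUnion.1 hB
      by_cases e : j = i
      · subst e
        rw [update_self] at hj
        exact Finset.mem_union_left _ hj
      · rw [update_of_ne e] at hj
        exact Finset.mem_union_right _ (subS x j hj)
    · by_cases e : j = i
      · subst e
        rw [update_self, update_self]; rfl
      · rw [update_of_ne e, update_of_ne e, hy]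
        exact (c.tr_congr blk _ fun B hB => h2 B (subS x j hB)).symm
  · intro x
    exact ⟨_, Classical.epsilon_spec (exS Finset.univ x), fun i => rfl⟩

open Classical in
lemma deg_bounds (hN : M * (32 * M + 1) ≤ N) (b : Z2) (w : Vtx M N) :
    ∃ d ≤ 32 * M, ∑ a, (if (c.graph N blk b).Adj w a then 1 else 0 : ℕ) = d +
      match w with
      | .inl p => if c.Valid b (blk p.1) p.2 then (p.1.1 + 1) * (32 * M + 1) else 0
      | .inr _ => 0 := by
  rw [Fintype.sum_sum_type]
  refine ⟨_, ?_, congrArg _ ?_⟩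
  · refine (Finset.sum_le_card_nsmul _ _ 1 fun a _ => by split_ifs <;> omega).trans ?_
    simp [mul_comm]
  · rcases w with p | ν
    · simp only [graph, adj]
      split_ifs with h
      · simp only [h, true_and]
        rw [Fin.sum_univ_eq_sum_range (fun a => if a < (p.1.1 + 1) * (32 * M + 1) then 1 else 0),
          Finset.sum_boole]
        have : (p.1.1 + 1) * (32 * M + 1) ≤ N := (Nat.mul_le_mul_right _ p.1.2).trans hN
        have e : Finset.filter (fun a => a < (p.1.1 + 1) * (32 * M + 1)) (Finset.range N) =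
            Finset.range ((p.1.1 + 1) * (32 * M + 1)) := by
          ext a; simp; omega
        simp [e]
      · simp [h]
    · simp [graph, adj]

lemma valid_zero (B : Blk) : c.Valid 0 B 0 := by simp [Valid]

lemma same_block (hN : M * (32 * M + 1) ≤ N) {k : ℕ} (hk : 2 ≤ k) {idx : Fin k → Fin M}
    {y : Fin k → Vtx M N}
    (h : Same (c.graph N blk 0) (c.graph N blk 1) k (fun i => .inl (idx i, 0)) y) (i : Fin k) :
    ∃ u, y i = .inl (idx i, u) ∧ c.Valid 1 (blk (idx i)) u := by
  classical
  have : Nontrivial (Fin k) := Fin.nontrivial_iff_two_le.2 hk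
  obtain ⟨j, hj⟩ := exists_ne i
  have e := h.deg hj.symm
  obtain ⟨d, hd, e1⟩ := c.deg_bounds blk hN 0 (.inl (idx i, 0))
  obtain ⟨d', hd', e2⟩ := c.deg_bounds blk hN 1 (y i)
  rw [e1, e2] at e
  simp only [c.valid_zero, if_true] at e
  have hp : 32 * M + 1 ≤ ((idx i).1 + 1) * (32 * M + 1) := Nat.le_mul_of_pos_left _ (by omega)
  rcases hy : y i with p | ν
  · rw [hy] at e
    simp only at e
    split_ifs at e with hv
    · have : (idx i).1 = p.1.1 := by
        have a1 : (d + ((idx i).1 + 1) * (32 * M + 1)) / (32 * M + 1) = (idx i).1 + 1 := by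
          rw [Nat.add_mul_div_right _ _ (by omega), Nat.div_eq_of_lt (by omega), zero_add]
        have a2 : (d' + (p.1.1 + 1) * (32 * M + 1)) / (32 * M + 1) = p.1.1 + 1 := by
          rw [Nat.add_mul_div_right _ _ (by omega), Nat.div_eq_of_lt (by omega), zero_add]
        rw [e] at a1
        omega
      have : idx i = p.1 := Fin.ext this
      exact ⟨p.2, by rw [this], by rw [this]; exact hv⟩
    · omega
  · rw [hy] at e
    simp only at e
    omega

lemma same_agree {k : ℕ} {idx : Fin k → Fin M} {y : Fin k → Vtx M N}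
    (h : Same (c.graph N blk 0) (c.graph N blk 1) k (fun i => .inl (idx i, 0)) y) {i j : Fin k}
    {u v} (hu : y i = .inl (idx i, u)) (hv : y j = .inl (idx j, v))
    (hval : c.Valid 1 (blk (idx i)) u) : c.Agree (blk (idx i)) u (blk (idx j)) v := by
  obtain ⟨h1, h2⟩ := h.atom i j
  by_cases e : idx i = idx j
  · have := h1.1 (by rw [e])
    rw [hu, hv] at this
    have : u = v := by simpa [e] using this
    subst this
    rw [← e]
    exact hval.2.1
  · have := h2.1 ⟨e, c.valid_zero _, c.valid_zero _, fun _ _ _ => rfl⟩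
    rw [hu, hv] at this
    exact this.2.2.2

lemma exists_asg {ι : Type} (B : ι → Blk) (u : ι → Fin 5 → Z2)
    (h : ∀ i j, c.Agree (B i) (u i) (B j) (u j)) (hz : ∀ i s, c.var (B i) s = c.z → u i s = 0) :
    ∃ g : Var → Z2, g c.z = 0 ∧ ∀ i s, g (c.var (B i) s) = u i s := by
  classical
  refine ⟨fun v => if h : ∃ p : ι × Fin 5, c.var (B p.1) p.2 = v then u h.choose.1 h.choose.2 else 0,
    ?_, fun i s => ?_⟩
  · beta_reduce
    split_ifs with h1
    · exact hz _ _ h1.choose_spec
    · rfl
  · beta_reduce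
    have h1 : ∃ p : ι × Fin 5, c.var (B p.1) p.2 = c.var (B i) s := ⟨(i, s), rfl⟩
    rw [dif_pos h1]
    exact h _ _ _ _ h1.choose_spec

/-- Equivalent graphs give a winning strategy for Duplicator on the system. -/
theorem fam_of_equiv (hN : M * (32 * M + 1) ≤ N) {k : ℕ} (hk : 2 ≤ k) (j₀ : Fin M)
    (h : WLEquiv k (c.graph N blk 0) (c.graph N blk 1)) :
    ∃ Fam : (Fin k → Blk) → (Var → Z2) → Prop,
      (∀ B g, Fam B g → g c.z = 0 ∧ ∀ i, c.Sat g (B i)) ∧
      (∀ B g, Fam B g → ∀ i j, ∃ g', Fam (update B i (blk j)) g' ∧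
        ∀ i' s, g' (c.var (B i') s) = g (c.var (B i') s)) ∧ ∃ B g, Fam B g := by
  have : Nontrivial (Fin k) := Fin.nontrivial_iff_two_le.2 hk
  refine ⟨fun B g => ∃ idx : Fin k → Fin M, (∀ i, B i = blk (idx i)) ∧ g c.z = 0 ∧
    Same (c.graph N blk 0) (c.graph N blk 1) k (fun i => .inl (idx i, 0))
      (fun i => .inl (idx i, fun s => g (c.var (blk (idx i)) s))), ?_, ?_, ?_⟩
  · rintro B g ⟨idx, hB, hz, hs⟩
    refine ⟨hz, fun i => ?_⟩
    obtain ⟨u, hu, hv⟩ := c.same_block blk hN hk hs i
    have : (fun s => g (c.var (blk (idx i)) s)) = u := by simpa using hu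
    rw [hB, Sat]
    simpa [← this] using hv.1
  · rintro B g ⟨idx, hB, hz, hs⟩ i j
    obtain ⟨b, hb⟩ := hs.ext (.inl (j, 0))
    have e : ∀ i, update (fun i => (Sum.inl (idx i, 0) : Vtx M N)) i (.inl (j, 0)) =
        fun i' => .inl (update idx i j i', 0) := by
      intro i
      funext i'
      by_cases e : i' = i
      · subst e; simp
      · simp [e]
    simp only [e] at hb
    obtain ⟨u, hu, hv⟩ := c.same_block blk hN hk (hb i) i
    simp only [update_self] at hu hv
    have hval : ∀ i', c.Valid 1 (blk (idx i')) fun s => g (c.var (blk (idx i')) s) := by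
      intro i'
      obtain ⟨u, hu, hv⟩ := c.same_block blk hN hk hs i'
      have : (fun s => g (c.var (blk (idx i')) s)) = u := by simpa using hu
      exact this ▸ hv
    have hag : ∀ i', c.Agree (blk (idx i')) (fun s => g (c.var (blk (idx i')) s)) (blk j) u := by
      intro i'
      obtain ⟨i'', hi⟩ := exists_ne i'
      have := c.same_agree blk (hb i'') (i := i') (j := i'')
        (u := fun s => g (c.var (blk (idx i')) s)) (v := u) (by simp [hi.symm])
        (by simp [hu]) (by simpa [hi.symm] using hval i')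
      simpa [hi.symm] using this
    obtain ⟨g', hz', hg'⟩ := c.exists_asg (fun o : Option (Fin k) => o.elim (blk j) fun i => blk (idx i))
      (fun o => o.elim u fun i s => g (c.var (blk (idx i)) s)) (by
        rintro (_ | a) (_ | b)
        · exact hv.2.1
        · exact fun s s' e => (hag b s' s e.symm).symm
        · exact hag a
        · intro s s' e
          exact congrArg g e) (by
        rintro (_ | a)
        · exact hv.2.2
        · exact (hval a).2.2)
    refine ⟨g', ⟨update idx i j, fun i' => ?_, hz', ?_⟩, fun i' s => ?_⟩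
    · by_cases e : i' = i
      · subst e; simp
      · simp [e, hB]
    · convert hb i using 1
      funext i'
      by_cases e : i' = i
      · subst e
        simp only [update_self, hu]
        congr 2
        funext s
        exact hg' none s
      · simp only [update_of_ne e]
        congr 2
        funext s
        exact hg' (some i') s
    · rw [hB]
      exact hg' (some i') s
  · obtain ⟨y, hy⟩ := h.exists_same fun _ => .inl (j₀, 0)
    choose u hu hv using c.same_block blk hN hk (idx := fun _ => j₀) hy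
    obtain ⟨g, hz, hg⟩ := c.exists_asg (fun _ : Fin k => blk j₀) u
      (fun i j => c.same_agree blk (idx := fun _ => j₀) hy (hu i) (hu j) (hv i))
      (fun i => (hv i).2.2)
    refine ⟨fun _ => blk j₀, g, fun _ => j₀, fun _ => rfl, hz, ?_⟩
    convert hy using 1
    funext i
    rw [hu i]
    congr 2
    funext s
    exact hg i s

end Csp

end Vale.Agent.P310
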