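import Vale.Agent.P310.Csp

/-! The layered graph of residues, its slices and cuts. -/

namespace Vale.Agent.P310

open Finset

/-- the modulus of level `l` -/
def md (m F l : ℕ) : ℕ := if 0 < l ∧ l < m then l * F + 1 else 1

abbrev Edge := ℕ × ℕ × ℕ

variable (m F : ℕ)

def LegE (e : Edge) : Prop := e.1 < m ∧ e.2.1 < md m F e.1 ∧ e.2.2 < md m F (e.1 + 1)

def IsSl (P : ℕ → ℕ) : Prop := ∀ l, P l < md m F l

def edge (P : ℕ → ℕ) (j : ℕ) : Edge := (j, P j, P (j + 1))

def ssum (P : ℕ → ℕ) (D : Edge → Z2) : Z2 := ∑ j ∈ range m, D (edge P j)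

def Full (E : Finset Edge) (P : ℕ → ℕ) : Prop := ∀ j < m, edge P j ∈ E

def Pot (D : Edge → Z2) (a : Z2) (η : ℕ → ℕ → Z2) : Prop :=
  η 0 0 = a ∧ η m 0 = 0 ∧ ∀ e, LegE m F e → D e = η e.1 e.2.1 + η (e.1 + 1) e.2.2

def Cut (D : Edge → Z2) (a : Z2) : Prop := ∃ η, Pot m F D a η

def shV (d : ℕ → ℕ) (l r : ℕ) : ℕ := (r + d l) % md m F l

def shE (d : ℕ → ℕ) (e : Edge) : Edge := (e.1, shV m F d e.1 e.2.1, shV m F d (e.1 + 1) e.2.2)

def shP (d : ℕ → ℕ) (P : ℕ → ℕ) : ℕ → ℕ := fun l => shV m F d l (P l)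

variable {m F}

lemma md_pos (l : ℕ) : 0 < md m F l := by unfold md; split_ifs <;> omega
lemma md_zero : md m F 0 = 1 := by simp [md]
lemma md_ge {l : ℕ} (h : m ≤ l) : md m F l = 1 := by unfold md; rw [if_neg (by omega)]

lemma IsSl.zero {P} (h : IsSl m F P) : P 0 = 0 := by have := h 0; rw [md_zero] at this; omega
lemma IsSl.ge {P} (h : IsSl m F P) {l} (hl : m ≤ l) : P l = 0 := by
  have := h l; rw [md_ge hl] at this; omega
lemma isSl_zero : IsSl m F 0 := fun l => md_pos l
lemma IsSl.leg {P} (h : IsSl m F P) {j} (hj : j < m) : LegE m F (edge P j) := ⟨hj, h _, h _⟩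

lemma shV_lt (d l r) : shV m F d l r < md m F l := Nat.mod_lt _ (md_pos l)
lemma LegE.sh {e} (h : LegE m F e) (d) : LegE m F (shE m F d e) := ⟨h.1, shV_lt _ _ _, shV_lt _ _ _⟩
lemma isSl_shP (d P) : IsSl m F (shP m F d P) := fun _ => shV_lt _ _ _
lemma edge_shP (d P j) : edge (shP m F d P) j = shE m F d (edge P j) := rfl
lemma ssum_sh (d P) (D : Edge → Z2) : ssum m P (fun e => D (shE m F d e)) = ssum m (shP m F d P) D :=
  rfl
lemma shP_zero {P} (h : IsSl m F P) : shP m F (fun _ => 0) P = P := by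
  funext l; simp [shP, shV, Nat.mod_eq_of_lt (h l)]
lemma shE_zero {e} (h : LegE m F e) : shE m F (fun _ => 0) e = e := by
  simp [shE, shV, Nat.mod_eq_of_lt h.2.1, Nat.mod_eq_of_lt h.2.2]

lemma ssum_add (P) (D D' : Edge → Z2) : ssum m P (D + D') = ssum m P D + ssum m P D' := by
  simp [ssum, sum_add_distrib]
lemma ssum_smul (P) (a : Z2) (D : Edge → Z2) : ssum m P (a • D) = a * ssum m P D := by
  simp [ssum, mul_sum]
lemma ssum_congr {P} (h : IsSl m F P) {D D' : Edge → Z2} (e : ∀ x, LegE m F x → D x = D' x) :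
    ssum m P D = ssum m P D' :=
  sum_congr rfl fun _ hj => e _ (h.leg (mem_range.1 hj))

lemma telescope (a : ℕ → Z2) (n : ℕ) : ∑ j ∈ range n, (a j + a (j + 1)) = a 0 + a n := by
  induction n with
  | zero => simp [Csp.z2_add_self]
  | succ n ih =>
    rw [sum_range_succ, ih, add_assoc, ← add_assoc (a n), Csp.z2_add_self, zero_add]

lemma Cut.sum {D a} (h : Cut m F D a) {P} (hP : IsSl m F P) : ssum m P D = a := by
  obtain ⟨η, h0, h1, h2⟩ := h
  rw [ssum_congr hP h2]
  have := telescope (fun j => η j (P j)) m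
  simp only [hP.zero, hP.ge le_rfl, h0, h1, add_zero] at this
  exact this

lemma Cut.add {D D' a a'} (h : Cut m F D a) (h' : Cut m F D' a') : Cut m F (D + D') (a + a') := by
  obtain ⟨η, h0, h1, h2⟩ := h
  obtain ⟨η', h0', h1', h2'⟩ := h'
  refine ⟨η + η', by simp [h0, h0'], by simp [h1, h1'], fun e he => ?_⟩
  simp only [Pi.add_apply, h2 e he, h2' e he]
  ring

lemma Cut.smul {D a} (h : Cut m F D a) (t : Z2) : Cut m F (t • D) (t * a) := by
  obtain ⟨η, h0, h1, h2⟩ := h
  refine ⟨t • η, by simp [h0], by simp [h1], fun e he => ?_⟩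
  simp only [Pi.smul_apply, h2 e he, smul_eq_mul]
  ring

lemma cut_zero : Cut m F 0 0 := ⟨0, rfl, rfl, fun _ _ => by simp⟩

lemma Cut.sh {D a} (h : Cut m F D a) (d) : Cut m F (fun e => D (shE m F d e)) a := by
  obtain ⟨η, h0, h1, h2⟩ := h
  refine ⟨fun l r => η l (shV m F d l r), ?_, ?_, fun e he => h2 _ (he.sh d)⟩
  · simp [shV, md_zero, Nat.mod_one, h0]
  · simp [shV, md_ge le_rfl, Nat.mod_one, h1]

lemma edge_inj (P) : Function.Injective (edge P) := fun _ _ h => congrArg Prod.fst h

lemma card_image_edge (P) : ((range m).image (edge P)).card = m := by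
  rw [card_image_of_injective _ (edge_inj P), card_range]

lemma Full.sub {E P} (h : Full m E P) : (range m).image (edge P) ⊆ E := by
  intro e he
  obtain ⟨j, hj, rfl⟩ := mem_image.1 he
  exact h j (mem_range.1 hj)

lemma Full.mono {E E' P} (h : Full m E P) (s : E ⊆ E') : Full m E' P := fun j hj => s (h j hj)

lemma Full.card {E P} (h : Full m E P) : m ≤ E.card :=
  (card_image_edge P).symm.trans_le (card_le_card h.sub)

lemma Full.mem {E P} (h : Full m E P) (hc : E.card ≤ m) {e} (he : e ∈ E) : e = edge P e.1 := by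
  have := eq_of_subset_of_card_le h.sub (by rw [card_image_edge]; exact hc)
  rw [← this] at he
  obtain ⟨j, -, rfl⟩ := mem_image.1 he
  rfl

lemma Full.unique {E P P'} (h : Full m E P) (h' : Full m E P') (hc : E.card ≤ m + 1)
    (hP : IsSl m F P) (hP' : IsSl m F P') : P = P' := by
  by_contra hne
  obtain ⟨l, hl⟩ := Function.ne_iff.1 hne
  have h0 : l ≠ 0 := by rintro rfl; exact hl (hP.zero.trans hP'.zero.symm)
  have h1 : l < m := by
    by_contra h1; exact hl ((hP.ge (by omega)).trans (hP'.ge (by omega)).symm)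
  obtain ⟨j, rfl⟩ : ∃ j, l = j + 1 := ⟨l - 1, by omega⟩
  have s : insert (edge P' j) (insert (edge P' (j + 1)) ((range m).image (edge P))) ⊆ E :=
    insert_subset (h' _ (by omega)) (insert_subset (h' _ h1) h.sub)
  have := card_le_card s
  rw [card_insert_of_notMem, card_insert_of_notMem, card_image_edge] at this
  · omega
  · simp only [mem_image, edge, Prod.mk.injEq, not_exists, not_and]
    rintro x - rfl e
    exact absurd e hl
  · simp only [mem_insert, mem_image, edge, Prod.mk.injEq, not_or, not_exists, not_and]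
    refine ⟨fun e => by omega, ?_⟩
    rintro x - rfl - e
    exact hl e

lemma cut_line {j : ℕ} (hj : j < m) : Cut m F (fun e => if e.1 = j then 1 else 0) 1 := by
  refine ⟨fun l _ => if l ≤ j then 1 else 0, by simp, by simp [hj], fun e _ => ?_⟩
  beta_reduce
  split_ifs <;> first | rfl | omega

/-- at most `m` edges that contain no slice are avoided by a separating cut -/
lemma exists_cut {E : Finset Edge} (hc : E.card ≤ m) (hl : ∀ e ∈ E, LegE m F e)
    (hn : ∀ P, IsSl m F P → ¬ Full m E P) : ∃ D, Cut m F D 1 ∧ ∀ e ∈ E, D e = 0 := by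
  by_cases h1 : ∃ j < m, ∀ e ∈ E, e.1 ≠ j
  · obtain ⟨j, hj, h⟩ := h1
    exact ⟨_, cut_line hj, fun e he => if_neg (h e he)⟩
  push Not at h1
  choose! f hf hf' using h1
  have hE : (range m).image f = E := by
    refine eq_of_subset_of_card_le ?_ ?_
    · intro e he
      obtain ⟨j, hj, rfl⟩ := mem_image.1 he
      exact hf j (mem_range.1 hj)
    · rw [card_image_of_injOn, card_range]
      · exact hc
      · intro a ha b hb e
        rw [← hf' a (by simpa using ha), e, hf' b (by simpa using hb)]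
  let P : ℕ → ℕ := fun l => if l < m then (f l).2.1 else 0
  have hP : IsSl m F P := by
    intro l
    simp only [P]
    split_ifs with h
    · have := (hl _ (hf l h)).2.1
      rwa [hf' l h] at this
    · exact md_pos l
  have := hn P hP
  unfold Full at this
  push Not at this
  obtain ⟨j, hj, hj'⟩ := this
  have h2 : (f j).2.2 ≠ P (j + 1) := by
    intro e
    apply hj'
    convert hf j hj
    simp only [edge, ← e, P, if_pos hj]
    exact Prod.ext (hf' j hj).symm rfl
  have h3 : j + 1 < m := by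
    by_contra h3
    have := (hl _ (hf j hj)).2.2
    rw [hf' j hj, md_ge (by omega)] at this
    simp only [P, if_neg h3] at h2
    omega
  simp only [P, if_pos h3] at h2
  let η : ℕ → ℕ → Z2 := fun l r => if l ≤ j ∨ (l = j + 1 ∧ r = (f j).2.2) then 1 else 0
  refine ⟨fun e => η e.1 e.2.1 + η (e.1 + 1) e.2.2, ⟨η, by simp [η], ?_, fun _ _ => rfl⟩, ?_⟩
  · simp only [η]
    rw [if_neg (by omega)]
  · intro e he
    rw [← hE] at he
    obtain ⟨i, hi, rfl⟩ := mem_image.1 he
    have hi := mem_range.1 hi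
    simp only [η, hf' i hi]
    rcases lt_trichotomy i j with h | rfl | h
    · rw [if_pos (by omega), if_pos (by omega)]; rfl
    · rw [if_pos (by omega), if_pos (by simp)]; rfl
    · rw [if_neg, if_neg (by omega)]
      · rfl
      · rintro (h' | ⟨rfl, h'⟩)
        · omega
        · exact h2 h'.symm

end Vale.Agent.P310
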