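import Mathlib

/-! Weisfeiler-Leman equivalence and its time complexity on Mathlib's multi-stack Turing machines. -/

namespace Vale.Agent.P310

/-- The colours of round `r` of `k`-dimensional refinement: an atomic type (which entries are equal,
which are adjacent) in round `0`, and an old colour together with a multiset of `k`-tuples of old
colours in round `r + 1`. -/
def Color (k : ℕ) : ℕ → Type
  | 0 => Fin k → Fin k → Prop × Prop
  | r + 1 => Color k r × Multiset (Fin k → Color k r)

/-- The colour `C_r(x)` of a `k`-tuple of vertices (joint update). -/
def wlColor {V : Type} [Fintype V] (G : SimpleGraph V) (k : ℕ) :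
    (r : ℕ) → (Fin k → V) → Color k r
  | 0, x => fun i j => (x i = x j, G.Adj (x i) (x j))
  | r + 1, x => (wlColor G k r x,
      (Finset.univ : Finset V).val.map fun y i => wlColor G k r (Function.update x i y))

/-- `k`-WL equivalence: in every round the multisets of colours of `k`-tuples coincide. -/
def WLEquiv {V : Type} [Fintype V] (k : ℕ) (G H : SimpleGraph V) : Prop :=
  ∀ r : ℕ, (Finset.univ : Finset (Fin k → V)).val.map (wlColor G k r) =
    (Finset.univ : Finset (Fin k → V)).val.map (wlColor H k r)

open Classical in
/-- the adjacency matrix, row by row, as a bit string of length `n ^ 2` -/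
noncomputable def adjBits {n : ℕ} (G : SimpleGraph (Fin n)) : List Bool :=
  (List.finRange n).flatMap fun i => (List.finRange n).map fun j => decide (G.Adj i j)

open Classical in
/-- The Turing machine `A`, given the adjacency matrices of any two graphs with `n` vertices each,
halts after at most `T n` steps with the one-bit answer to the question `G ≡_k H`. -/
def DecidesWL (k : ℕ) (A : Turing.TM2ComputableAux Bool Bool) (T : ℕ → ℕ) : Prop :=
  ∀ (n : ℕ) (G H : SimpleGraph (Fin n)),
    Nonempty (Turing.TM2OutputsInTime A.tm ((adjBits G ++ adjBits H).map A.inputAlphabet.symm)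
      (some [A.outputAlphabet.symm (decide (WLEquiv k G H))]) (T n))

end Vale.Agent.P310
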