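import Vale.Agent.P310.Move

/-! Duplicator's strategy on the linear system. -/

namespace Vale.Agent.P310

open Finset Function

namespace Sys

variable (s : Sys)

noncomputable def pot (D : Edge → Z2) : ℕ → ℕ → Z2 := Classical.epsilon (Pot s.m s.F D 0)

noncomputable def asg (st : St) (v : Var) : Z2 :=
  if v.1 = 1 then st.X v.2.1 v.2.2.2.2
  else if v.1 = 2 then st.H (v.2.1, v.2.2.1) v.2.2.2.1 v.2.2.2.2
  else if v.1 = 3 then s.pot (st.H (v.2.1, v.2.2.1) v.2.2.2.1 +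
    st.H (v.2.1, v.2.2.1) (v.2.2.2.1 + 1)) v.2.2.2.2.1 v.2.2.2.2.2.1
  else 0

variable {s}

lemma asg_z (st) : s.asg st vz = 0 := by simp [asg, vz]

lemma asg_hv {st} (hv : s.Valid st) (ℓ c e) : s.asg st (s.hv ℓ c e) = st.H ℓ c e := by
  unfold Sys.hv
  split_ifs with h
  · subst h
    rw [hv.v0]
    unfold xv
    split_ifs with h
    · obtain ⟨h1, h2, h3⟩ := h
      rw [asg_z, h1]
      have : s.sh ℓ e = ((s.sh ℓ e).1, 0, 0) := Prod.ext rfl (Prod.ext h2 h3)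
      beta_reduce
      rw [this, hv.v4]
    · simp [asg]
  · simp [asg]

lemma asg_yv (st ℓ c l r) : s.asg st (s.yv ℓ c l r) =
    if l = 0 ∨ s.m ≤ l then 0 else s.pot (st.H ℓ c + st.H ℓ (c + 1)) l r := by
  unfold yv
  split_ifs
  · exact asg_z _
  · simp [asg]

lemma asg_agree {S st st'} (hv : s.Valid st) (hv' : s.Valid st') (h : s.AgreeH S st st') :
    ∀ B ∈ S, ∀ t, s.asg st' (s.csp.var B t) = s.asg st (s.csp.var B t) := by
  intro B hB t
  simp only [csp, varN]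
  split_ifs with h1 h2 h3 h4 h5
  · rw [asg_hv hv, asg_hv hv', (h B hB).1 h1 t t.2]
  · rw [asg_hv hv, asg_hv hv', ((h B hB).2 h1).1]
  · rw [asg_hv hv, asg_hv hv']
    have := congrFun ((h B hB).2 h1).2 B.2.2
    simp only [Pi.add_apply, ((h B hB).2 h1).1] at this
    exact add_left_cancel this
  · rw [asg_yv, asg_yv, ((h B hB).2 h1).2]
  · rw [asg_yv, asg_yv, ((h B hB).2 h1).2]
  · rw [asg_z, asg_z]

lemma asg_sat {st} (hv : s.Valid st) {B : Blk} (hB : s.Legal B) (hb : B.2.1 ≠ st.b B.1) :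
    s.csp.Sat (s.asg st) B := by
  obtain ⟨ℓ, c, e⟩ := B
  by_cases hc : c = s.L
  · subst hc
    rw [sat_rule]
    simp only [asg_hv hv]
    exact hv.v3 _ hB.1 e
  · rw [s.sat_col (asg_z _) hc, asg_hv hv, asg_hv hv, asg_yv, asg_yv]
    obtain ⟨a, h1, h2⟩ := hv.v2 ℓ c (lt_of_le_of_ne hB.2.2.1 hc)
    rw [h2 hb] at h1
    obtain ⟨p0, p1, p2⟩ : Pot s.m s.F _ 0 (s.pot (st.H ℓ c + st.H ℓ (c + 1))) :=
      Classical.epsilon_spec h1
    have key : ∀ l r, l ≤ s.m → r < md s.m s.F l → (if l = 0 ∨ s.m ≤ l then 0 else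
        s.pot (st.H ℓ c + st.H ℓ (c + 1)) l r) = s.pot (st.H ℓ c + st.H ℓ (c + 1)) l r := by
      intro l r hl hr
      split_ifs with h
      · rcases h with rfl | h
        · rw [md_zero] at hr
          rw [show r = 0 by omega, p0]
        · rw [md_ge h] at hr
          rw [show r = 0 by omega, show l = s.m by omega, p1]
      · rfl
    obtain ⟨-, -, -, l1, l2, l3⟩ := hB
    rw [key _ _ l1.le l2, key _ _ l1 l3]
    exact p2 e ⟨l1, l2, l3⟩

lemma exists_init {Tr} (hM : s.Model Tr) : ∃ st, s.GoodSt Tr ∅ st := by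
  refine ⟨⟨0, fun ℓ c => if ℓ.2 = 0 ∧ c ≠ 0 then s.cc ℓ.1 • fun e => if e.1 = 0 then 1 else 0 else 0,
    0⟩, ⟨fun ℓ => ?_, fun ℓ => by simp [L], fun ℓ c hc => ?_, fun ρ _ e => ?_, fun _ => rfl⟩,
    by simp [Free], by simp, fun τ P _ hF => ?_, fun ρ P _ hF => ?_⟩
  · funext e; simp
  · by_cases h : c = 0
    · subst h
      by_cases h' : ℓ.2 = 0
      · exact ⟨_, by simpa [h'] using (cut_line (F := s.F) hM.pos).smul (s.cc ℓ.1), by simp⟩
      · exact ⟨0, by simpa [h'] using cut_zero, by simp⟩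
    · refine ⟨0, ?_, fun _ => rfl⟩
      simp only [h, ne_eq, not_false_eq_true, and_true, Nat.add_eq_zero_iff, one_ne_zero, and_self,
        fun_add_self]
      exact cut_zero
  · simp [sum_range_succ, L]
  · exact absurd hF (not_full_empty hM.pos (by simp [EP]) P)
  · exact absurd hF (not_full_empty hM.pos (by simp [ER]) P)

/-- Duplicator's side: an arc consistent model makes the two graphs equivalent. -/
theorem equiv_of_model {Tr} (hM : s.Model Tr) {M : ℕ} (N : ℕ) (blk : Fin M → Blk)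
    (hb : ∀ i, s.Legal (blk i)) : WLEquiv s.m (s.csp.graph N blk 0) (s.csp.graph N blk 1) := by
  refine s.csp.equiv_of_good blk (fun S g => ∃ st, s.GoodSt Tr S st ∧ g = s.asg st) ?_ ?_ ?_ ?_ ?_
  · rintro S g ⟨st, -, rfl⟩
    exact asg_z _
  · rintro S g ⟨st, h, rfl⟩ B hB
    exact asg_sat h.valid (h.legal B hB) (h.free B hB)
  · rintro S S' g ⟨st, h, rfl⟩ hs
    exact ⟨st, h.mono hs, rfl⟩
  · rintro S g ⟨st, h, rfl⟩ hc i
    obtain ⟨st', h1, h2⟩ := h.ext hM hc (hb i)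
    exact ⟨_, ⟨st', h1, rfl⟩, asg_agree h.valid h1.valid h2⟩
  · obtain ⟨st, h⟩ := exists_init hM
    exact ⟨_, st, h, rfl⟩

lemma model_of_closed {Tr : ℕ → (ℕ → ℕ) → Prop} (hm : 0 < s.m)
    (h0 : ∀ P, IsSl s.m s.F P → (Tr 0 P ↔ P = 0)) (hh : ∀ r ∈ s.R, r.2.2.1 ≠ 0)
    (h1 : s.Closed Tr) {a : ℕ} (h2 : ∀ r ∈ s.R, r.2.2.2.2.2 = true → r = (a, a, a, 0, 0, true))
    (h3 : ∀ P, ¬ Tr a P) : s.Model Tr := by
  have hr : ∀ ρ < s.R.length, s.rule ρ ∈ s.R := fun ρ hρ => by simp [rule, hρ]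
  refine ⟨hm, h0, fun ρ hρ => by simpa [slotP] using hh _ (hr ρ hρ), fun ρ hρ P hP t ht μ hμ => ?_⟩
  let T : ℕ → Prop := fun t => Tr (s.slotP (ρ, t)) (s.shp (ρ, t) P)
  have two : ∀ t1 t2, t1 < 5 → t2 < 5 → t1 ≠ t2 → ¬ T t1 → ¬ T t2 → ∃ σ : ℕ → Z2,
      ∑ t ∈ range 5, σ t = s.cc ρ ∧ σ t = μ ∧ ∀ t' < 5, T t' → σ t' = 0 := by
    intro t1 t2 a1 a2 a3 a4 a5
    obtain ⟨t', b1, b2, b3⟩ : ∃ t', t' < 5 ∧ t' ≠ t ∧ ¬ T t' := by
      by_cases e : t1 = t
      · exact ⟨t2, a2, by omega, a5⟩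
      · exact ⟨t1, a1, e, a4⟩
    refine ⟨fun x => (if x = t then μ else 0) + (if x = t' then μ + s.cc ρ else 0), ?_,
      by simp [b2.symm], fun x _ hx => ?_⟩
    · rw [sum_add_distrib, sum_ite_eq', sum_ite_eq', if_pos (mem_range.2 ht),
        if_pos (mem_range.2 b1), ← add_assoc, Csp.z2_add_self, zero_add]
    · beta_reduce
      rw [if_neg (show x ≠ t' by rintro rfl; exact b3 hx), add_zero]
      split_ifs with e
      · exact hμ (e ▸ hx)
      · rfl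
  have e0 : ∀ t < 4, s.shp (ρ, t) P = P := fun t ht => by rw [shp, s.slotD_lt ht, shP_zero hP]
  have T0 : ∀ t < 2, T t ↔ Tr (s.rule ρ).1 P := fun t ht => by
    simp only [T, e0 t (by omega), slotP, ht, if_true]
  have T2 : ∀ t, 2 ≤ t → t < 4 → (T t ↔ Tr (s.rule ρ).2.1 P) := fun t h2 ht => by
    simp only [T, e0 t ht, slotP, ht, if_true, if_neg (not_lt.2 h2)]
  by_cases b1 : Tr (s.rule ρ).1 P
  swap
  · exact two 0 1 (by omega) (by omega) (by omega) (by rwa [T0 0 (by omega)])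
      (by rwa [T0 1 (by omega)])
  by_cases b2 : Tr (s.rule ρ).2.1 P
  swap
  · exact two 2 3 (by omega) (by omega) (by omega) (by rwa [T2 2 (by omega) (by omega)])
      (by rwa [T2 3 (by omega) (by omega)])
  have hc : (s.rule ρ).2.2.2.2.2 = false := by
    by_contra hc
    rw [h2 _ (hr ρ hρ) (by simpa using hc)] at b1
    exact h3 _ b1
  have T4 : T 4 := by
    have := h1.step (s.rule ρ).1 (s.rule ρ).2.1 (s.rule ρ).2.2.1 (s.rule ρ).2.2.2.1
      (s.rule ρ).2.2.2.2.1 P (by rw [← hc]; exact hr ρ hρ) hP b1 b2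
    simpa [T, slotP, shp, slotD] using this
  have Tall : T t := by
    rcases lt_or_ge t 2 with h | h
    · exact (T0 t h).2 b1
    rcases lt_or_ge t 4 with h' | h'
    · exact (T2 t h h').2 b2
    · rwa [show t = 4 by omega]
  exact ⟨0, by simp [cc, hc], (hμ Tall).symm, fun _ _ _ => rfl⟩

end Sys

end Vale.Agent.P310
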