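import Vale.Agent.P310.Sys

/-! Duplicator's states and the elementary modifications of a state. -/

namespace Vale.Agent.P310

open Finset Function

structure St where
  X : ℕ → Edge → Z2
  H : Link → ℕ → Edge → Z2
  b : Link → ℕ

namespace Sys

variable (s : Sys)

structure Valid (st : St) : Prop where
  v0 : ∀ ℓ, st.H ℓ 0 = fun e => st.X (s.slotP ℓ) (s.sh ℓ e)
  v1 : ∀ ℓ, st.b ℓ < s.L
  v2 : ∀ ℓ c, c < s.L → ∃ a, Cut s.m s.F (st.H ℓ c + st.H ℓ (c + 1)) a ∧ (c ≠ st.b ℓ → a = 0)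
  v3 : ∀ ρ < s.R.length, ∀ e, ∑ t ∈ range 5, st.H (ρ, t) s.L e = if e.1 = 0 then s.cc ρ else 0
  v4 : ∀ j, st.X 0 (j, 0, 0) = 0

def AgreeH (S : Finset Blk) (st st' : St) : Prop := ∀ B ∈ S,
  (B.2.1 = s.L → ∀ t < 5, st'.H (B.1.1, t) s.L B.2.2 = st.H (B.1.1, t) s.L B.2.2) ∧
  (B.2.1 ≠ s.L → st'.H B.1 B.2.1 B.2.2 = st.H B.1 B.2.1 B.2.2 ∧
    st'.H B.1 B.2.1 + st'.H B.1 (B.2.1 + 1) = st.H B.1 B.2.1 + st.H B.1 (B.2.1 + 1))

def Free (S : Finset Blk) (b : Link → ℕ) : Prop := ∀ B ∈ S, B.2.1 ≠ b B.1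

def EP (τ : ℕ) (b : Link → ℕ) (S : Finset Blk) : Finset Edge :=
  (S.filter fun B => s.slotP B.1 = τ ∧ B.2.1 < b B.1).image fun B => s.sh B.1 B.2.2

def ER (ρ : ℕ) (b : Link → ℕ) (S : Finset Blk) : Finset Edge :=
  (S.filter fun B => B.1.1 = ρ ∧ b B.1 < B.2.1).image fun B => B.2.2

variable {s}

lemma AgreeH.refl (S st) : s.AgreeH S st st := fun _ _ => ⟨fun _ _ _ => rfl, fun _ => ⟨rfl, rfl⟩⟩

lemma AgreeH.trans {S st st' st''} (h : s.AgreeH S st st') (h' : s.AgreeH S st' st'') :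
    s.AgreeH S st st'' := fun B hB =>
  ⟨fun e t ht => ((h' B hB).1 e t ht).trans ((h B hB).1 e t ht), fun e =>
    ⟨((h' B hB).2 e).1.trans ((h B hB).2 e).1, ((h' B hB).2 e).2.trans ((h B hB).2 e).2⟩⟩

lemma mem_EP {τ b S B} (hB : B ∈ S) (h1 : s.slotP B.1 = τ) (h2 : B.2.1 < b B.1) :
    s.sh B.1 B.2.2 ∈ s.EP τ b S := mem_image_of_mem _ (mem_filter.2 ⟨hB, h1, h2⟩)

lemma mem_ER {ρ} {b : Link → ℕ} {S B} (hB : B ∈ S) (h1 : B.1.1 = ρ) (h2 : b B.1 < B.2.1) :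
    B.2.2 ∈ ER ρ b S := mem_image_of_mem _ (mem_filter.2 ⟨hB, h1, h2⟩)

lemma EP_sub {τ b b' S S'} (h : ∀ B ∈ S, s.slotP B.1 = τ → B.2.1 < b B.1 → B ∈ S' ∧ B.2.1 < b' B.1) :
    s.EP τ b S ⊆ s.EP τ b' S' := by
  refine image_subset_image fun B hB => ?_
  rw [mem_filter] at hB ⊢
  exact ⟨(h B hB.1 hB.2.1 hB.2.2).1, hB.2.1, (h B hB.1 hB.2.1 hB.2.2).2⟩

lemma ER_sub {ρ} {b b' : Link → ℕ} {S S'}
    (h : ∀ B ∈ S, B.1.1 = ρ → b B.1 < B.2.1 → B ∈ S' ∧ b' B.1 < B.2.1) :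
    ER ρ b S ⊆ ER ρ b' S' := by
  refine image_subset_image fun B hB => ?_
  rw [mem_filter] at hB ⊢
  exact ⟨(h B hB.1 hB.2.1 hB.2.2).1, hB.2.1, (h B hB.1 hB.2.1 hB.2.2).2⟩

lemma card_EP (τ b S) : (s.EP τ b S).card ≤ S.card := card_image_le.trans (card_filter_le _ _)
lemma card_ER (ρ b S) : (ER ρ b S).card ≤ S.card := card_image_le.trans (card_filter_le _ _)

lemma leg_EP {τ b S} (h : ∀ B ∈ S, s.Legal B) : ∀ e ∈ s.EP τ b S, LegE s.m s.F e := by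
  intro e he
  obtain ⟨B, hB, rfl⟩ := mem_image.1 he
  exact (h B (mem_filter.1 hB).1).2.2.2.sh _

lemma leg_ER {ρ b S} (h : ∀ B ∈ S, s.Legal B) : ∀ e ∈ ER ρ b S, LegE s.m s.F e := by
  intro e he
  obtain ⟨B, hB, rfl⟩ := mem_image.1 he
  exact (h B (mem_filter.1 hB).1).2.2.2

lemma z2_eq_of_add {x y : Z2} (h : x + y = 0) : y = x := by revert x y; decide

lemma fun_add_self (D : Edge → Z2) : D + D = 0 := funext fun _ => Csp.z2_add_self _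

/-- adding an increment to all groups of variables -/
lemma cut_step {D D' A A' : Edge → Z2} {a a' : Z2} (h : Cut s.m s.F (D + D') a)
    (h' : Cut s.m s.F (A + A') a') : Cut s.m s.F (D + A + (D' + A')) (a + a') := by
  have := h.add h'
  rwa [add_add_add_comm] at this

lemma flipP {st : St} (hv : s.Valid st) {S} (hf : Free S st.b)
    (hd : ∀ ρ < s.R.length, s.slotP (ρ, 4) ≠ 0) (τ : ℕ) {D G : Edge → Z2} {a : Z2}
    (hD : Cut s.m s.F D a) (hG0 : τ ≠ 0 → G = 0) (hG1 : τ = 0 → ∀ j, D (j, 0, 0) + G (j, 0, 0) = 0)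
    (hE : ∀ e ∈ s.EP τ st.b S, D e = 0)
    (hGS : ∀ B ∈ S, (B.2.1 = s.L → G = 0) ∧ G (s.sh B.1 B.2.2) = 0) :
    ∃ st', s.Valid st' ∧ st'.b = st.b ∧ s.AgreeH S st st' ∧
      st'.X = update st.X τ (st.X τ + (G + D)) ∧ ∀ ℓ c, st.b ℓ < c →
        st'.H ℓ c = st.H ℓ c + if s.slotP ℓ = τ then (fun e => G (s.sh ℓ e)) else 0 := by
  let Δ : Link → ℕ → Edge → Z2 := fun ℓ c => if s.slotP ℓ = τ then
    (fun e => G (s.sh ℓ e)) + (if c ≤ st.b ℓ then (fun e => D (s.sh ℓ e)) else 0) else 0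
  have hΔ : ∀ ℓ c, c ≠ st.b ℓ → Δ ℓ (c + 1) = Δ ℓ c := by
    intro ℓ c hc
    simp only [Δ]
    congr 2
    exact if_congr (by omega) rfl rfl
  refine ⟨⟨update st.X τ (st.X τ + (G + D)), fun ℓ c => st.H ℓ c + Δ ℓ c, st.b⟩,
    ⟨fun ℓ => ?_, hv.v1, fun ℓ c hc => ?_, fun ρ hρ e => ?_, fun j => ?_⟩, rfl, fun B hB => ?_, rfl,
    fun ℓ c hc => ?_⟩
  · funext e
    simp only [hv.v0, Δ, Nat.zero_le, if_true, Pi.add_apply]
    by_cases h : s.slotP ℓ = τ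
    · simp [h]
    · simp [h]
  · obtain ⟨a0, h1, h2⟩ := hv.v2 ℓ c hc
    by_cases h : c = st.b ℓ
    · have : ∃ a', Cut s.m s.F (Δ ℓ c + Δ ℓ (c + 1)) a' := by
        simp only [Δ]
        split_ifs with h3 h4 h5 h6
        · omega
        · refine ⟨a, ?_⟩
          rw [add_zero, add_right_comm, fun_add_self, zero_add]
          exact hD.sh _
        · omega
        · omega
        · exact ⟨0, by simpa using cut_zero⟩
      obtain ⟨a', h'⟩ := this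
      exact ⟨_, cut_step h1 h', fun h' => absurd h h'⟩
    · refine ⟨_, cut_step h1 (a' := 0) ?_, fun _ => by simp [h2 h]⟩
      rw [hΔ ℓ c h, fun_add_self]
      exact cut_zero
  · simp only [Pi.add_apply, sum_add_distrib, hv.v3 ρ hρ e, add_eq_left]
    have h1 : ∀ t, Δ (ρ, t) s.L e = if s.slotP (ρ, t) = τ then G (s.sh (ρ, t) e) else 0 := by
      intro t
      simp only [Δ]
      rw [if_neg (show ¬ s.L ≤ st.b (ρ, t) from not_le.2 (hv.v1 _))]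
      split_ifs <;> simp
    simp only [h1]
    by_cases h0 : τ = 0
    · subst h0
      have e1 : s.slotP (ρ, 1) = s.slotP (ρ, 0) := by simp [slotP]
      have e2 : s.slotP (ρ, 3) = s.slotP (ρ, 2) := by simp [slotP]
      have e3 : s.sh (ρ, 1) = s.sh (ρ, 0) := by funext e; simp [sh, slotD_lt]
      have e4 : s.sh (ρ, 3) = s.sh (ρ, 2) := by funext e; simp [sh, slotD_lt]
      simp only [sum_range_succ, range_zero, sum_empty, zero_add, e1, e2, e3, e4, if_neg (hd ρ hρ),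
        add_zero, Csp.z2_add_self]
    · simp [hG0 h0]
  · by_cases h0 : τ = 0
    · subst h0
      simp only [update_self, Pi.add_apply, hv.v4, zero_add]
      rw [add_comm]
      exact hG1 rfl j
    · simp only
      rw [update_of_ne (Ne.symm h0), hv.v4]
  · refine ⟨fun h t _ => ?_, fun h => ⟨?_, ?_⟩⟩
    · simp only [Δ, Pi.add_apply, add_eq_left]
      rw [if_neg (show ¬ s.L ≤ st.b (B.1.1, t) from not_le.2 (hv.v1 _)), (hGS B hB).1 h]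
      split_ifs <;> simp
    · simp only [Δ, Pi.add_apply, add_eq_left]
      split_ifs with h1 h2
      · simp [(hGS B hB).2, hE _ (mem_EP hB h1 (lt_of_le_of_ne h2 (hf B hB)))]
      · simp [(hGS B hB).2]
      · rfl
    · simp only
      rw [hΔ _ _ (hf B hB), add_add_add_comm, fun_add_self, add_zero]
  · simp only [Δ]
    rw [if_neg (show ¬ c ≤ st.b ℓ by omega), add_zero]

lemma flipR {st : St} (hv : s.Valid st) {S} (hf : Free S st.b) (ρ : ℕ) {α : ℕ → Z2}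
    (hα : ∑ t ∈ range 5, α t = 0) {D : Edge → Z2} (hD : Cut s.m s.F D 1)
    (hE : ∀ e ∈ ER ρ st.b S, D e = 0) :
    ∃ st', s.Valid st' ∧ st'.b = st.b ∧ s.AgreeH S st st' ∧ st'.X = st.X ∧
      ∀ ℓ c, st'.H ℓ c = st.H ℓ c + if ℓ.1 = ρ ∧ st.b ℓ < c then α ℓ.2 • D else 0 := by
  let Δ : Link → ℕ → Edge → Z2 := fun ℓ c => if ℓ.1 = ρ ∧ st.b ℓ < c then α ℓ.2 • D else 0
  have hΔ : ∀ ℓ c, c ≠ st.b ℓ → Δ ℓ (c + 1) = Δ ℓ c := by
    intro ℓ c hc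
    exact if_congr (by omega) rfl rfl
  refine ⟨⟨st.X, fun ℓ c => st.H ℓ c + Δ ℓ c, st.b⟩,
    ⟨fun ℓ => ?_, hv.v1, fun ℓ c hc => ?_, fun ρ' hρ e => ?_, hv.v4⟩, rfl, fun B hB => ?_, rfl,
    fun ℓ c => rfl⟩
  · simp [hv.v0, Δ]
  · obtain ⟨a0, h1, h2⟩ := hv.v2 ℓ c hc
    by_cases h : c = st.b ℓ
    · have : ∃ a', Cut s.m s.F (Δ ℓ c + Δ ℓ (c + 1)) a' := by
        simp only [Δ]
        split_ifs with h3 h4 h5
        · omega
        · omega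
        · exact ⟨_, by simpa using hD.smul (α ℓ.2)⟩
        · exact ⟨0, by simpa using cut_zero⟩
      obtain ⟨a', h'⟩ := this
      exact ⟨_, cut_step h1 h', fun h' => absurd h h'⟩
    · refine ⟨_, cut_step h1 (a' := 0) ?_, fun _ => by simp [h2 h]⟩
      rw [hΔ ℓ c h, fun_add_self]
      exact cut_zero
  · simp only [Pi.add_apply, sum_add_distrib, hv.v3 ρ' hρ e, add_eq_left, Δ, hv.v1, and_true]
    by_cases h : ρ' = ρ
    · simp only [h, if_true, Pi.smul_apply, smul_eq_mul, ← sum_mul, hα, zero_mul]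
    · simp [h]
  · refine ⟨fun h t _ => ?_, fun h => ⟨?_, ?_⟩⟩
    · simp only [Δ, Pi.add_apply, add_eq_left]
      split_ifs with h1
      · simp [hE _ (mem_ER hB h1.1 (h ▸ hv.v1 _))]
      · rfl
    · simp only [Δ, Pi.add_apply, add_eq_left]
      split_ifs with h1
      · simp [hE _ (mem_ER hB h1.1 h1.2)]
      · rfl
    · simp only
      rw [hΔ _ _ (hf B hB), add_add_add_comm, fun_add_self, add_zero]

lemma seg {st : St} (hv : s.Valid st) {S} (hf : Free S st.b) (ℓ₀ : Link) {b₁ : ℕ} (hb : b₁ < s.L)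
    (hne : b₁ ≠ st.b ℓ₀) (hf' : ∀ B ∈ S, B.2.1 ≠ b₁) {D : Edge → Z2} {a : Z2}
    (hD : Cut s.m s.F D a) (ha : Cut s.m s.F (st.H ℓ₀ (st.b ℓ₀) + st.H ℓ₀ (st.b ℓ₀ + 1)) a)
    (hE : ∀ B ∈ S, B.1 = ℓ₀ → min b₁ (st.b ℓ₀) < B.2.1 → B.2.1 < max b₁ (st.b ℓ₀) → D B.2.2 = 0) :
    ∃ st', s.Valid st' ∧ st'.b = update st.b ℓ₀ b₁ ∧ s.AgreeH S st st' ∧ st'.X = st.X ∧
      ∀ ℓ, st'.H ℓ s.L = st.H ℓ s.L := by
  let Δ : Link → ℕ → Edge → Z2 := fun ℓ c =>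
    if ℓ = ℓ₀ ∧ min b₁ (st.b ℓ₀) < c ∧ c ≤ max b₁ (st.b ℓ₀) then D else 0
  have hΔ : ∀ ℓ c, (ℓ = ℓ₀ → c ≠ st.b ℓ₀ ∧ c ≠ b₁) → Δ ℓ (c + 1) = Δ ℓ c := by
    intro ℓ c hc
    refine if_congr (and_congr_right fun h => ?_) rfl rfl
    have := hc h
    omega
  have hΔ' : ∀ c, c = st.b ℓ₀ ∨ c = b₁ → Δ ℓ₀ c + Δ ℓ₀ (c + 1) = D := by
    intro c hc
    simp only [Δ, true_and]
    split_ifs with h1 h2 h3
    · omega
    · simp
    · simp
    · omega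
  have hL : ∀ ℓ, Δ ℓ s.L = 0 := fun ℓ => if_neg (by have := hv.v1 ℓ₀; omega)
  refine ⟨⟨st.X, fun ℓ c => st.H ℓ c + Δ ℓ c, update st.b ℓ₀ b₁⟩,
    ⟨fun ℓ => ?_, fun ℓ => ?_, fun ℓ c hc => ?_, fun ρ' hρ e => ?_, hv.v4⟩, rfl, fun B hB => ?_, rfl,
    fun ℓ => by simp [hL]⟩
  · simp [hv.v0, Δ]
  · by_cases h : ℓ = ℓ₀
    · subst h; simpa using hb
    · simpa [h] using hv.v1 ℓ
  · obtain ⟨a0, h1, h2⟩ := hv.v2 ℓ c hc
    by_cases h : ℓ = ℓ₀ ∧ (c = st.b ℓ₀ ∨ c = b₁)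
    · obtain ⟨rfl, h⟩ := h
      by_cases h' : c = st.b ℓ
      · subst h'
        exact ⟨_, cut_step ha ((hΔ' _ h).symm ▸ hD), fun _ => Csp.z2_add_self _⟩
      · refine ⟨_, cut_step h1 ((hΔ' _ h).symm ▸ hD), fun h'' => ?_⟩
        simp only [update_self] at h''
        omega
    · refine ⟨_, cut_step h1 (a' := 0) ?_, fun h' => ?_⟩
      · rw [hΔ ℓ c (fun e => by tauto), fun_add_self]
        exact cut_zero
      · rw [add_zero]
        refine h2 ?_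
        by_cases e : ℓ = ℓ₀
        · subst e; tauto
        · simpa [e] using h'
  · simp only [hL, add_zero, hv.v3 ρ' hρ e]
  · refine ⟨fun h t _ => by simp [hL], fun h => ⟨?_, ?_⟩⟩
    · simp only [Δ, Pi.add_apply, add_eq_left]
      split_ifs with h1
      · have a1 := hf B hB
        have := hf' B hB
        rw [h1.1] at a1
        exact hE B hB h1.1 h1.2.1 (by omega)
      · rfl
    · simp only
      rw [hΔ _ _ (fun e => ⟨e ▸ hf B hB, hf' B hB⟩), add_add_add_comm, fun_add_self, add_zero]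

lemma Valid.chain {st : St} (hv : s.Valid st) (ℓ : Link) {P} (hP : IsSl s.m s.F P) {c c' : ℕ}
    (h1 : c ≤ c') (h2 : c' ≤ s.L) (h3 : c' ≤ st.b ℓ ∨ st.b ℓ < c) :
    ssum s.m P (st.H ℓ c') = ssum s.m P (st.H ℓ c) := by
  induction c', h1 using Nat.le_induction with
  | base => rfl
  | succ d hd ih =>
    rw [← ih (by omega) (by omega)]
    obtain ⟨a, h4, h5⟩ := hv.v2 ℓ d (by omega)
    have := h4.sum hP
    rw [h5 (by omega), ssum_add] at this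
    exact z2_eq_of_add this

lemma Valid.sum_zero {st : St} (hv : s.Valid st) (ℓ : Link) (P) :
    ssum s.m P (st.H ℓ 0) = ssum s.m (s.shp ℓ P) (st.X (s.slotP ℓ)) := by
  rw [hv.v0]; rfl

lemma Valid.origin {st : St} (hv : s.Valid st) : ssum s.m 0 (st.X 0) = 0 :=
  sum_eq_zero fun j _ => hv.v4 j

end Sys

end Vale.Agent.P310
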