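import Vale.Agent.P310.Print

/-! The diagonal argument. -/

namespace Vale.Agent.P310

open Function PT Filter

/-- the size parameter attached to the number of vertices -/
def rt (n : ℕ) : ℕ := Nat.nthRoot 7 n

def Bd (f : ℕ → ℕ) (j : ℕ) : Prop := ∃ a, ∀ n, f n ≤ a * (rt n + 1) ^ j

lemma Bd.of_le {f g j} (h : Bd g j) (e : ∀ n, f n ≤ g n) : Bd f j :=
  let ⟨a, ha⟩ := h; ⟨a, fun n => (e n).trans (ha n)⟩

lemma Bd.mono {f i j} (h : Bd f i) (e : i ≤ j) : Bd f j :=
  let ⟨a, ha⟩ := h
  ⟨a, fun n => (ha n).trans (Nat.mul_le_mul_left _ (Nat.pow_le_pow_right (by omega) e))⟩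

lemma Bd.const (c j) : Bd (fun _ => c) j :=
  ⟨c, fun _ => Nat.le_mul_of_pos_right _ (by positivity)⟩

lemma Bd.add {f g j} (hf : Bd f j) (hg : Bd g j) : Bd (fun n => f n + g n) j :=
  let ⟨a, ha⟩ := hf; let ⟨b, hb⟩ := hg
  ⟨a + b, fun n => by rw [add_mul]; exact add_le_add (ha n) (hb n)⟩

lemma Bd.mul {f g i j} (hf : Bd f i) (hg : Bd g j) : Bd (fun n => f n * g n) (i + j) :=
  let ⟨a, ha⟩ := hf; let ⟨b, hb⟩ := hg
  ⟨a * b, fun n => (Nat.mul_le_mul (ha n) (hb n)).trans_eq (by ring)⟩

lemma Bd.cmul {f j} (c : ℕ) (hf : Bd f j) : Bd (fun n => c * f n) j := by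
  simpa using (Bd.const c 0).mul hf

lemma Bd.pow {f i} (hf : Bd f i) (d : ℕ) : Bd (fun n => f n ^ d) (i * d) :=
  let ⟨a, ha⟩ := hf
  ⟨a ^ d, fun n => (Nat.pow_le_pow_left (ha n) d).trans_eq (by ring)⟩

lemma bd_rt : Bd (fun n => rt n + 1) 1 := ⟨1, fun n => by simp⟩

lemma lt_rt (n : ℕ) : n < (rt n + 1) ^ 7 := Nat.lt_pow_nthRoot_add_one (by omega) n
lemma rt_le (n : ℕ) : rt n ^ 7 ≤ n := (Nat.le_nthRoot_iff (by omega)).1 le_rfl

lemma bd_id : Bd (fun n => n) 7 := ⟨1, fun n => by simpa using (lt_rt n).le⟩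

lemma bd_sz : Bd (fun n => sz n) 1 := by
  refine ((bd_rt.cmul 28).add (Bd.const 1 1)).of_le fun n => ?_
  have : n < 2 ^ (7 * (rt n + 1)) := by
    rw [mul_comm, pow_mul]
    exact (lt_rt n).trans_le (Nat.pow_le_pow_left Nat.lt_two_pow_self.le _)
  have := sz_nat_le_of_lt this
  omega

lemma Bd.eventually_lt {f j} (h : Bd f j) : ∀ᶠ n in atTop, f n < rt n ^ (j + 1) := by
  obtain ⟨a, ha⟩ := h
  filter_upwards [eventually_ge_atTop ((a * 2 ^ j + 1) ^ 7)] with n hn
  have h1 : a * 2 ^ j + 1 ≤ rt n := (Nat.le_nthRoot_iff (by omega)).2 hn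
  calc f n ≤ a * (2 * rt n) ^ j := (ha n).trans (Nat.mul_le_mul_left _
        (Nat.pow_le_pow_left (by omega) _))
    _ = a * 2 ^ j * rt n ^ j := by ring
    _ < rt n * rt n ^ j := Nat.mul_lt_mul_of_pos_right h1 (Nat.pow_pos (by omega))
    _ = _ := by ring

lemma poly_bd (p : Polynomial ℕ) : ∃ d, ∀ f, Bd f 1 → Bd (fun n => p.eval (f n)) d := by
  induction p using Polynomial.induction_on' with
  | add p q hp hq =>
    obtain ⟨a, ha⟩ := hp
    obtain ⟨b, hb⟩ := hq
    refine ⟨a + b, fun f hf => ?_⟩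
    simpa using ((ha f hf).mono (by omega)).add ((hb f hf).mono (by omega))
  | monomial k a => exact ⟨k, fun f hf => by simpa using (hf.pow k).cmul a⟩

lemma sz_replicate (n : ℕ) : sz (List.replicate n ()) = 2 * n + 1 := by
  induction n with
  | zero => rfl
  | succ n ih => simp [List.replicate_succ, ih]; omega

lemma mem_inRules {p₀ p₁ p₂ x r} : r ∈ inRules p₀ p₁ p₂ x ↔
    (∃ i b, x[i]? = some b ∧ r = (0, 0, bif b then p₁ else p₀, 0, i, false)) ∨
      r = (0, 0, p₂, 0, x.length, false) := by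
  simp only [inRules, List.mem_append, List.mem_map, List.mem_zipIdx_iff_getElem?,
    List.mem_singleton, Prod.exists]
  refine or_congr ⟨?_, ?_⟩ Iff.rfl
  · rintro ⟨b, i, h, rfl⟩
    exact ⟨i, b, h, rfl⟩
  · rintro ⟨i, b, h, rfl⟩
    exact ⟨b, i, h, rfl⟩

theorem core : ∃ k₀, ∀ k ≥ k₀, ∀ A T, DecidesWL k A T → ∀ᶠ n in atTop, n ^ (k / 28) ≤ T n := by
  classical
  obtain ⟨c, p, hp⟩ := exists_printer
  obtain ⟨d, hd⟩ := poly_bd p
  refine ⟨2 * d + 8, fun k hk A T hA => ?_⟩
  obtain ⟨Q, K, Γ, _, _, M, QS, ΓS, q₀, kin, e, C, f1, f2, hS, hq, hq₀, he, hsim⟩ := exists_mach c A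
  obtain ⟨Cd⟩ := Mach.exists_code (K := K) f1 f2
  obtain ⟨cr, hcr⟩ := M.exists_core Cd
  let R₀ : List Rule := cr ++ Mach.goal Cd :: Mach.orig Cd (.st0 q₀) 0 ::
    (Finset.univ.filter (· ≠ kin)).toList.map fun k => Mach.orig Cd (.cell k none) 0
  let w : ℕ → Inp := fun n => (⟨k, k.factorial * (rt n + 1), R₀⟩, n,
    Cd.code (.cell kin (some (e false))), Cd.code (.cell kin (some (e true))),
    Cd.code (.cell kin none))
  have bF : Bd (fun n => k.factorial * (rt n + 1)) 1 := bd_rt.cmul _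
  have bw : Bd (fun n => sz (w n)) 1 := by
    refine (((bF.cmul 2).add bd_sz).add (Bd.const (2 * k + sz R₀ + 6 + sz (w 0).2.2) 1)).of_le
      fun n => ?_
    have : sz (w n).1 = sz (List.replicate k (), List.replicate (k.factorial * (rt n + 1)) (), R₀) :=
      rfl
    rw [← Prod.eta (w n), ← Prod.eta (w n).2, sz_prod, sz_prod, this, sz_prod, sz_prod,
      sz_replicate, sz_replicate]
    simp only [w]
    omega
  have bM : Bd (fun n => (sysOf (w n)).blocks.length) 3 := by
    have b1 := (bF.cmul k).add (Bd.const 1 1)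
    refine (((Bd.const (R₀.length + 1) 1).add bw).mul
      ((((b1.mul b1).cmul k).cmul (k + 3)).cmul 5)).of_le fun n => ?_
    refine (Sys.length_blocks _).trans (Nat.mul_le_mul_right _ ?_)
    simp only [sysOf, inRules, List.length_append, List.length_map, List.length_zipIdx,
      List.length_singleton, sz, w]
    omega
  have bN := ((bM.mono (show 3 ≤ 6 by omega)).cmul 32).add (bM.mul ((bM.cmul 32).add (Bd.const 1 3)))
  have bT : Bd (fun n => sz (w n) + 2 * (C * (p.eval (sz (w n)) + n ^ (k / 28)) + 1))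
      ((k - 1) / 2 - 1) :=
    (bw.mono (by omega)).add ((((((hd _ bw).mono (by omega)).add
      ((bd_id.pow (k / 28)).mono (by omega))).cmul C).add (Bd.const 1 _)).cmul 2)
  filter_upwards [bN.eventually_lt, bT.eventually_lt] with n h1 h2
  by_contra hT
  obtain ⟨s, hs⟩ : ∃ s, s = sysOf (w n) := ⟨_, rfl⟩
  have sm : s.m = k := by rw [hs]; rfl
  have sF : s.F = k.factorial * (rt n + 1) := by rw [hs]; rfl
  have sR : s.R = R₀ ++ inRules (Cd.code (.cell kin (some (e false))))
    (Cd.code (.cell kin (some (e true)))) (Cd.code (.cell kin none)) (encode (w n)) := by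
    rw [hs]; rfl
  rw [← hs] at h1
  have hF : rt n + 1 ≤ s.F := sF ▸ Nat.le_mul_of_pos_left _ k.factorial_pos
  have h3 : rt n ^ (6 + 1) ≤ n := rt_le n
  obtain ⟨N', hN'⟩ : ∃ N', n = s.blocks.length * 32 + N' := ⟨n - s.blocks.length * 32, by omega⟩
  have hpr : printer (w n) = s.mat s.blocks n false ++ s.mat s.blocks n true := by
    have : min (w n).2.1 ((w n).1.F ^ 7) = n :=
      min_eq_left ((lt_rt n).le.trans (Nat.pow_le_pow_left (hF.trans_eq sF) _))
    rw [printer, this, hs]
  obtain ⟨o1⟩ := hp (w n)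
  obtain ⟨o2⟩ := hA _ ((s.csp.graph N' s.blocks.get 0).comap (Sys.vEquiv _ _).symm)
    ((s.csp.graph N' s.blocks.get 1).comap (Sys.vEquiv _ _).symm)
  have a0 := s.adjBits_eq s.blocks N' false
  have a1 := s.adjBits_eq s.blocks N' true
  simp only [Bool.false_eq_true, if_false, if_true] at a0 a1
  have a2 : ∀ b, s.mat s.blocks (s.blocks.length * 32 + N') b = s.mat s.blocks n b := fun b => by
    rw [← hN']
  rw [a0, a1, a2, a2, ← hpr, show T (s.blocks.length * 32 + N') = T n by rw [← hN']] at o2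
  obtain ⟨c₁, T', r1, r2, r3, r4⟩ := hsim _ _ _ _ _ o1 o2
  rw [decide_eq_true_eq, wlEquiv_comap, ← sm] at r4
  have hc : ∀ b, Cd.code (.cell kin (some (e b))) = bif b then Cd.code (.cell kin (some (e true)))
      else Cd.code (.cell kin (some (e false))) := fun b => by cases b <;> rfl
  refine iff_not_self ((Mach.equiv_iff (C := Cd) s (by omega) (by rw [sm, sF]; exact dvd_mul_right _ _)
    hS hq r1 r3 ⟨hq₀, fun k' γ hγ => ?_⟩ (n₀ := sz (w n)) (fun k' => ?_) ?_ ?_ ?_ ?_ ?_ ?_
    s.blocks.get (fun i => (s.mem_blocks _).1 (List.get_mem _ _))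
    (fun B hB => List.get_of_mem ((s.mem_blocks _).2 hB)) (by omega)).trans (not_congr r4))
  · by_cases hk' : k' = kin
    · subst hk'
      simp only [update_self, List.mem_map] at hγ
      obtain ⟨b, -, rfl⟩ := hγ
      exact he b
    · simp [hk'] at hγ
  · by_cases hk' : k' = kin
    · subst hk'; simp [sz]
    · simp [hk']
  · rw [show (k - 1) / 2 - 1 + 1 = (k - 1) / 2 by omega] at h2
    have := Nat.pow_le_pow_left (show rt n ≤ s.F by omega) ((k - 1) / 2)
    have := Nat.mul_le_mul_left C (Nat.add_le_add_left (not_le.1 hT).le (p.eval (sz (w n))))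
    rw [sm]
    omega
  · intro r hr
    simp only [sR, R₀, List.mem_append, List.mem_cons, List.mem_map, Finset.mem_toList,
      Finset.mem_filter, Finset.mem_univ, true_and, mem_inRules, hcr] at hr
    rcases hr with (hr | hr | hr | ⟨k', hk', rfl⟩) | ⟨i, b, hb, rfl⟩ | rfl
    · exact Or.inl hr
    · exact Or.inr (Or.inl hr)
    · exact Or.inr (Or.inr ⟨.st0 q₀, 0, hq₀, ⟨rfl, rfl⟩, hr⟩)
    · exact Or.inr (Or.inr ⟨.cell k' none, 0, by simp [Mach.InU], by simp [Mach.Tr, hk'], rfl⟩)
    · refine Or.inr (Or.inr ⟨.cell kin (some (e b)), i, ?_, ?_, by rw [Mach.orig, hc b]⟩)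
      · rintro _ ⟨⟩
        exact he b
      · have := (List.getElem?_eq_some_iff.1 hb).1
        simp [Mach.Tr, hb, this.le]
    · exact Or.inr (Or.inr ⟨.cell kin none, _, by simp [Mach.InU], by simp [Mach.Tr], rfl⟩)
  · intro r hr
    simp [sR, R₀, hcr, hr]
  · simp [sR, R₀]
  · simp [sR, R₀]
  · intro k' i hi
    rw [sR]
    by_cases hk' : k' = kin
    · subst hk'
      simp only [update_self, List.length_map, List.getElem?_map] at hi ⊢
      refine List.mem_append_right _ (mem_inRules.2 ?_)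
      rcases lt_or_eq_of_le hi with h | rfl
      · exact Or.inl ⟨i, _, List.getElem?_eq_getElem h, by
          rw [List.getElem?_eq_getElem h, Option.map_some, Mach.orig, hc]⟩
      · exact Or.inr (by simp [Mach.orig])
    · simp only [update_of_ne hk', List.length_nil, nonpos_iff_eq_zero] at hi ⊢
      subst hi
      refine List.mem_append_left _ ?_
      simp only [R₀, List.mem_append, List.mem_cons, List.mem_map, Finset.mem_toList,
        Finset.mem_filter, Finset.mem_univ, true_and]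
      exact Or.inr (Or.inr (Or.inr ⟨k', hk', rfl⟩))

open Turing Turing.TM2 in
lemma len_stepAux {K : Type} [DecidableEq K] {Γ : K → Type} {Λ σ : Type} (k : K) (s : Stmt Γ Λ σ) :
    ∀ v S, (S k).length ≤ ((stepAux s v S).stk k).length + size s := by
  induction s with
  | push k' f s ih =>
    intro v S
    have := ih v (update S k' (f v :: S k'))
    by_cases e : k = k'
    · subst e; simp [size] at this ⊢; omega
    · simp [size, e] at this ⊢; omega
  | pop k' f s ih =>
    intro v S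
    have := ih (f v (S k').head?) (update S k' (S k').tail)
    by_cases e : k = k'
    · subst e; simp [size] at this ⊢; omega
    · simp [size, e] at this ⊢; omega
  | peek k' f s ih => intro v S; have := ih (f v (S k').head?) S; simp [size] at this ⊢; omega
  | load a s ih => intro v S; have := ih (a v) S; simp [size] at this ⊢; omega
  | branch p s₁ s₂ ih₁ ih₂ =>
    intro v S
    have := ih₁ v S
    have := ih₂ v S
    cases h : p v <;> simp [size, h] <;> omega
  | goto f => intro v S; simp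
  | halt => intro v S; simp

open Turing Turing.TM2 in
lemma len_iter {K : Type} [DecidableEq K] {Γ : K → Type} {Λ σ : Type} (k : K)
    {Mx : Λ → Stmt Γ Λ σ} {C : ℕ} (hC : ∀ l, size (Mx l) ≤ C) (n : ℕ) : ∀ c c' : Cfg Γ Λ σ,
    (flip Bind.bind (TM2.step Mx))^[n] (some c) = some c' → (c.stk k).length ≤ (c'.stk k).length + C * n := by
  induction n with
  | zero => intro c c' h; obtain rfl := Option.some.inj h; omega
  | succ n ih =>
    rintro ⟨_ | l, v, S⟩ c' h
    · have : ∀ n, (flip Bind.bind (TM2.step Mx))^[n] none = none := fun n => iterate_fixed rfl n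
      rw [iterate_succ_apply] at h
      exact absurd ((this n).symm.trans h) (by simp)
    · have := ih (stepAux (Mx l) v S) c' h
      have := len_stepAux k (Mx l) v S
      have := hC l
      simp only [Nat.mul_succ]
      omega

/-- the input has to be read -/
theorem trivial_bound (k A T) (h : DecidesWL k A T) : ∀ᶠ n in atTop, n ≤ T n := by
  have := A.tm.ΛFin
  obtain ⟨C, hC⟩ := exists_size A.tm.m
  filter_upwards [eventually_ge_atTop (C + 1)] with n hn
  obtain ⟨o⟩ := h n ⊥ ⊥
  have h1 := len_iter A.tm.k₀ hC _ _ _ o.evals_in_steps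
  have h2 := Nat.mul_le_mul_left C o.steps_le_m
  have h3 : ∀ x : A.tm.Γ A.tm.k₁, ((Turing.haltList A.tm [x]).stk A.tm.k₀).length ≤ 1 := by
    intro x
    generalize A.tm.k₀ = k'
    by_cases e : k' = A.tm.k₁
    · subst e; simp [Turing.haltList]
    · simp [Turing.haltList, e]
  have h4 := h3 (A.outputAlphabet.symm (@decide (WLEquiv k (⊥ : SimpleGraph (Fin n)) ⊥)
    (Classical.propDecidable _)))
  have h5 : n * n + n * n ≤ 1 + C * T n := by
    refine le_trans (le_of_eq ?_) (h1.trans (add_le_add h4 h2))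
    simp [Turing.initList, adjBits]
  by_contra h6
  nlinarith

theorem lower_bound : ∃ ε : ℝ, 0 < ε ∧ ∀ k ≥ 2, ∀ A T, DecidesWL k A T →
    ∀ᶠ n : ℕ in atTop, (n : ℝ) ^ (ε * k) ≤ T n := by
  obtain ⟨k₀, h⟩ := core
  have hpos : (0 : ℝ) < k₀ + 56 := by positivity
  refine ⟨1 / (k₀ + 56), by positivity, fun k _ A T hA => ?_⟩
  by_cases hk : k₀ + 56 ≤ k
  · filter_upwards [h k (by omega) A T hA, eventually_ge_atTop 1] with n h1 h2
    refine le_trans ?_ (Nat.cast_le.2 h1)
    rw [Nat.cast_pow, ← Real.rpow_natCast]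
    refine Real.rpow_le_rpow_of_exponent_le (by exact_mod_cast h2) ?_
    rw [one_div_mul_eq_div, div_le_iff₀ hpos]
    have : k ≤ k / 28 * (k₀ + 56) := by
      have : k / 28 * 56 ≤ k / 28 * (k₀ + 56) := Nat.mul_le_mul_left _ (by omega)
      omega
    exact_mod_cast this
  · filter_upwards [trivial_bound k A T hA, eventually_ge_atTop 1] with n h1 h2
    refine le_trans ?_ (Nat.cast_le.2 h1)
    conv_rhs => rw [← Real.rpow_one n]
    refine Real.rpow_le_rpow_of_exponent_le (by exact_mod_cast h2) ?_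
    rw [one_div_mul_eq_div, div_le_one hpos]
    exact_mod_cast (not_le.1 hk).le

end Vale.Agent.P310
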