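import Vale.Agent.P310.Dup

/-! Stack machines with one elementary action per step, described by local rules. -/

namespace Vale.Agent.P310

open Function

inductive Act (Q K Γ : Type) : Type
  | push (k : K) (γ : Γ) (q : Q)
  | pop (k : K) (b : Bool) (f : Option Γ → Q)
  | stop

abbrev Cf (Q K Γ : Type) := Q × (K → List Γ)

inductive Pr (Q K Γ : Type) : Type
  | st0 (q : Q)
  | st1 (q : Q)
  | cell (k : K) (o : Option Γ)
  | acc

/-- a machine with an accepting state, stack and symbol -/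
structure Mach (Q K Γ : Type) where
  act : Q → Act Q K Γ
  qf : Q
  kf : K
  γf : Γ

/-- the point with time `t` and skew position `x` -/
def pt (m F t x : ℕ) : ℕ → ℕ := fun l => dvec m t x l % md m F l

lemma isSl_pt (m F t x) : IsSl m F (pt m F t x) := fun l => Nat.mod_lt _ (md_pos l)

lemma shP_pt (m F t x dt dx) : shP m F (dvec m dt dx) (pt m F t x) = pt m F (t + dt) (x + dx) := by
  funext l
  simp only [shP, shV, pt, dvec, Nat.mod_add_mod]
  split_ifs <;> rfl

lemma pt_zero (m F) : pt m F 0 0 = 0 := by funext l; simp [pt, dvec]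

namespace Mach

variable {Q K Γ : Type} [DecidableEq K] (M : Mach Q K Γ)

def step (c : Cf Q K Γ) : Option (Cf Q K Γ) :=
  match M.act c.1 with
  | .push k γ q => some (q, update c.2 k (γ :: c.2 k))
  | .pop k b f => some (f (c.2 k).head?, if b then update c.2 k (c.2 k).tail else c.2)
  | .stop => none

def Tr : Pr Q K Γ → Cf Q K Γ → ℕ → Prop
  | .st0 q, c, i => c.1 = q ∧ i = 0
  | .st1 q, c, i => c.1 = q ∧ 1 ≤ i ∧ ∃ k, i ≤ (c.2 k).length
  | .cell k o, c, i => (c.2 k)[i]? = o ∧ i ≤ (c.2 k).length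
  | .acc, c, i => c.1 = M.qf ∧ i = 0 ∧ (c.2 M.kf)[0]? = some M.γf

def Sound (τ₁ τ₂ τ₃ : Pr Q K Γ) (dt dx : ℕ) : Prop :=
  ∀ c i, M.Tr τ₁ c i → M.Tr τ₂ c i → (dt = 0 ∧ M.Tr τ₃ c (i + dx)) ∨
    (dt = 1 ∧ ∃ c' j, M.step c = some c' ∧ j + 1 = i + dx ∧ M.Tr τ₃ c' j)

/-- closed finite sets of states and symbols -/
structure Supp (QS : Set Q) (ΓS : Set Γ) : Prop where
  push : ∀ q ∈ QS, ∀ k γ q', M.act q = .push k γ q' → γ ∈ ΓS ∧ q' ∈ QS
  pop : ∀ q ∈ QS, ∀ k b f, M.act q = .pop k b f → ∀ o, f o ∈ QS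

def InU (QS : Set Q) (ΓS : Set Γ) : Pr Q K Γ → Prop
  | .st0 q => q ∈ QS
  | .st1 q => q ∈ QS
  | .cell _ o => ∀ γ, o = some γ → γ ∈ ΓS
  | .acc => True

def InS (QS : Set Q) (ΓS : Set Γ) (c : Cf Q K Γ) : Prop := c.1 ∈ QS ∧ ∀ k, ∀ γ ∈ c.2 k, γ ∈ ΓS

variable {M}

lemma step_inS {QS ΓS} (h : M.Supp QS ΓS) {c c'} (hc : InS QS ΓS c) (e : M.step c = some c') :
    InS QS ΓS c' := by
  unfold step at e
  split at e
  · rename_i k γ q ha
    obtain rfl := Option.some.inj e
    refine ⟨(h.push _ hc.1 _ _ _ ha).2, fun k' γ' hγ => ?_⟩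
    by_cases e : k' = k
    · subst e
      simp only [update_self, List.mem_cons] at hγ
      rcases hγ with rfl | hγ
      · exact (h.push _ hc.1 _ _ _ ha).1
      · exact hc.2 _ _ hγ
    · simp only [update_of_ne e] at hγ
      exact hc.2 _ _ hγ
  · rename_i k b f ha
    obtain rfl := Option.some.inj e
    refine ⟨h.pop _ hc.1 _ _ _ ha _, fun k' γ' hγ => ?_⟩
    simp only at hγ
    split_ifs at hγ
    · by_cases e : k' = k
      · subst e
        simp only [update_self] at hγ
        exact hc.2 _ _ (List.mem_of_mem_tail hγ)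
      · simp only [update_of_ne e] at hγ
        exact hc.2 _ _ hγ
    · exact hc.2 _ _ hγ
  · cases e

lemma step_len {c c'} (e : M.step c = some c') (k) : (c'.2 k).length ≤ (c.2 k).length + 1 := by
  unfold step at e
  split at e
  · rename_i k' γ q ha
    obtain rfl := Option.some.inj e
    by_cases e : k = k'
    · subst e; simp
    · simp [e]
  · rename_i k' b f ha
    obtain rfl := Option.some.inj e
    simp only
    split_ifs
    · by_cases e : k = k'
      · subst e; simp; omega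
      · simp [e]
    · omega
  · cases e

omit [DecidableEq K] in
lemma Tr.le {τ c i n} (h : M.Tr τ c i) (hn : ∀ k, (c.2 k).length ≤ n) : i ≤ n := by
  cases τ with
  | st0 q => have := h.2; omega
  | st1 q => obtain ⟨-, -, k, hk⟩ := h; exact hk.trans (hn k)
  | cell k o => exact h.2.trans (hn k)
  | acc => have := h.2.1; omega

def sti (i : ℕ) (q : Q) : Pr Q K Γ := if i = 0 then .st0 q else .st1 q

omit [DecidableEq K] in
lemma tr_sti {i q c j} (h : M.Tr (sti i q) c j) : c.1 = q := by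
  unfold sti at h
  split_ifs at h <;> exact h.1

omit [DecidableEq K] in
lemma inU_sti {QS ΓS i q} (h : q ∈ QS) : InU QS ΓS (sti i q : Pr Q K Γ) := by
  unfold sti
  split_ifs <;> exact h

omit [DecidableEq K] in
lemma inU_cell {QS ΓS} {c : Cf Q K Γ} (h : InS QS ΓS c) (k : K) (i : ℕ) :
    InU QS ΓS (.cell k (c.2 k)[i]? : Pr Q K Γ) := fun _ e => h.2 k _ (List.mem_of_getElem? e)

/-- the facts that describe a configuration -/
def Base (D : Pr Q K Γ → ℕ → ℕ → Prop) (c : Cf Q K Γ) (t : ℕ) : Prop :=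
  D (.st0 c.1) t t ∧ ∀ k, ∀ i ≤ (c.2 k).length, D (.cell k (c.2 k)[i]?) t (i + t)

section
variable {QS : Set Q} {ΓS : Set Γ} {D : Pr Q K Γ → ℕ → ℕ → Prop}
  (hD : ∀ τ₁ τ₂ τ₃ dt dx t x, InU QS ΓS τ₁ → InU QS ΓS τ₂ → InU QS ΓS τ₃ → dt ≤ 1 → dx ≤ 2 →
    M.Sound τ₁ τ₂ τ₃ dt dx → D τ₁ t x → D τ₂ t x → D τ₃ (t + dt) (x + dx))
include hD

lemma base_sti {c t} (hc : InS QS ΓS c) (h : Base D c t) (k) :
    ∀ i ≤ (c.2 k).length, D (sti i c.1) t (i + t) := by
  intro i hi
  induction i with
  | zero => simpa [sti] using h.1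
  | succ i ih =>
    have := hD _ _ (.st1 c.1) 0 1 _ _ (inU_sti hc.1) (inU_cell hc k i) hc.1 (by omega) (by omega)
      ?_ (ih (by omega)) (h.2 k i (by omega))
    · simpa [sti, add_right_comm] using this
    · intro c' j h1 h2
      refine Or.inl ⟨rfl, tr_sti h1, by omega, k, ?_⟩
      have h3 := h2.1
      rw [List.getElem?_eq_getElem (by omega : i < (c.2 k).length)] at h3
      exact (List.getElem?_eq_some_iff.1 h3).1

lemma base_step (hS : M.Supp QS ΓS) {c c' t} (hc : InS QS ΓS c) (h : Base D c t)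
    (e : M.step c = some c') : Base D c' (t + 1) := by
  have hc' := step_inS hS hc e
  have keep : ∀ k, (∀ d : Cf Q K Γ, d.1 = c.1 → ∃ d', M.step d = some d' ∧ d'.2 k = d.2 k) →
      ∀ i ≤ (c'.2 k).length, D (.cell k (c'.2 k)[i]?) (t + 1) (i + (t + 1)) := by
    intro k hk i hi
    obtain ⟨d', e1, e2⟩ := hk c rfl
    obtain rfl := Option.some.inj (e.symm.trans e1)
    rw [e2] at hi ⊢
    refine hD _ _ _ 1 1 _ _ (inU_sti hc.1) (inU_cell hc k i) (inU_cell hc k i) le_rfl (by omega) ?_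
      (base_sti hD hc h k i hi) (h.2 k i hi)
    intro d j h1 h2
    obtain ⟨d', e1, e2⟩ := hk d (tr_sti h1)
    exact Or.inr ⟨rfl, d', j, e1, rfl, by simpa only [Tr, e2] using h2⟩
  cases ha : M.act c.1 with
  | stop => simp [step, ha] at e
  | push k₀ γ q =>
    have st : ∀ d : Cf Q K Γ, d.1 = c.1 → M.step d = some (q, update d.2 k₀ (γ :: d.2 k₀)) := by
      intro d hd
      simp [step, hd, ha]
    obtain rfl := Option.some.inj (e.symm.trans (st c rfl))
    refine ⟨hD (.st0 _) (.st0 _) (.st0 _) 1 1 _ _ hc.1 hc.1 hc'.1 le_rfl (by omega) ?_ h.1 h.1,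
      fun k => ?_⟩
    · intro d j h1 _
      exact Or.inr ⟨rfl, _, j, st d h1.1, rfl, rfl, h1.2⟩
    by_cases hk : k = k₀
    · subst hk
      intro i hi
      rcases i with _ | i
      · rw [zero_add]
        refine hD (.st0 _) (.st0 _) _ 1 1 _ _ hc.1 hc.1 (inU_cell hc' k 0) le_rfl (by omega) ?_ h.1 h.1
        intro d j h1 _
        refine Or.inr ⟨rfl, _, j, st d h1.1, rfl, ?_⟩
        simp [Tr, h1.2]
      · simp only [update_self, List.length_cons, add_le_add_iff_right,
          List.getElem?_cons_succ] at hi ⊢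
        have := hD _ _ _ 1 2 _ _ (inU_sti hc.1) (inU_cell hc k i) (inU_cell hc k i) le_rfl le_rfl ?_
          (base_sti hD hc h k i hi) (h.2 k i hi)
        · rwa [show i + 1 + (t + 1) = i + t + 2 by omega]
        intro d j h1 h2
        refine Or.inr ⟨rfl, _, j + 1, st d (tr_sti h1), rfl, ?_⟩
        simpa [Tr] using h2
    · exact keep k fun d hd => ⟨_, st d hd, update_of_ne hk _ _⟩
  | pop k₀ b f =>
    have st : ∀ d : Cf Q K Γ, d.1 = c.1 → M.step d =
        some (f (d.2 k₀).head?, if b then update d.2 k₀ (d.2 k₀).tail else d.2) := by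
      intro d hd
      simp [step, hd, ha]
    obtain rfl := Option.some.inj (e.symm.trans (st c rfl))
    have h0 := h.2 k₀ 0 (Nat.zero_le _)
    rw [zero_add] at h0
    refine ⟨hD (.st0 _) _ (.st0 _) 1 1 _ _ hc.1 (inU_cell hc k₀ 0) hc'.1 le_rfl (by omega) ?_ h.1 h0,
      fun k => ?_⟩
    · intro d j h1 h2
      refine Or.inr ⟨rfl, _, j, st d h1.1, rfl, ?_, h1.2⟩
      have := h2.1
      rw [h1.2] at this
      simp only [List.head?_eq_getElem?, this]
    by_cases hk : k = k₀ ∧ b = true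
    · obtain ⟨rfl, rfl⟩ := hk
      intro i hi
      simp only [if_true, update_self, List.length_tail, List.getElem?_tail] at hi ⊢
      by_cases hl : (c.2 k).length = 0
      · obtain rfl : i = 0 := by omega
        have e0 : c.2 k = [] := List.length_eq_zero_iff.1 hl
        rw [e0] at h0 ⊢
        have := hD (.st0 _) _ (.cell k none) 1 1 _ _ hc.1 (by simp [InU]) (by simp [InU]) le_rfl
          (by omega) ?_ h.1 h0
        · simpa using this
        intro d j h1 h2
        refine Or.inr ⟨rfl, _, j, st d h1.1, rfl, ?_⟩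
        have h3 := h2.1
        rw [h1.2] at h3 ⊢
        simp only [List.getElem?_nil, List.getElem?_eq_none_iff] at h3
        simp [Tr]
        omega
      · have := hD (.st1 _) _ _ 1 0 _ _ hc.1 (inU_cell hc k (i + 1)) (inU_cell hc k (i + 1)) le_rfl
          (by omega) ?_ (by simpa [sti] using base_sti hD hc h k (i + 1) (by omega))
          (h.2 k (i + 1) (by omega))
        · rwa [show i + (t + 1) = i + 1 + t + 0 by omega]
        intro d j h1 h2
        obtain ⟨j, rfl⟩ : ∃ j', j = j' + 1 := ⟨j - 1, by have := h1.2.1; omega⟩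
        refine Or.inr ⟨rfl, _, j, st d h1.1, rfl, ?_⟩
        have := h2.2
        simp only [Tr, if_true, update_self, List.getElem?_tail, List.length_tail]
        exact ⟨h2.1, by omega⟩
    · refine keep k fun d hd => ⟨_, st d hd, ?_⟩
      simp only
      split_ifs with hb
      · exact update_of_ne (fun e => hk ⟨e, hb⟩) _ _
      · rfl

lemma base_acc {c t} (hc : InS QS ΓS c) (h : Base D c t) (ha : M.Tr .acc c 0) : D .acc t t := by
  have h0 := h.2 M.kf 0 (Nat.zero_le _)
  rw [zero_add] at h0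
  refine hD (.st0 _) _ .acc 0 0 _ _ hc.1 (inU_cell hc M.kf 0) trivial (by omega) (by omega) ?_ h.1 h0
  intro d j h1 h2
  refine Or.inl ⟨rfl, h1.1.trans ha.1, h1.2, ?_⟩
  have := h2.1
  rw [h1.2] at this
  exact this.trans ha.2.2

end

/-- a run of the machine -/
inductive Run (M : Mach Q K Γ) : Cf Q K Γ → Cf Q K Γ → ℕ → Prop
  | refl (c) : Run M c c 0
  | step {c c' c'' n} : M.step c = some c' → Run M c' c'' n → Run M c c'' (n + 1)

lemma Run.trans {c c' c'' n n'} (h : M.Run c c' n) (h' : M.Run c' c'' n') : M.Run c c'' (n + n') := by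
  induction h with
  | refl => simpa using h'
  | step e _ ih => rw [add_right_comm]; exact .step e (ih h')

lemma Run.seq {a b n} (h : M.Run a b n) : ∃ c : ℕ → Cf Q K Γ, c 0 = a ∧ c n = b ∧
    ∀ t < n, M.step (c t) = some (c (t + 1)) := by
  induction h with
  | refl c => exact ⟨fun _ => c, rfl, rfl, by simp⟩
  | @step a a' b n e _ ih =>
    obtain ⟨c, h0, h1, h2⟩ := ih
    refine ⟨fun t => Nat.casesOn t a c, rfl, h1, fun t ht => ?_⟩
    rcases t with _ | t
    · simpa [h0] using e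
    · exact h2 t (by omega)

end Mach

end Vale.Agent.P310
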