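import Vale.Agent.P310.Flip

/-! Duplicator's invariant: moving a break and adding a pebble. -/

namespace Vale.Agent.P310

open Finset Function

namespace Sys

variable (s : Sys)

/-- a family of true facts that is arc consistent -/
structure Model (Tr : ℕ → (ℕ → ℕ) → Prop) : Prop where
  pos : 0 < s.m
  zero : ∀ P, IsSl s.m s.F P → (Tr 0 P ↔ P = 0)
  head : ∀ ρ < s.R.length, s.slotP (ρ, 4) ≠ 0
  arc : ∀ ρ < s.R.length, ∀ P, IsSl s.m s.F P → ∀ t < 5, ∀ μ : Z2,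
    (Tr (s.slotP (ρ, t)) (s.shp (ρ, t) P) → μ = 0) → ∃ σ : ℕ → Z2, ∑ t ∈ range 5, σ t = s.cc ρ ∧
      σ t = μ ∧ ∀ t' < 5, Tr (s.slotP (ρ, t')) (s.shp (ρ, t') P) → σ t' = 0

variable (Tr : ℕ → (ℕ → ℕ) → Prop)

def InvP (E : Finset Edge) (X : Edge → Z2) (τ : ℕ) : Prop :=
  ∀ P, IsSl s.m s.F P → Full s.m E P → Tr τ P → ssum s.m P X = 0

def InvR (E : Finset Edge) (H : Link → Edge → Z2) (ρ : ℕ) : Prop :=
  ∀ P, IsSl s.m s.F P → Full s.m E P → ∀ t < 5, Tr (s.slotP (ρ, t)) (s.shp (ρ, t) P) →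
    ssum s.m P (H (ρ, t)) = 0

structure GoodSt (S : Finset Blk) (st : St) : Prop where
  valid : s.Valid st
  free : Free S st.b
  legal : ∀ B ∈ S, s.Legal B
  invP : ∀ τ, s.InvP Tr (s.EP τ st.b S) (st.X τ) τ
  invR : ∀ ρ, s.InvR Tr (ER ρ st.b S) (fun ℓ => st.H ℓ s.L) ρ

variable {s Tr}

lemma InvP.mono {E E' X τ} (h : s.InvP Tr E X τ) (hs : E' ⊆ E) : s.InvP Tr E' X τ :=
  fun P hP hF => h P hP (hF.mono hs)

lemma InvR.mono {E E' H ρ} (h : s.InvR Tr E H ρ) (hs : E' ⊆ E) : s.InvR Tr E' H ρ :=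
  fun P hP hF => h P hP (hF.mono hs)

lemma InvR.congr {E H H' ρ} (h : s.InvR Tr E H ρ) (e : ∀ t, H' (ρ, t) = H (ρ, t)) :
    s.InvR Tr E H' ρ := fun P hP hF t ht hT => by rw [e]; exact h P hP hF t ht hT

lemma not_full_empty (hm : 0 < s.m) {E : Finset Edge} (h : E ⊆ ∅) (P) : ¬ Full s.m E P :=
  fun hF => by simpa using h (hF 0 hm)

lemma GoodSt.mono {S S' st} (h : s.GoodSt Tr S st) (hs : S' ⊆ S) : s.GoodSt Tr S' st :=
  ⟨h.valid, fun B hB => h.free B (hs hB), fun B hB => h.legal B (hs hB),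
    fun τ => (h.invP τ).mono (EP_sub fun _ hB _ h2 => ⟨hs hB, h2⟩),
    fun ρ => (h.invR ρ).mono (ER_sub fun _ hB _ h2 => ⟨hs hB, h2⟩)⟩

lemma setP (hM : s.Model Tr) {st : St} (hv : s.Valid st) {S} (hf : Free S st.b)
    (hl : ∀ B ∈ S, s.Legal B) (hc : S.card ≤ s.m) {τ : ℕ} (hτ : τ ≠ 0)
    (hn : ∀ P, IsSl s.m s.F P → ¬ Full s.m (s.EP τ st.b S) P) {P} (hP : IsSl s.m s.F P) (σ : Z2) :
    ∃ st', s.Valid st' ∧ st'.b = st.b ∧ s.AgreeH S st st' ∧ ssum s.m P (st'.X τ) = σ ∧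
      (∀ τ' ≠ τ, st'.X τ' = st.X τ') ∧ ∀ ℓ c, st.b ℓ < c → st'.H ℓ c = st.H ℓ c := by
  obtain ⟨D, hD, hE⟩ := exists_cut ((card_EP _ _ _).trans hc) (leg_EP hl) hn
  obtain ⟨st', h1, h2, h3, h4, h5⟩ := flipP hv hf hM.head τ (G := 0)
    (hD.smul (σ + ssum s.m P (st.X τ))) (fun _ => rfl) (fun h => absurd h hτ)
    (fun e he => by simp [hE e he]) (fun _ _ => ⟨fun _ => rfl, rfl⟩)
  refine ⟨st', h1, h2, h3, ?_, fun τ' h => by rw [h4, update_of_ne h], fun ℓ c h => ?_⟩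
  · rw [h4, update_self, zero_add, ssum_add, ssum_smul, hD.sum hP, mul_one, add_left_comm,
      Csp.z2_add_self, add_zero]
  · rw [h5 ℓ c h]
    funext e
    split_ifs <;> simp

lemma setR {st : St} (hv : s.Valid st) (hm : 0 < s.m) {S} (hf : Free S st.b)
    (hl : ∀ B ∈ S, s.Legal B) (hc : S.card ≤ s.m) {ρ : ℕ} (hρ : ρ < s.R.length)
    (hn : ∀ P, IsSl s.m s.F P → ¬ Full s.m (ER ρ st.b S) P) {P} (hP : IsSl s.m s.F P)
    {σ : ℕ → Z2} (hσ : ∑ t ∈ range 5, σ t = s.cc ρ) :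
    ∃ st', s.Valid st' ∧ st'.b = st.b ∧ s.AgreeH S st st' ∧ st'.X = st.X ∧
      (∀ t, ssum s.m P (st'.H (ρ, t) s.L) = σ t) ∧ (∀ ℓ c, c ≤ st.b ℓ → st'.H ℓ c = st.H ℓ c) ∧
      ∀ ℓ c, ℓ.1 ≠ ρ → st'.H ℓ c = st.H ℓ c := by
  obtain ⟨D, hD, hE⟩ := exists_cut ((card_ER _ _ _).trans hc) (leg_ER hl) hn
  have hs : ∑ t ∈ range 5, ssum s.m P (st.H (ρ, t) s.L) = s.cc ρ := by
    unfold ssum
    rw [sum_comm]
    simp only [hv.v3 ρ hρ, edge]
    rw [sum_ite_eq', if_pos (mem_range.2 hm)]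
  obtain ⟨st', h1, h2, h3, h4, h5⟩ := flipR hv hf ρ
    (α := fun t => σ t + ssum s.m P (st.H (ρ, t) s.L))
    (by rw [sum_add_distrib, hσ, hs, Csp.z2_add_self]) hD hE
  refine ⟨st', h1, h2, h3, h4, fun t => ?_, fun ℓ c h => ?_, fun ℓ c h => ?_⟩
  · rw [h5, if_pos ⟨rfl, hv.v1 _⟩, ssum_add, ssum_smul, hD.sum hP, mul_one, add_left_comm,
      Csp.z2_add_self, add_zero]
  · rw [h5, if_neg (by omega), add_zero]
  · rw [h5, if_neg (by tauto), add_zero]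

lemma fixP (hM : s.Model Tr) {S st} (h : s.GoodSt Tr S st) (hc : S.card ≤ s.m) (τ : ℕ)
    {E : Finset Edge} (hE : s.EP τ st.b S ⊆ E) (hcE : E.card ≤ s.m + 1) :
    ∃ st', s.Valid st' ∧ st'.b = st.b ∧ s.AgreeH S st st' ∧ s.InvP Tr E (st'.X τ) τ ∧
      (∀ τ' ≠ τ, st'.X τ' = st.X τ') ∧ ∀ ℓ, st'.H ℓ s.L = st.H ℓ s.L := by
  by_cases h1 : s.InvP Tr E (st.X τ) τ
  · exact ⟨st, h.valid, rfl, AgreeH.refl _ _, h1, fun _ _ => rfl, fun _ => rfl⟩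
  unfold InvP at h1
  push Not at h1
  obtain ⟨P, hP, hF, hT, hs⟩ := h1
  have hτ : τ ≠ 0 := by
    rintro rfl
    rw [(hM.zero P hP).1 hT] at hs
    exact hs h.valid.origin
  obtain ⟨st', h1, h2, h3, h4, h5, h6⟩ := setP hM h.valid h.free h.legal hc hτ (fun P' hP' hF' => by
    have := hF.unique (hF'.mono hE) hcE hP hP'
    subst this
    exact hs (h.invP τ P hP hF' hT)) hP 0
  refine ⟨st', h1, h2, h3, fun P' hP' hF' _ => ?_, h5, fun ℓ => h6 _ _ (h.valid.v1 _)⟩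
  rw [← hF.unique hF' hcE hP hP', h4]

lemma fixR (hM : s.Model Tr) {S st} (h : s.GoodSt Tr S st) (hc : S.card ≤ s.m) {ρ : ℕ}
    (hρ : ρ < s.R.length) {E : Finset Edge} (hE : ER ρ st.b S ⊆ E) (hcE : E.card ≤ s.m + 1) :
    ∃ st', s.Valid st' ∧ st'.b = st.b ∧ s.AgreeH S st st' ∧
      s.InvR Tr E (fun ℓ => st'.H ℓ s.L) ρ ∧ st'.X = st.X ∧
      ∀ ℓ, ℓ.1 ≠ ρ → st'.H ℓ s.L = st.H ℓ s.L := by
  by_cases h1 : s.InvR Tr E (fun ℓ => st.H ℓ s.L) ρ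
  · exact ⟨st, h.valid, rfl, AgreeH.refl _ _, h1, rfl, fun _ _ => rfl⟩
  unfold InvR at h1
  push Not at h1
  obtain ⟨P, hP, hF, t, ht, hT, hs⟩ := h1
  obtain ⟨σ, s1, -, s2⟩ := hM.arc ρ hρ P hP 0 (by omega) 0 fun _ => rfl
  obtain ⟨st', h1, h2, h3, h4, h5, -, h6⟩ := setR h.valid hM.pos h.free h.legal hc hρ
    (fun P' hP' hF' => by
      have := hF.unique (hF'.mono hE) hcE hP hP'
      subst this
      exact hs (h.invR ρ P hP hF' t ht hT)) hP s1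
  refine ⟨st', h1, h2, h3, fun P' hP' hF' t' ht' hT' => ?_, h4, fun ℓ hℓ => h6 _ _ hℓ⟩
  rw [← hF.unique hF' hcE hP hP'] at hT' ⊢
  rw [h5, s2 t' ht' hT']

lemma add_pebble (hM : s.Model Tr) {S st} (h : s.GoodSt Tr S st) (hc : S.card ≤ s.m) {B : Blk}
    (hB : s.Legal B) (hb : B.2.1 ≠ st.b B.1) :
    ∃ st', s.GoodSt Tr (insert B S) st' ∧ s.AgreeH S st st' := by
  have hc' : (insert B S).card ≤ s.m + 1 := (card_insert_le _ _).trans (by omega)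
  have hf : Free (insert B S) st.b := by
    intro B' hB'
    rcases mem_insert.1 hB' with rfl | hB'
    · exact hb
    · exact h.free B' hB'
  have hl : ∀ B' ∈ insert B S, s.Legal B' := by
    intro B' hB'
    rcases mem_insert.1 hB' with rfl | hB'
    · exact hB
    · exact h.legal B' hB'
  rcases lt_or_gt_of_ne hb with hlt | hlt
  · obtain ⟨st', h1, h2, h3, h4, h5, h6⟩ := fixP hM h hc (s.slotP B.1)
      (E := s.EP (s.slotP B.1) st.b (insert B S))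
      (EP_sub fun _ hB _ h2 => ⟨mem_insert_of_mem hB, h2⟩) ((card_EP _ _ _).trans hc')
    refine ⟨st', ⟨h1, h2 ▸ hf, hl, fun τ => ?_, fun ρ => ?_⟩, h3⟩
    · rw [h2]
      by_cases e : τ = s.slotP B.1
      · rw [e]; exact h4
      · rw [h5 τ e]
        refine (h.invP τ).mono (EP_sub fun B' hB' a1 a2 => ⟨?_, a2⟩)
        rcases mem_insert.1 hB' with rfl | hB'
        · exact absurd a1.symm e
        · exact hB'
    · rw [h2]
      refine ((h.invR ρ).mono (ER_sub fun B' hB' a1 a2 => ⟨?_, a2⟩)).congr fun t => h6 _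
      rcases mem_insert.1 hB' with rfl | hB'
      · omega
      · exact hB'
  · obtain ⟨st', h1, h2, h3, h4, h5, h6⟩ := fixR hM h hc hB.1 (E := ER B.1.1 st.b (insert B S))
      (ER_sub fun _ hB _ h2 => ⟨mem_insert_of_mem hB, h2⟩) ((card_ER _ _ _).trans hc')
    refine ⟨st', ⟨h1, h2 ▸ hf, hl, fun τ => ?_, fun ρ => ?_⟩, h3⟩
    · rw [h2, h5]
      refine (h.invP τ).mono (EP_sub fun B' hB' a1 a2 => ⟨?_, a2⟩)
      rcases mem_insert.1 hB' with rfl | hB'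
      · omega
      · exact hB'
    · rw [h2]
      by_cases e : ρ = B.1.1
      · rw [e]; exact h4
      · refine ((h.invR ρ).mono (ER_sub fun B' hB' a1 a2 => ⟨?_, a2⟩)).congr fun t => h6 _ e
        rcases mem_insert.1 hB' with rfl | hB'
        · exact absurd a1.symm e
        · exact hB'

/-- the pebbled edges on a segment of a link -/
def Eseg (ℓ : Link) (lo hi : ℕ) (S : Finset Blk) : Finset Edge :=
  (S.filter fun B => B.1 = ℓ ∧ lo < B.2.1 ∧ B.2.1 < hi).image fun B => B.2.2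

lemma seg_all {ℓ lo hi S P} (hc : S.card ≤ s.m) (h : Full s.m (Eseg ℓ lo hi S) P) :
    ∀ B ∈ S, B.1 = ℓ ∧ lo < B.2.1 ∧ B.2.1 < hi ∧ B.2.2 = edge P B.2.2.1 := by
  have h1 : (S.filter fun B => B.1 = ℓ ∧ lo < B.2.1 ∧ B.2.1 < hi) = S :=
    eq_of_subset_of_card_le (filter_subset _ _) (hc.trans (h.card.trans card_image_le))
  intro B hB
  have hB' := hB
  rw [← h1] at hB'
  obtain ⟨a1, a2, a3⟩ := (mem_filter.1 hB').2
  exact ⟨a1, a2, a3, h.mem (card_image_le.trans ((card_filter_le _ _).trans hc))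
    (mem_image_of_mem _ hB')⟩

lemma seg_mem {ℓ lo hi S P} (h : Full s.m (Eseg ℓ lo hi S) P) {j} (hj : j < s.m) :
    ∃ B ∈ S, B.2.2 = edge P j := by
  obtain ⟨B, hB, e⟩ := mem_image.1 (h j hj)
  exact ⟨B, (mem_filter.1 hB).1, e⟩

/-- moving the break when the segment carries no slice -/
lemma seg_free {st : St} (hv : s.Valid st) {S} (hf : Free S st.b) (hl : ∀ B ∈ S, s.Legal B)
    (hc : S.card ≤ s.m) (ℓ₀ : Link) {b₁ : ℕ} (hb : b₁ < s.L)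
    (hne : b₁ ≠ st.b ℓ₀) (hf' : ∀ B ∈ S, B.2.1 ≠ b₁)
    (hn : ∀ P, IsSl s.m s.F P → ¬ Full s.m (Eseg ℓ₀ (min b₁ (st.b ℓ₀)) (max b₁ (st.b ℓ₀)) S) P) :
    ∃ st', s.Valid st' ∧ st'.b = update st.b ℓ₀ b₁ ∧ s.AgreeH S st st' ∧ st'.X = st.X ∧
      ∀ ℓ, st'.H ℓ s.L = st.H ℓ s.L := by
  obtain ⟨D, hD, hE⟩ := exists_cut (card_image_le.trans ((card_filter_le _ _).trans hc))
    (fun e he => by
      obtain ⟨B, hB, rfl⟩ := mem_image.1 he
      exact (hl B (mem_filter.1 hB).1).2.2.2) hn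
  obtain ⟨a, ha, -⟩ := hv.v2 ℓ₀ _ (hv.v1 ℓ₀)
  refine seg hv hf ℓ₀ hb hne hf' (D := a • D) (by simpa using hD.smul a) ha fun B hB a1 a2 a3 => ?_
  simp [hE _ (mem_image_of_mem _ (mem_filter.2 ⟨hB, a1, a2, a3⟩))]

/-- moving the break when both of its sides carry the same sum -/
lemma seg_same {st : St} (hv : s.Valid st) {S} (hf : Free S st.b) (ℓ₀ : Link) {b₁ : ℕ}
    (hb : b₁ < s.L) (hne : b₁ ≠ st.b ℓ₀) (hf' : ∀ B ∈ S, B.2.1 ≠ b₁) {P} (hP : IsSl s.m s.F P)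
    (he : ssum s.m P (st.H ℓ₀ 0) = ssum s.m P (st.H ℓ₀ s.L)) :
    ∃ st', s.Valid st' ∧ st'.b = update st.b ℓ₀ b₁ ∧ s.AgreeH S st st' ∧ st'.X = st.X ∧
      ∀ ℓ, st'.H ℓ s.L = st.H ℓ s.L := by
  obtain ⟨a, ha, -⟩ := hv.v2 ℓ₀ _ (hv.v1 ℓ₀)
  have := ha.sum hP
  rw [ssum_add, hv.chain ℓ₀ hP (Nat.zero_le _) (hv.v1 _).le (Or.inl le_rfl),
    ← hv.chain ℓ₀ hP (hv.v1 ℓ₀) le_rfl (Or.inr (Nat.lt_succ_self _)), he, Csp.z2_add_self] at this
  subst this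
  exact seg hv hf ℓ₀ hb hne hf' cut_zero ha fun _ _ _ _ _ => rfl

lemma free_update {S} {b : Link → ℕ} (hf : Free S b) (ℓ₀ : Link) {b₁} (hf' : ∀ B ∈ S, B.2.1 ≠ b₁) :
    Free S (update b ℓ₀ b₁) := by
  intro B hB
  by_cases e : B.1 = ℓ₀
  · rw [e, update_self]; exact hf' B hB
  · rw [update_of_ne e]; exact hf B hB

lemma move_right (hM : s.Model Tr) {S st} (h : s.GoodSt Tr S st) (hc : S.card ≤ s.m) {ℓ₀ : Link}
    (h5 : ℓ₀.2 < 5) (hρ : ℓ₀.1 < s.R.length) {b₁ : ℕ} (hb : b₁ < s.L) (hlt : st.b ℓ₀ < b₁)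
    (hf' : ∀ B ∈ S, B.2.1 ≠ b₁) :
    ∃ st', s.GoodSt Tr S st' ∧ st'.b = update st.b ℓ₀ b₁ ∧ s.AgreeH S st st' := by
  have hle : ∀ ℓ, st.b ℓ ≤ update st.b ℓ₀ b₁ ℓ := by
    intro ℓ
    by_cases e : ℓ = ℓ₀
    · rw [e, update_self]; exact hlt.le
    · rw [update_of_ne e]
  by_cases hn : ∀ P, IsSl s.m s.F P → ¬ Full s.m (Eseg ℓ₀ (st.b ℓ₀) b₁ S) P
  · obtain ⟨st1, a1, a2, a3, a4, a5, a6⟩ := fixP hM h hc (s.slotP ℓ₀)
      (E := s.EP (s.slotP ℓ₀) (update st.b ℓ₀ b₁) S)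
      (EP_sub fun _ hB _ h2 => ⟨hB, h2.trans_le (hle _)⟩) ((card_EP _ _ _).trans (by omega))
    obtain ⟨st2, c1, c2, c3, c4, c5⟩ := seg_free a1 (a2 ▸ h.free) h.legal hc ℓ₀ hb
      (by rw [a2]; omega) hf' (by rwa [a2, min_eq_right hlt.le, max_eq_left hlt.le])
    rw [a2] at c2
    refine ⟨st2, ⟨c1, c2 ▸ free_update h.free ℓ₀ hf', h.legal, fun τ => ?_, fun ρ => ?_⟩, c2,
      a3.trans c3⟩
    · rw [c2, c4]
      by_cases e : τ = s.slotP ℓ₀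
      · rw [e]; exact a4
      · rw [a5 τ e]
        refine (h.invP τ).mono (EP_sub fun B hB b1 b2 => ⟨hB, ?_⟩)
        rwa [update_of_ne (by rintro rfl; exact e b1.symm)] at b2
    · rw [c2]
      exact ((h.invR ρ).mono (ER_sub fun B hB _ b2 => ⟨hB, (hle _).trans_lt b2⟩)).congr
        fun t => (c5 _).trans (a6 _)
  push Not at hn
  obtain ⟨P, hP, hF⟩ := hn
  have hall := seg_all hc hF
  have hμ : Tr (s.slotP ℓ₀) (s.shp ℓ₀ P) → ssum s.m P (st.H ℓ₀ s.L) = 0 :=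
    h.invR ℓ₀.1 P hP (fun j hj => by
      obtain ⟨B, hB, e⟩ := seg_mem hF hj
      obtain ⟨b1, b2, -⟩ := hall B hB
      exact e ▸ mem_ER hB (by rw [b1]) (by rwa [b1])) ℓ₀.2 h5
  have : ∃ st1, s.Valid st1 ∧ st1.b = st.b ∧ s.AgreeH S st st1 ∧
      ssum s.m (s.shp ℓ₀ P) (st1.X (s.slotP ℓ₀)) = ssum s.m P (st.H ℓ₀ s.L) ∧
      ssum s.m P (st1.H ℓ₀ s.L) = ssum s.m P (st.H ℓ₀ s.L) := by
    have hemp : s.EP (s.slotP ℓ₀) st.b S ⊆ ∅ := by
      intro e he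
      obtain ⟨B, hB, rfl⟩ := mem_image.1 he
      obtain ⟨hB, -, b0⟩ := mem_filter.1 hB
      obtain ⟨b1, b2, -⟩ := hall B hB
      rw [b1] at b0
      omega
    by_cases hτ : s.slotP ℓ₀ = 0
    · by_cases he : ssum s.m (s.shp ℓ₀ P) (st.X (s.slotP ℓ₀)) = ssum s.m P (st.H ℓ₀ s.L)
      · exact ⟨st, h.valid, rfl, AgreeH.refl _ _, he, rfl⟩
      have h4 : ℓ₀.2 < 4 := by
        by_contra h4
        refine hM.head _ hρ ?_
        rw [← hτ, show (4 : ℕ) = ℓ₀.2 by omega]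
      have e1 : s.shp ℓ₀ P = P := by rw [shp, s.slotD_lt h4, shP_zero hP]
      rw [e1, hτ] at he hμ ⊢
      have hP0 : P ≠ 0 := by
        rintro rfl
        exact he (h.valid.origin.trans (hμ ((hM.zero _ hP).2 rfl)).symm)
      obtain ⟨l, hl⟩ := Function.ne_iff.1 hP0
      have hlm : l < s.m := by
        by_contra a; exact hl (hP.ge (by omega))
      have hG : ∀ j, edge P j ≠ (l, 0, 0) := by
        intro j e
        simp only [edge, Prod.mk.injEq] at e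
        obtain ⟨rfl, e, -⟩ := e
        exact hl e
      obtain ⟨st1, a1, a2, a3, a4, a5⟩ := flipP h.valid h.free hM.head 0
        (G := fun e => if e = (l, 0, 0) then 1 else 0) (cut_line (F := s.F) hlm)
        (fun a => absurd rfl a) (fun _ j => by by_cases e : j = l <;> simp [e, Csp.z2_add_self])
        (fun e he => absurd (hemp (hτ ▸ he)) (by simp)) (fun B hB => by
          obtain ⟨b1, b2, b3, b4⟩ := hall B hB
          refine ⟨fun a => by omega, if_neg ?_⟩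
          rw [b1, sh, s.slotD_lt h4, shE_zero (h.legal B hB).2.2.2, b4]
          exact hG _)
      have hG' : ssum s.m P (fun e => if e = (l, 0, 0) then 1 else 0) = 0 :=
        sum_eq_zero fun j _ => if_neg (hG j)
      refine ⟨st1, a1, a2, a3, ?_, ?_⟩
      · rw [a4, update_self, ssum_add, ssum_add, hG', (cut_line hlm).sum hP]
        revert he
        generalize ssum s.m P (st.X 0) = x
        generalize ssum s.m P (st.H ℓ₀ s.L) = y
        revert x y; decide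
      · rw [a5 _ _ (h.valid.v1 _), if_pos hτ, ssum_add, add_eq_left]
        exact (congrArg (fun Q => ssum s.m Q _) e1).trans hG'
    · obtain ⟨st1, a1, a2, a3, a4, -, a6⟩ := setP hM h.valid h.free h.legal hc hτ
        (fun P _ => not_full_empty hM.pos hemp P) (isSl_shP (s.slotD ℓ₀) P)
        (ssum s.m P (st.H ℓ₀ s.L))
      exact ⟨st1, a1, a2, a3, a4, by rw [a6 _ _ (h.valid.v1 _)]⟩
  obtain ⟨st1, a1, a2, a3, a4, a5⟩ := this
  obtain ⟨st2, c1, c2, c3, c4, c5⟩ := seg_same a1 (a2 ▸ h.free) ℓ₀ hb (by rw [a2]; omega) hf' hP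
    (by rw [a1.sum_zero, a4, a5])
  rw [a2] at c2
  refine ⟨st2, ⟨c1, c2 ▸ free_update h.free ℓ₀ hf', h.legal, fun τ P' hP' hF' hT => ?_,
    fun ρ P' hP' hF' => ?_⟩, c2, a3.trans c3⟩
  · have : τ = s.slotP ℓ₀ := by
      obtain ⟨B, hB, -⟩ := mem_image.1 (hF' 0 hM.pos)
      obtain ⟨hB, b0, -⟩ := mem_filter.1 hB
      rw [← b0, (hall B hB).1]
    subst this
    have : P' = s.shp ℓ₀ P := hF'.unique (fun j hj => by
      obtain ⟨B, hB, e⟩ := seg_mem hF hj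
      obtain ⟨b1, -, b2, -⟩ := hall B hB
      have := mem_EP (s := s) (b := st2.b) hB (congrArg s.slotP b1) (by rwa [c2, b1, update_self])
      rwa [b1, e] at this) ((card_EP _ _ _).trans (by omega)) hP' (isSl_shP _ _)
    subst this
    rw [c4, a4, hμ hT]
  · obtain ⟨B, hB, -⟩ := mem_image.1 (hF' 0 hM.pos)
    obtain ⟨hB, -, b0⟩ := mem_filter.1 hB
    obtain ⟨b1, -, b2, -⟩ := hall B hB
    rw [c2, b1, update_self] at b0
    omega

lemma move_left (hM : s.Model Tr) {S st} (h : s.GoodSt Tr S st) (hc : S.card ≤ s.m) {ℓ₀ : Link}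
    (h5 : ℓ₀.2 < 5) (hρ : ℓ₀.1 < s.R.length) {b₁ : ℕ} (hlt : b₁ < st.b ℓ₀)
    (hf' : ∀ B ∈ S, B.2.1 ≠ b₁) :
    ∃ st', s.GoodSt Tr S st' ∧ st'.b = update st.b ℓ₀ b₁ ∧ s.AgreeH S st st' := by
  have hb : b₁ < s.L := hlt.trans (h.valid.v1 _)
  have hle : ∀ ℓ, update st.b ℓ₀ b₁ ℓ ≤ st.b ℓ := by
    intro ℓ
    by_cases e : ℓ = ℓ₀
    · rw [e, update_self]; exact hlt.le
    · rw [update_of_ne e]
  by_cases hn : ∀ P, IsSl s.m s.F P → ¬ Full s.m (Eseg ℓ₀ b₁ (st.b ℓ₀) S) P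
  · obtain ⟨st1, a1, a2, a3, a4, a5, a6⟩ := fixR hM h hc hρ
      (E := ER ℓ₀.1 (update st.b ℓ₀ b₁) S)
      (ER_sub fun _ hB _ h2 => ⟨hB, (hle _).trans_lt h2⟩) ((card_ER _ _ _).trans (by omega))
    obtain ⟨st2, c1, c2, c3, c4, c5⟩ := seg_free a1 (a2 ▸ h.free) h.legal hc ℓ₀ hb
      (by rw [a2]; omega) hf' (by rwa [a2, min_eq_left hlt.le, max_eq_right hlt.le])
    rw [a2] at c2
    refine ⟨st2, ⟨c1, c2 ▸ free_update h.free ℓ₀ hf', h.legal, fun τ => ?_, fun ρ => ?_⟩, c2,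
      a3.trans c3⟩
    · rw [c2, c4, a5]
      exact (h.invP τ).mono (EP_sub fun B hB _ b2 => ⟨hB, b2.trans_le (hle _)⟩)
    · rw [c2]
      by_cases e : ρ = ℓ₀.1
      · rw [e]; exact a4.congr fun t => c5 _
      · refine ((h.invR ρ).mono (ER_sub fun B hB b1 b2 => ⟨hB, ?_⟩)).congr
          fun t => (c5 _).trans (a6 _ e)
        rwa [update_of_ne (by rintro rfl; exact e b1.symm)] at b2
  push Not at hn
  obtain ⟨P, hP, hF⟩ := hn
  have hall := seg_all hc hF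
  have hμ : Tr (s.slotP ℓ₀) (s.shp ℓ₀ P) → ssum s.m (s.shp ℓ₀ P) (st.X (s.slotP ℓ₀)) = 0 :=
    h.invP _ _ (isSl_shP _ _) (fun j hj => by
      obtain ⟨B, hB, e⟩ := seg_mem hF hj
      obtain ⟨b1, -, b2, -⟩ := hall B hB
      have := mem_EP (s := s) (b := st.b) hB (congrArg s.slotP b1) (by rwa [b1])
      rwa [b1, e] at this)
  obtain ⟨σ, s1, s2, s3⟩ := hM.arc _ hρ P hP _ h5 _ hμ
  obtain ⟨st1, a1, a2, a3, a4, a5, a6, -⟩ := setR h.valid hM.pos h.free h.legal hc hρ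
    (fun P _ => not_full_empty hM.pos (by
      intro e he
      obtain ⟨B, hB, rfl⟩ := mem_image.1 he
      obtain ⟨hB, -, b0⟩ := mem_filter.1 hB
      obtain ⟨b1, -, b2, -⟩ := hall B hB
      rw [b1] at b0
      omega) P) hP s1
  obtain ⟨st2, c1, c2, c3, c4, c5⟩ := seg_same a1 (a2 ▸ h.free) ℓ₀ hb (by rw [a2]; omega) hf' hP
    (by rw [a1.sum_zero, a4, ← s2, a5])
  rw [a2] at c2
  refine ⟨st2, ⟨c1, c2 ▸ free_update h.free ℓ₀ hf', h.legal, fun τ P' hP' hF' => ?_,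
    fun ρ P' hP' hF' t ht hT => ?_⟩, c2, a3.trans c3⟩
  · obtain ⟨B, hB, -⟩ := mem_image.1 (hF' 0 hM.pos)
    obtain ⟨hB, -, b0⟩ := mem_filter.1 hB
    obtain ⟨b1, b2, -⟩ := hall B hB
    rw [c2, b1, update_self] at b0
    omega
  · have : ρ = ℓ₀.1 := by
      obtain ⟨B, hB, -⟩ := mem_image.1 (hF' 0 hM.pos)
      obtain ⟨hB, b0, -⟩ := mem_filter.1 hB
      rw [← b0, (hall B hB).1]
    subst this
    have : P' = P := hF'.unique (fun j hj => by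
      obtain ⟨B, hB, e⟩ := seg_mem hF hj
      obtain ⟨b1, b2, -⟩ := hall B hB
      exact e ▸ mem_ER hB (by rw [b1]) (by rwa [c2, b1, update_self]))
        ((card_ER _ _ _).trans (by omega)) hP' hP
    subst this
    beta_reduce
    rw [c5, a5, s3 t ht hT]

theorem GoodSt.ext (hM : s.Model Tr) {S st} (h : s.GoodSt Tr S st) (hc : S.card ≤ s.m) {B : Blk}
    (hB : s.Legal B) : ∃ st', s.GoodSt Tr (insert B S) st' ∧ s.AgreeH S st st' := by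
  by_cases hb : B.2.1 = st.b B.1
  · have : ∃ b₁ ∈ range s.L, b₁ ∉ insert B.2.1 (S.image fun B => B.2.1) :=
      exists_mem_notMem_of_card_lt_card (by
        have := card_insert_le B.2.1 (S.image fun B => B.2.1)
        have := card_image_le (s := S) (f := fun B => B.2.1)
        rw [card_range, L]; omega)
    obtain ⟨b₁, h1, h2⟩ := this
    rw [mem_insert, not_or] at h2
    have hf' : ∀ B ∈ S, B.2.1 ≠ b₁ := fun B' hB' e => h2.2 (e ▸ mem_image_of_mem _ hB')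
    have : ∃ st', s.GoodSt Tr S st' ∧ st'.b = update st.b B.1 b₁ ∧ s.AgreeH S st st' := by
      rcases lt_or_gt_of_ne (hb ▸ h2.1) with hlt | hlt
      · exact move_left hM h hc hB.2.1 hB.1 hlt hf'
      · exact move_right hM h hc hB.2.1 hB.1 (mem_range.1 h1) hlt hf'
    obtain ⟨st1, a1, a2, a3⟩ := this
    obtain ⟨st2, c1, c2⟩ := add_pebble hM a1 hc hB (by rw [a2, update_self]; exact Ne.symm h2.1)
    exact ⟨st2, c1, a3.trans c2⟩
  · exact add_pebble hM h hc hB hb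

end Sys

end Vale.Agent.P310
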