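import Vale.Agent.P310.Sim

/-! The graphs of a system as explicit bit matrices. -/

namespace Vale.Agent.P310

open Function

def bit (x t : ℕ) : ℕ := x / 2 ^ t % 2

namespace Sys

variable (s : Sys)

def blocks : List Blk :=
  (List.range s.R.length).flatMap fun ρ => (List.range 5).flatMap fun t =>
    (List.range (s.L + 1)).flatMap fun c => (List.range s.m).flatMap fun j =>
      (List.range (md s.m s.F j)).flatMap fun r =>
        (List.range (md s.m s.F (j + 1))).map fun r' => ((ρ, t), c, j, r, r')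

lemma mem_blocks (B : Blk) : B ∈ s.blocks ↔ s.Legal B := by
  obtain ⟨⟨ρ, t⟩, c, j, r, r'⟩ := B
  simp [blocks, Legal, LegE, Nat.lt_succ_iff]

lemma md_le (m F l : ℕ) : md m F l ≤ m * F + 1 := by
  unfold md
  split_ifs with h
  · have := Nat.mul_le_mul_right F h.2.le; omega
  · omega

lemma length_flatMap_le {α β : Type} (l : List α) (f : α → List β) {n : ℕ}
    (h : ∀ a, (f a).length ≤ n) : (l.flatMap f).length ≤ l.length * n := by
  induction l with
  | nil => simp
  | cons a l ih =>
    have := h a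
    simp only [List.flatMap_cons, List.length_append, List.length_cons, Nat.succ_mul]
    omega

lemma length_blocks : s.blocks.length ≤
    s.R.length * (5 * ((s.m + 3) * (s.m * ((s.m * s.F + 1) * (s.m * s.F + 1))))) := by
  refine (length_flatMap_le _ _ fun ρ => ?_).trans_eq (by rw [List.length_range])
  refine (length_flatMap_le _ _ fun t => ?_).trans_eq (by rw [List.length_range])
  refine (length_flatMap_le _ _ fun c => ?_).trans_eq (by rw [List.length_range]; rfl)
  refine (length_flatMap_le _ _ fun j => ?_).trans_eq (by rw [List.length_range])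
  refine (length_flatMap_le _ _ (n := s.m * s.F + 1) fun r => ?_).trans ?_
  · simpa using md_le _ _ _
  · rw [List.length_range]
    exact Nat.mul_le_mul_right _ (md_le _ _ _)

def agreeN (B : Blk) (x : ℕ) (B' : Blk) (x' : ℕ) : Bool :=
  (List.range 5).all fun t => (List.range 5).all fun t' =>
    decide (s.varN B t = s.varN B' t' → bit x t = bit x' t')

def validN (b : Bool) (B : Blk) (x : ℕ) : Bool :=
  decide (((List.range 5).map (bit x)).sum % 2 = (b && s.rhsB B).toNat) && s.agreeN B x B x &&
    (List.range 5).all fun t => decide (s.varN B t = vz → bit x t = 0)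

def blkN (bl : List Blk) (a : ℕ) : Blk := bl.getD (a / 32) ((0, 0), 0, 0, 0, 0)

def adjN (bl : List Blk) (b : Bool) (a a' : ℕ) : Bool :=
  if a < bl.length * 32 then
    if a' < bl.length * 32 then decide (a / 32 ≠ a' / 32) && (s.validN b (blkN bl a) (a % 32) &&
      (s.validN b (blkN bl a') (a' % 32) && s.agreeN (blkN bl a) (a % 32) (blkN bl a') (a' % 32)))
    else s.validN b (blkN bl a) (a % 32) &&
      decide (a' - bl.length * 32 < (a / 32 + 1) * (32 * bl.length + 1))
  else if a' < bl.length * 32 then s.validN b (blkN bl a') (a' % 32) &&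
      decide (a - bl.length * 32 < (a' / 32 + 1) * (32 * bl.length + 1))
    else false

def mat (bl : List Blk) (n : ℕ) (b : Bool) : List Bool :=
  (List.range n).flatMap fun a => (List.range n).map fun a' => s.adjN bl b a a'

/-- numbering of the assignments of a block -/
def uEquiv : (Fin 5 → Z2) ≃ Fin 32 := finFunctionFinEquiv (m := 2) (n := 5)

lemma bit_uEquiv (u : Fin 5 → Z2) (t : Fin 5) : bit (uEquiv u) t = (u t).val := by
  have := congrArg (fun f : Fin 5 → Fin 2 => (f t : ℕ)) ((finFunctionFinEquiv (m := 2) (n := 5)).symm_apply_apply u)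
  exact this

lemma agreeN_iff (B u B' u') : s.agreeN B (uEquiv u) B' (uEquiv u') = true ↔ s.csp.Agree B u B' u' := by
  simp only [agreeN, List.all_eq_true, List.mem_range, decide_eq_true_eq, Csp.Agree, csp]
  constructor
  · intro h t t' e
    have := h t t.2 t' t'.2 e
    rw [bit_uEquiv, bit_uEquiv] at this
    exact ZMod.val_injective 2 this
  · intro h t ht t' ht' e
    have := h ⟨t, ht⟩ ⟨t', ht'⟩ e
    rw [bit_uEquiv u ⟨t, ht⟩, bit_uEquiv u' ⟨t', ht'⟩, this]

lemma validN_iff (b B u) :
    s.validN b B (uEquiv u) = true ↔ s.csp.Valid (if b then 1 else 0) B u := by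
  simp only [validN, Bool.and_eq_true, agreeN_iff, List.all_eq_true, List.mem_range,
    decide_eq_true_eq, Csp.Valid, and_assoc]
  refine and_congr ?_ (and_congr Iff.rfl ?_)
  · have : ((List.range 5).map (bit (uEquiv u))).sum = ∑ t, (u t).val := by
      simp only [← bit_uEquiv]
      rw [Fin.sum_univ_eq_sum_range (fun t => bit (uEquiv u) t) 5]
      rfl
    rw [this, Fin.sum_univ_five, Fin.sum_univ_five]
    simp only [csp]
    generalize s.rhsB B = r
    generalize u 0 = a0
    generalize u 1 = a1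
    generalize u 2 = a2
    generalize u 3 = a3
    generalize u 4 = a4
    revert b r a0 a1 a2 a3 a4
    decide
  · constructor
    · intro h t e
      have := h t t.2 e
      rw [bit_uEquiv] at this
      exact (ZMod.val_eq_zero _).1 this
    · intro h t ht e
      rw [bit_uEquiv u ⟨t, ht⟩, h ⟨t, ht⟩ e]
      rfl

/-- numbering of the vertices -/
def vEquiv (M N : ℕ) : Csp.Vtx M N ≃ Fin (M * 32 + N) :=
  (Equiv.sumCongr ((Equiv.prodCongr (Equiv.refl _) uEquiv).trans finProdFinEquiv)
    (Equiv.refl _)).trans finSumFinEquiv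

lemma vEquiv_inl {M N} (p) : (vEquiv M N (.inl p) : ℕ) = uEquiv p.2 + 32 * p.1 := rfl
lemma vEquiv_inr {M N} (ν) : (vEquiv M N (.inr ν) : ℕ) = M * 32 + ν := rfl

lemma adjN_iff (bl : List Blk) (N : ℕ) (b : Bool) (w w' : Csp.Vtx bl.length N) :
    s.adjN bl b (vEquiv _ _ w) (vEquiv _ _ w') = true ↔
      s.csp.adj bl.get (if b then 1 else 0) w w' := by
  have key : ∀ p : Fin bl.length × (Fin 5 → Z2), (uEquiv p.2 + 32 * p.1 : ℕ) < bl.length * 32 ∧
      (uEquiv p.2 + 32 * p.1 : ℕ) / 32 = p.1 ∧ (uEquiv p.2 + 32 * p.1 : ℕ) % 32 = uEquiv p.2 ∧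
      blkN bl (uEquiv p.2 + 32 * p.1) = bl.get p.1 := by
    intro p
    have h1 := (uEquiv p.2).2
    have h2 := p.1.2
    have h3 : (uEquiv p.2 + 32 * p.1 : ℕ) / 32 = p.1 := by omega
    exact ⟨by omega, h3, by omega, by simp [blkN, h3]⟩
  have key' : ∀ ν : Fin N, ¬ bl.length * 32 + ν < bl.length * 32 := fun ν => by omega
  rcases w with p | ν <;> rcases w' with q | μ
  · obtain ⟨a1, a2, a3, a4⟩ := key p
    obtain ⟨b1, b2, b3, b4⟩ := key q
    rw [vEquiv_inl, vEquiv_inl, adjN, if_pos a1, if_pos b1, a2, a3, a4, b2, b3, b4]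
    simp only [Bool.and_eq_true, validN_iff, agreeN_iff, decide_eq_true_eq, ne_eq, Fin.ext_iff,
      Csp.adj]
  · obtain ⟨a1, a2, a3, a4⟩ := key p
    rw [vEquiv_inl, vEquiv_inr, adjN, if_pos a1, if_neg (key' _), a2, a3, a4]
    simp only [Bool.and_eq_true, validN_iff, decide_eq_true_eq, Nat.add_sub_cancel_left, Csp.adj]
  · obtain ⟨a1, a2, a3, a4⟩ := key q
    rw [vEquiv_inl, vEquiv_inr, adjN, if_neg (key' _), if_pos a1, a2, a3, a4]
    simp only [Bool.and_eq_true, validN_iff, decide_eq_true_eq, Nat.add_sub_cancel_left, Csp.adj]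
  · rw [vEquiv_inr, vEquiv_inr, adjN, if_neg (key' _), if_neg (key' _)]
    simp [Csp.adj]

lemma adjBits_eq (bl : List Blk) (N : ℕ) (b : Bool) :
    adjBits ((s.csp.graph N bl.get (if b then 1 else 0)).comap (vEquiv _ _).symm) =
      s.mat bl (bl.length * 32 + N) b := by
  classical
  unfold adjBits mat
  rw [← List.map_coe_finRange_eq_range, List.flatMap_map]
  congr 1
  funext i
  rw [List.map_map]
  congr 1
  funext j
  obtain ⟨w, rfl⟩ := (vEquiv _ _).surjective i
  obtain ⟨w', rfl⟩ := (vEquiv _ _).surjective j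
  rw [Bool.eq_iff_iff, comp_apply, adjN_iff, decide_eq_true_eq, SimpleGraph.comap_adj,
    Equiv.symm_apply_apply, Equiv.symm_apply_apply]
  rfl

end Sys

end Vale.Agent.P310
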