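import Vale.Agent.P310.Num
import Vale.Agent.Lib.PTime.Nat

/-! The program that prints the two graphs runs in polynomial time. -/

namespace Vale.Agent.P310

open Function PT

instance : TEnc Sys := ⟨fun s => TEnc.enc (List.replicate s.m (), List.replicate s.F (), s.R)⟩

section
variable {α : Type} [TEnc α] {s : α → Sys}

lemma pt_sys (hs : PTime s) :
    PTime fun a => (List.replicate (s a).m (), List.replicate (s a).F (), (s a).R) :=
  hs.of_enc fun _ => rfl

@[fun_prop] lemma pt_m (hs : PTime s) : PTime fun a => (s a).m :=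
  (pt_sys hs).fst.length.of_eq fun a => by simp
@[fun_prop] lemma pt_F (hs : PTime s) : PTime fun a => (s a).F :=
  (pt_sys hs).snd.fst.length.of_eq fun a => by simp
@[fun_prop] lemma pt_R (hs : PTime s) : PTime fun a => (s a).R := (pt_sys hs).snd.snd
@[fun_prop] lemma pb_m (hs : PTime s) : PB fun a => (s a).m :=
  (PB.length (pt_sys hs).fst).of_le fun a => by simp
@[fun_prop] lemma pb_F (hs : PTime s) : PB fun a => (s a).F :=
  (PB.length (pt_sys hs).snd.fst).of_le fun a => by simp
@[fun_prop] lemma pt_L (hs : PTime s) : PTime fun a => (s a).L := by unfold Sys.L; fun_prop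
@[fun_prop] lemma pb_L (hs : PTime s) : PB fun a => (s a).L := by unfold Sys.L; fun_prop

@[fun_prop] lemma pt_md {m F l : α → ℕ} (hm : PTime m) (hF : PTime F) (hl : PTime l) :
    PTime fun a => md (m a) (F a) (l a) := by unfold md; fun_prop

@[fun_prop] lemma pb_md {m F : α → ℕ} (hm : PB m) (hF : PB F) (l : α → ℕ) :
    PB fun a => md (m a) (F a) (l a) :=
  PB.of_le (g := fun a => m a * F a + 1) (by fun_prop) fun _ => Sys.md_le _ _ _

@[fun_prop] lemma pt_rule (hs : PTime s) {r : α → ℕ} (hr : PTime r) :
    PTime fun a => (s a).rule (r a) := by unfold Sys.rule; fun_prop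

@[fun_prop] lemma pt_slotP (hs : PTime s) {l : α → Link} (hl : PTime l) :
    PTime fun a => (s a).slotP (l a) := by unfold Sys.slotP; fun_prop

@[fun_prop] lemma pt_slotD (hs : PTime s) {l : α → Link} (hl : PTime l) {j : α → ℕ} (hj : PTime j) :
    PTime fun a => (s a).slotD (l a) (j a) := by unfold Sys.slotD dvec; fun_prop

@[fun_prop] lemma pt_sh (hs : PTime s) {l : α → Link} (hl : PTime l) {e : α → Edge} (he : PTime e) :
    PTime fun a => (s a).sh (l a) (e a) := by unfold Sys.sh shE shV; fun_prop

@[fun_prop] lemma pt_xv {t : α → ℕ} (ht : PTime t) {e : α → Edge} (he : PTime e) :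
    PTime fun a => Sys.xv (t a) (e a) := by unfold Sys.xv; fun_prop

@[fun_prop] lemma pt_hv (hs : PTime s) {l : α → Link} (hl : PTime l) {c : α → ℕ} (hc : PTime c)
    {e : α → Edge} (he : PTime e) : PTime fun a => (s a).hv (l a) (c a) (e a) := by
  unfold Sys.hv; fun_prop

@[fun_prop] lemma pt_yv (hs : PTime s) {l : α → Link} (hl : PTime l) {c j r : α → ℕ} (hc : PTime c)
    (hj : PTime j) (hr : PTime r) : PTime fun a => (s a).yv (l a) (c a) (j a) (r a) := by
  unfold Sys.yv; fun_prop

@[fun_prop] lemma pt_varN (hs : PTime s) {B : α → Blk} (hB : PTime B) {t : α → ℕ} (ht : PTime t) :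
    PTime fun a => (s a).varN (B a) (t a) := by unfold Sys.varN; fun_prop

@[fun_prop] lemma pt_rhsB (hs : PTime s) {B : α → Blk} (hB : PTime B) :
    PTime fun a => (s a).rhsB (B a) := by unfold Sys.rhsB; fun_prop

lemma bit_eq (x t : ℕ) : bit x t = (x.bits.getD t false).toNat := by
  rw [bit, ← Nat.toNat_testBit, Nat.testBit_eq_inth]
  rfl

@[fun_prop] lemma pt_bit {x t : α → ℕ} (hx : PTime x) (ht : PTime t) :
    PTime fun a => bit (x a) (t a) := by simp only [bit_eq]; fun_prop

@[fun_prop] lemma pt_agreeN (hs : PTime s) {B B' : α → Blk} (hB : PTime B) (hB' : PTime B')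
    {x x' : α → ℕ} (hx : PTime x) (hx' : PTime x') :
    PTime fun a => (s a).agreeN (B a) (x a) (B' a) (x' a) := by
  classical
  have f : PTime fun p : (α × ℕ) × ℕ => p.1.1 := PTime.fst_id.fst
  exact (PTime.const _).all ((PTime.const _).all (PTime.decide_imp
    ((pt_varN (hs.comp f) (hB.comp f) PTime.fst_id.snd).decide_eq
      (pt_varN (hs.comp f) (hB'.comp f) PTime.snd_id))
    ((pt_bit (hx.comp f) PTime.fst_id.snd).decide_eq (pt_bit (hx'.comp f) PTime.snd_id))))

@[fun_prop] lemma pt_validN (hs : PTime s) {b : α → Bool} (hb : PTime b) {B : α → Blk} (hB : PTime B)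
    {x : α → ℕ} (hx : PTime x) : PTime fun a => (s a).validN (b a) (B a) (x a) := by
  classical
  have f : PTime fun p : α × ℕ => p.1 := PTime.fst_id
  exact (((((PTime.const _).map (f := fun a => bit (x a))
    (pt_bit (hx.comp f) PTime.snd_id)).nat_sum.mod
    (.const _)).decide_eq (hb.and (pt_rhsB hs hB)).toNat).and (pt_agreeN hs hB hB hx hx)).and
    ((PTime.const _).all (PTime.decide_imp
      ((pt_varN (hs.comp f) (hB.comp f) PTime.snd_id).decide_eq (.const _))
      ((pt_bit (hx.comp f) PTime.snd_id).decide_eq (.const _))))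

@[fun_prop] lemma pt_blkN {l : α → List Blk} (hl : PTime l) {x : α → ℕ} (hx : PTime x) :
    PTime fun a => Sys.blkN (l a) (x a) := by unfold Sys.blkN; fun_prop

@[fun_prop] lemma pt_adjN (hs : PTime s) {l : α → List Blk} (hl : PTime l) {b : α → Bool}
    (hb : PTime b) {x y : α → ℕ} (hx : PTime x) (hy : PTime y) :
    PTime fun a => (s a).adjN (l a) (b a) (x a) (y a) := by
  have h1 := hl.length.mul (.const 32)
  have h2 := ((PTime.const 32).mul hl.length).add (.const 1)
  have vx := pt_validN hs hb (pt_blkN hl hx) (hx.mod (.const 32))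
  have vy := pt_validN hs hb (pt_blkN hl hy) (hy.mod (.const 32))
  exact PTime.ite (hx.decide_lt h1) (PTime.ite (hy.decide_lt h1)
    (((hx.div (.const 32)).decide_ne (hy.div (.const 32))).and (vx.and (vy.and
      (pt_agreeN hs (pt_blkN hl hx) (pt_blkN hl hy) (hx.mod (.const 32)) (hy.mod (.const 32))))))
    (vx.and ((hy.sub h1).decide_lt (((hx.div (.const 32)).add (.const 1)).mul h2))))
    (PTime.ite (hy.decide_lt h1)
      (vy.and ((hx.sub h1).decide_lt (((hy.div (.const 32)).add (.const 1)).mul h2))) (.const _))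

@[fun_prop] lemma pt_mat (hs : PTime s) {l : α → List Blk} (hl : PTime l) {n : α → ℕ} (hn : PTime n)
    (hn' : PB n) {b : α → Bool} (hb : PTime b) : PTime fun a => (s a).mat (l a) (n a) (b a) := by
  have f : PTime fun p : (α × ℕ) × ℕ => p.1.1 := PTime.fst_id.fst
  exact (hn.range hn').flatMap (((hn.range hn').comp PTime.fst_id).map
    (pt_adjN (hs.comp f) (hl.comp f) (hb.comp f) PTime.fst_id.snd PTime.snd_id))

@[fun_prop] lemma pt_blocks (hs : PTime s) : PTime fun a => (s a).blocks := by
  unfold Sys.blocks; fun_prop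

end

/-- the input of the printer -/
abbrev Inp := Sys × ℕ × ℕ × ℕ × ℕ

/-- the rules describing an input string -/
def inRules (p₀ p₁ p₂ : ℕ) (x : List Bool) : List Rule :=
  (x.zipIdx.map fun p => (0, 0, bif p.1 then p₁ else p₀, 0, p.2, false)) ++
    [(0, 0, p₂, 0, x.length, false)]

def sysOf (w : Inp) : Sys := ⟨w.1.m, w.1.F, w.1.R ++ inRules w.2.2.1 w.2.2.2.1 w.2.2.2.2 (encode w)⟩

def printer (w : Inp) : List Bool :=
  (sysOf w).mat (sysOf w).blocks (min w.2.1 (w.1.F ^ 7)) false ++
    (sysOf w).mat (sysOf w).blocks (min w.2.1 (w.1.F ^ 7)) true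

lemma pt_sysOf : PTime sysOf := by
  refine PTime.of_enc (f := fun w : Inp => (List.replicate w.1.m (), List.replicate w.1.F (),
    w.1.R ++ inRules w.2.2.1 w.2.2.2.1 w.2.2.2.2 (encode w))) ?_ fun _ => rfl
  unfold inRules
  fun_prop

lemma pt_printer : PTime printer := by
  have := pt_sysOf
  have h1 : PB fun w : Inp => min w.2.1 (w.1.F ^ 7) :=
    PB.of_le (g := fun w : Inp => w.1.F ^ 7) (by fun_prop) fun _ => min_le_right _ _
  have h2 : PTime fun w : Inp => min w.2.1 (w.1.F ^ 7) := by fun_prop
  unfold printer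
  fun_prop

/-- decoding of the tree format of a bit string -/
def unLoop : Cmd := .loop .a .skip (.cases .a .skip (.push .b false)
  (.cases .a .skip (.cases .a .skip (.push .b true) .skip) .skip))

lemma run_unLoop (l : List Bool) : ∀ b, Run unLoop (mk (encode l) b [] [])
    (mk [] (l.reverse ++ b) [] []) (5 * l.length + 3) := by
  induction l with
  | nil => exact fun b => Run.loopF (l := []) (m := 1) rfl (Run.skip _) (by simpa using! Run.loopE rfl)
  | cons x l ih =>
    intro b
    cases x
    · refine (Run.loopT (l := false :: encode l) rfl (Run.casesF (l := encode l) rfl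
        (Run.push _ _ _)) (by simpa using! ih (false :: b))).mono ?_
      simp; omega
    · refine (Run.loopT (l := true :: false :: false :: encode l) rfl
        (Run.casesT (l := false :: false :: encode l) rfl (Run.casesF (l := false :: encode l) rfl
        (Run.casesF (l := encode l) rfl (Run.push _ _ _)))) (by simpa using! ih (true :: b))).mono ?_
      simp; omega

theorem exists_printer : ∃ (c : Cmd) (p : Polynomial ℕ), ∀ w : Inp, Nonempty
    (Turing.TM2OutputsInTime (machine c) (encode w) (some (printer w)) (p.eval (sz w))) := by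
  obtain ⟨c, t, ht, h⟩ := pt_printer
  obtain ⟨p, hp⟩ : PB fun w : Inp => t w + (5 * (printer w).length + 3 +
      (2 * (printer w).length + 1)) := by
    have := pt_printer
    fun_prop
  refine ⟨.seq c (.seq unLoop (back .b)), p, fun w => ?_⟩
  have h1 := h w []
  have h2 := run_unLoop (printer w) []
  have h3 := run_back_b (printer w).reverse [] [] []
  simp only [List.append_nil, List.reverse_reverse, List.length_reverse] at h1 h2 h3
  obtain ⟨n, hn, he⟩ := h1.seq (h2.seq h3)
  exact machine_outputs he (hn.trans (hp w))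

end Vale.Agent.P310
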