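import Vale.Agent.P310.Tab
import Vale.Agent.Lib.PTime.Machine

/-! Simulation of Mathlib's stack machines by machines with elementary steps. -/

namespace Vale.Agent.P310

open Function Turing Turing.TM2

section
variable {K : Type} {Γ : K → Type} {Λ σ : Type} {Q K' Γ' : Type}

def tr (Mx : Λ → Stmt Γ Λ σ) (ι : K → K') (e : ∀ k, Γ k → Γ') (d : ∀ k, Γ' → Option (Γ k))
    (emb : Stmt Γ Λ σ × σ → Q) (k₀ : K') (hl : Act Q K' Γ') : Stmt Γ Λ σ → σ → Act Q K' Γ'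
  | .push k f s, v => .push (ι k) (e k (f v)) (emb (s, v))
  | .peek k f s, v => .pop (ι k) false fun o => emb (s, f v (o.bind (d k)))
  | .pop k f s, v => .pop (ι k) true fun o => emb (s, f v (o.bind (d k)))
  | .load a s, v => .pop k₀ false fun _ => emb (s, a v)
  | .branch p s₁ s₂, v => .pop k₀ false fun _ => emb (cond (p v) s₁ s₂, v)
  | .goto f, v => .pop k₀ false fun _ => emb (Mx (f v), v)
  | .halt, _ => hl

def size : Stmt Γ Λ σ → ℕ
  | .push _ _ s => size s + 1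
  | .peek _ _ s => size s + 1
  | .pop _ _ s => size s + 1
  | .load _ s => size s + 1
  | .branch _ s₁ s₂ => size s₁ + size s₂ + 1
  | .goto _ => 1
  | .halt => 0

def Rel (ι : K → K') (e : ∀ k, Γ k → Γ') (S₀ : K' → List Γ') (S : ∀ k, List (Γ k))
    (S' : K' → List Γ') : Prop :=
  (∀ k, S' (ι k) = (S k).map (e k)) ∧ ∀ k', (∀ k, ι k ≠ k') → S' k' = S₀ k'

variable [DecidableEq K] [DecidableEq K'] {Mx : Λ → Stmt Γ Λ σ} {ι : K → K'} {e : ∀ k, Γ k → Γ'}
  {d : ∀ k, Γ' → Option (Γ k)} {emb : Stmt Γ Λ σ × σ → Q} {k₀ : K'} {hl : Act Q K' Γ'}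
  {S₀ : K' → List Γ'}

lemma Rel.update (hι : Injective ι) {S S'} (h : Rel ι e S₀ S S') (k : K) (l : List (Γ k)) :
    Rel ι e S₀ (update S k l) (update S' (ι k) (l.map (e k))) := by
  refine ⟨fun k' => ?_, fun k' hk => ?_⟩
  · by_cases hk : k' = k
    · subst hk; simp
    · rw [update_of_ne hk, update_of_ne (hι.ne hk), h.1]
  · rw [update_of_ne (hk k).symm, h.2 k' hk]

variable {M : Mach Q K' Γ'} (hι : Injective ι) (hd : ∀ k a, d k (e k a) = some a)
  (hM : ∀ s v, M.act (emb (s, v)) = tr Mx ι e d emb k₀ hl s v)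
include hι hd hM

lemma sim_aux (s : Stmt Γ Λ σ) : ∀ v S S', Rel ι e S₀ S S' → ∃ S'', ∃ n ≤ size s,
    Rel ι e S₀ (stepAux s v S).stk S'' ∧
    M.Run (emb (s, v), S') (emb ((stepAux s v S).l.elim .halt Mx, (stepAux s v S).var), S'') n := by
  have hh : ∀ k S S', Rel ι e S₀ S S' → (S' (ι k)).head?.bind (d k) = (S k).head? := by
    intro k S S' h
    rw [h.1]
    cases S k <;> simp [hd]
  induction s with
  | push k f s ih =>
    intro v S S' h
    obtain ⟨S'', n, h1, h2, h3⟩ := ih v _ _ (h.update hι k (f v :: S k))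
    exact ⟨S'', n + 1, by simpa [size] using h1, h2,
      .step (by simp [Mach.step, hM, tr, h.1]) h3⟩
  | peek k f s ih =>
    intro v S S' h
    obtain ⟨S'', n, h1, h2, h3⟩ := ih (f v (S k).head?) _ _ h
    exact ⟨S'', n + 1, by simpa [size] using h1, h2,
      .step (by simp [Mach.step, hM, tr, hh k S S' h]) h3⟩
  | pop k f s ih =>
    intro v S S' h
    obtain ⟨S'', n, h1, h2, h3⟩ := ih (f v (S k).head?) _ _ (h.update hι k (S k).tail)
    refine ⟨S'', n + 1, by simpa [size] using h1, h2, .step ?_ h3⟩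
    simp only [Mach.step, hM, tr, hh k S S' h, if_true]
    simp [h.1]
  | load a s ih =>
    intro v S S' h
    obtain ⟨S'', n, h1, h2, h3⟩ := ih (a v) _ _ h
    exact ⟨S'', n + 1, by simpa [size] using h1, h2, .step (by simp [Mach.step, hM, tr]) h3⟩
  | branch p s₁ s₂ ih₁ ih₂ =>
    intro v S S' h
    cases hp : p v
    · obtain ⟨S'', n, h1, h2, h3⟩ := ih₂ v _ _ h
      exact ⟨S'', n + 1, by simp [size]; omega, by simpa [hp] using h2,
        .step (by simp [Mach.step, hM, tr, hp]; rfl) (by simpa [hp] using h3)⟩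
    · obtain ⟨S'', n, h1, h2, h3⟩ := ih₁ v _ _ h
      exact ⟨S'', n + 1, by simp [size]; omega, by simpa [hp] using h2,
        .step (by simp [Mach.step, hM, tr, hp]; rfl) (by simpa [hp] using h3)⟩
  | goto f =>
    intro v S S' h
    exact ⟨S', 1, le_rfl, h, .step (by simp [Mach.step, hM, tr]) (.refl _)⟩
  | halt =>
    intro v S S' h
    exact ⟨S', 0, le_rfl, h, .refl _⟩

lemma sim_iter {C : ℕ} (hC : ∀ l, size (Mx l) ≤ C) (n : ℕ) : ∀ (c c' : Cfg Γ Λ σ) S',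
    (flip bind (TM2.step Mx))^[n] (some c) = some c' → Rel ι e S₀ c.stk S' →
    ∃ S'', ∃ n' ≤ C * n, Rel ι e S₀ c'.stk S'' ∧
      M.Run (emb (c.l.elim .halt Mx, c.var), S') (emb (c'.l.elim .halt Mx, c'.var), S'') n' := by
  induction n with
  | zero =>
    intro c c' S' h hr
    obtain rfl := Option.some.inj h
    exact ⟨S', 0, le_rfl, hr, .refl _⟩
  | succ n ih =>
    rintro ⟨_ | l, v, S⟩ c' S' h hr
    · have : ∀ n, (flip bind (TM2.step Mx))^[n] none = none := fun n => iterate_fixed rfl n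
      rw [iterate_succ_apply] at h
      exact absurd ((this n).symm.trans h) (by simp)
    · obtain ⟨S1, n1, h1, h2, h3⟩ := sim_aux hι hd hM (Mx l) v S S' hr
      obtain ⟨S2, n2, h4, h5, h6⟩ := ih (stepAux (Mx l) v S) c' S1 h h2
      exact ⟨S2, n1 + n2, by have := hC l; rw [Nat.mul_succ]; omega, h5, h3.trans h6⟩

omit hι hd hM [DecidableEq K] [DecidableEq K'] in
lemma tr_closed {QS : Set Q} (hQ : ∀ l s v, s ∈ stmts₁ (Mx l) → emb (s, v) ∈ QS)
    (h1 : ∀ k γ q, hl = .push k γ q → q ∈ QS) (h2 : ∀ k b f, hl = .pop k b f → ∀ o, f o ∈ QS)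
    {l s} (v) (hs : s ∈ stmts₁ (Mx l)) :
    (∀ k γ q, tr Mx ι e d emb k₀ hl s v = .push k γ q → q ∈ QS) ∧
      ∀ k b f, tr Mx ι e d emb k₀ hl s v = .pop k b f → ∀ o, f o ∈ QS := by
  have key : ∀ s' v, s' ∈ stmts₁ s → emb (s', v) ∈ QS := fun s' v h =>
    hQ l s' v (stmts₁_trans hs h)
  cases s with
  | halt => exact ⟨h1, h2⟩
  | goto f =>
    refine ⟨fun _ _ _ h => (by cases h), fun _ _ _ h o => ?_⟩
    cases h
    exact hQ _ _ _ stmts₁_self
  | push k f s =>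
    refine ⟨fun _ _ _ h => ?_, fun _ _ _ h => by cases h⟩
    cases h
    exact key _ _ (by simp [stmts₁, stmts₁_self])
  | branch p s₁ s₂ =>
    refine ⟨fun _ _ _ h => (by cases h), fun _ _ _ h o => ?_⟩
    cases h
    refine key _ _ ?_
    cases p v <;> simp [stmts₁, stmts₁_self]
  | _ =>
    refine ⟨fun _ _ _ h => (by cases h), fun _ _ _ h o => ?_⟩
    cases h
    exact key _ _ (by simp [stmts₁, stmts₁_self])

end

lemma exists_supp {Q K Γ : Type} (M : Mach Q K Γ) {QS : Set Q} (hf : QS.Finite)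
    (h : ∀ q ∈ QS, (∀ k γ q', M.act q = .push k γ q' → q' ∈ QS) ∧
      ∀ k b f, M.act q = .pop k b f → ∀ o, f o ∈ QS) {Γ₀ : Set Γ} (h₀ : Γ₀.Finite) :
    ∃ ΓS : Set Γ, ΓS.Finite ∧ Γ₀ ⊆ ΓS ∧ M.Supp QS ΓS := by
  refine ⟨Γ₀ ∪ ⋃ q ∈ QS, {γ | ∃ k q', M.act q = .push k γ q'}, h₀.union (hf.biUnion fun q _ =>
    Set.Subsingleton.finite ?_), Set.subset_union_left, fun q hq k γ q' e =>
      ⟨Or.inr (Set.mem_biUnion hq ⟨k, q', e⟩), (h q hq).1 k γ q' e⟩, fun q hq => (h q hq).2⟩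
  rintro a ⟨k, q', e⟩ b ⟨k', q'', e'⟩
  rw [e] at e'
  cases e'
  rfl

lemma finite_stmts {K : Type} {Γ : K → Type} {Λ σ : Type} [Finite Λ] [Finite σ]
    (Mx : Λ → Stmt Γ Λ σ) : {p : Stmt Γ Λ σ × σ | ∃ l, p.1 ∈ stmts₁ (Mx l)}.Finite := by
  refine ((Set.finite_iUnion fun l => (stmts₁ (Mx l)).finite_toSet).prod
    (Set.finite_univ (α := σ))).subset ?_
  rintro p ⟨l, hl⟩
  exact ⟨Set.mem_iUnion.2 ⟨l, hl⟩, trivial⟩

lemma exists_size {K : Type} {Γ : K → Type} {Λ σ : Type} [Finite Λ] (Mx : Λ → Stmt Γ Λ σ) :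
    ∃ C, ∀ l, size (Mx l) ≤ C := by
  obtain ⟨C, hC⟩ := (Set.finite_range fun l => size (Mx l)).bddAbove
  exact ⟨C, fun l => hC ⟨l, rfl⟩⟩

/-- the composition of a printing program with the machine `A` -/
theorem exists_mach (c : PT.Cmd) (A : TM2ComputableAux Bool Bool) :
    ∃ (Q K Γ : Type) (_ : DecidableEq K) (_ : Fintype K) (M : Mach Q K Γ) (QS : Set Q) (ΓS : Set Γ)
      (q₀ : Q) (kin : K) (e : Bool → Γ) (C : ℕ), QS.Finite ∧ ΓS.Finite ∧ M.Supp QS ΓS ∧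
      M.act M.qf = .stop ∧ q₀ ∈ QS ∧ (∀ b, e b ∈ ΓS) ∧
      ∀ (x y : List Bool) (t₁ t₂ : ℕ) (b : Bool), TM2OutputsInTime (PT.machine c) x (some y) t₁ →
        TM2OutputsInTime A.tm (y.map A.inputAlphabet.symm) (some [A.outputAlphabet.symm b]) t₂ →
        ∃ c₁ T, M.Run (q₀, update (fun _ => []) kin (x.map e)) c₁ T ∧ T ≤ C * (t₁ + t₂) + 1 ∧
          M.step c₁ = none ∧ (M.Tr .acc c₁ 0 ↔ b = true) := by
  classical
  obtain ⟨tm, inp, out⟩ := A
  have := tm.kFin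
  have := tm.ΛFin
  have := tm.σFin
  have := PT.finite_Lab c
  let MP := PT.code c id none
  let Q := (Stmt (fun _ : PT.R => Bool) (PT.Lab c) (Option Bool) × Option Bool) ⊕
    (Stmt tm.Γ tm.Λ tm.σ × tm.σ)
  let dA : ∀ k, (Σ k, tm.Γ k) → Option (tm.Γ k) := fun k γ =>
    if h : γ.1 = k then some (h ▸ γ.2) else none
  have hdA : ∀ k a, dA k ⟨k, a⟩ = some a := fun k a => by simp [dA]
  let eP : Bool → Σ k, tm.Γ k := fun b => ⟨tm.k₀, inp.symm b⟩
  let ιP : PT.R → PT.R ⊕ tm.K := fun r => if r = .a then .inr tm.k₀ else .inl r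
  have hιP : Injective ιP := by
    intro r r' h
    cases r <;> cases r' <;> simp [ιP] at h ⊢
  let hlP : Act Q (PT.R ⊕ tm.K) (Σ k, tm.Γ k) :=
    .pop (.inl .a) false fun _ => .inr (tm.m tm.main, tm.initialState)
  let M : Mach Q (PT.R ⊕ tm.K) (Σ k, tm.Γ k) := ⟨Sum.elim
    (fun p => tr MP ιP (fun _ => eP) (fun _ γ => (dA tm.k₀ γ).map inp) Sum.inl (.inl .a) hlP p.1 p.2)
    (fun p => tr tm.m Sum.inr Sigma.mk dA Sum.inr (.inl .a) .stop p.1 p.2),
    .inr (.halt, tm.initialState), .inr tm.k₁, ⟨tm.k₁, out.symm true⟩⟩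
  let QS : Set Q := Sum.inl '' {p | ∃ l, p.1 ∈ stmts₁ (MP l)} ∪
    Sum.inr '' {p | ∃ l, p.1 ∈ stmts₁ (tm.m l)}
  have hQS : QS.Finite := ((finite_stmts MP).image _).union ((finite_stmts tm.m).image _)
  obtain ⟨ΓS, g1, g2, g3⟩ := exists_supp M hQS (by
    rintro q (⟨p, ⟨l, hl⟩, rfl⟩ | ⟨p, ⟨l, hl⟩, rfl⟩)
    · refine tr_closed (Mx := MP) (emb := Sum.inl) (hl := hlP) (QS := QS)
        (fun l s v h => Or.inl ⟨_, ⟨l, h⟩, rfl⟩) (fun _ _ _ h => by simp [hlP] at h)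
        (fun _ _ _ h o => ?_) p.2 hl
      simp only [hlP] at h
      cases h
      exact Or.inr ⟨_, ⟨tm.main, stmts₁_self⟩, rfl⟩
    · exact tr_closed (Mx := tm.m) (emb := Sum.inr) (hl := .stop) (QS := QS)
        (fun l s v h => Or.inr ⟨_, ⟨l, h⟩, rfl⟩) (fun _ _ _ h => by cases h)
        (fun _ _ _ h => by cases h) p.2 hl) (Set.finite_range eP)
  obtain ⟨C1, hC1⟩ := exists_size MP
  obtain ⟨C2, hC2⟩ := exists_size tm.m
  refine ⟨Q, PT.R ⊕ tm.K, Σ k, tm.Γ k, inferInstance, inferInstance, M, QS, ΓS,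
    .inl (MP (PT.entry c), none), .inr tm.k₀, eP, C1 + C2, hQS, g1, g3, rfl,
    Or.inl ⟨_, ⟨_, stmts₁_self⟩, rfl⟩, fun b => g2 ⟨b, rfl⟩, fun x y t₁ t₂ b h1 h2 => ?_⟩
  obtain ⟨S1, n1, a1, a2, a3⟩ := sim_iter (M := M) (S₀ := fun _ => []) (e := fun _ => eP) hιP
    (d := fun _ γ => (dA tm.k₀ γ).map inp) (fun _ a => by simp [eP, hdA]) (emb := Sum.inl)
    (fun _ _ => rfl) hC1 h1.steps (initList (PT.machine c) x) (haltList (PT.machine c) y)
    (update (fun _ => []) (.inr tm.k₀) (x.map eP)) h1.evals_in_steps (by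
      refine ⟨fun r => ?_, fun k hk => update_of_ne (hk .a).symm _ _⟩
      cases r <;> simp [ιP] <;> rfl)
  obtain ⟨S2, n2, b1, b2, b3⟩ := sim_iter (M := M) (S₀ := S1) (e := Sigma.mk) Sum.inr_injective
    (d := dA) hdA (emb := Sum.inr) (fun _ _ => rfl) hC2 h2.steps
    (initList tm (y.map inp.symm)) (haltList tm [out.symm b]) S1 h2.evals_in_steps (by
      refine ⟨fun k => ?_, fun _ _ => rfl⟩
      by_cases hk : k = tm.k₀
      · subst hk
        have := a2.1 .a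
        simp only [ιP, if_true] at this
        rw [this]
        simp only [initList, dif_pos]
        show List.map eP y = List.map (Sigma.mk tm.k₀) (List.map inp.symm y)
        rw [List.map_map]
        rfl
      · rw [a2.2 (.inr k) (fun r => by cases r <;> simp [ιP, Ne.symm hk])]
        simp [initList, hk])
  refine ⟨_, n1 + (n2 + 1), a3.trans (.step rfl b3), ?_, rfl, ?_⟩
  · have := h1.steps_le_m
    have := h2.steps_le_m
    have := Nat.mul_le_mul_left C1 h1.steps_le_m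
    have := Nat.mul_le_mul_left C2 h2.steps_le_m
    nlinarith [Nat.zero_le (C1 * t₂), Nat.zero_le (C2 * t₁)]
  · have := b2.1 tm.k₁
    simp only [haltList, dif_pos] at this
    simp only [Mach.Tr, M, this]
    simp [haltList]

end Vale.Agent.P310
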