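import Vale.Agent.P310.Cut

/-! The linear system of a list of rules, and Spoiler's strategy. -/

namespace Vale.Agent.P310

open Finset Function

/-- two body predicates, head predicate, two shifts, right-hand side -/
abbrev Rule := ℕ × ℕ × ℕ × ℕ × ℕ × Bool
abbrev Link := ℕ × ℕ
abbrev Blk := Link × ℕ × Edge
abbrev Var := ℕ × ℕ × ℕ × ℕ × Edge

structure Sys where
  m : ℕ
  F : ℕ
  R : List Rule

def vz : Var := (0, 0, 0, 0, 0, 0, 0)

/-- the shift vector of a pair of shifts -/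
def dvec (m dt dx : ℕ) : ℕ → ℕ := fun l => if l ≤ m / 2 then dt else dx

namespace Sys

variable (s : Sys)

def L : ℕ := s.m + 2
def rule (ρ : ℕ) : Rule := s.R.getD ρ (0, 0, 0, 0, 0, false)
def slotP (ℓ : Link) : ℕ :=
  if ℓ.2 < 2 then (s.rule ℓ.1).1 else if ℓ.2 < 4 then (s.rule ℓ.1).2.1 else (s.rule ℓ.1).2.2.1
def slotD (ℓ : Link) : ℕ → ℕ :=
  dvec s.m (if ℓ.2 < 4 then 0 else (s.rule ℓ.1).2.2.2.1) (if ℓ.2 < 4 then 0 else (s.rule ℓ.1).2.2.2.2.1)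
def cc (ρ : ℕ) : Z2 := if (s.rule ρ).2.2.2.2.2 then 1 else 0
def sh (ℓ : Link) (e : Edge) : Edge := shE s.m s.F (s.slotD ℓ) e
def shp (ℓ : Link) (P : ℕ → ℕ) : ℕ → ℕ := shP s.m s.F (s.slotD ℓ) P

def xv (τ : ℕ) (e : Edge) : Var := if τ = 0 ∧ e.2.1 = 0 ∧ e.2.2 = 0 then vz else (1, τ, 0, 0, e)
def hv (ℓ : Link) (c : ℕ) (e : Edge) : Var :=
  if c = 0 then xv (s.slotP ℓ) (s.sh ℓ e) else (2, ℓ.1, ℓ.2, c, e)
def yv (ℓ : Link) (c l r : ℕ) : Var := if l = 0 ∨ s.m ≤ l then vz else (3, ℓ.1, ℓ.2, c, l, r, 0)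

def varN (B : Blk) (t : ℕ) : Var :=
  if B.2.1 = s.L then s.hv (B.1.1, t) s.L B.2.2
  else if t = 0 then s.hv B.1 B.2.1 B.2.2
  else if t = 1 then s.hv B.1 (B.2.1 + 1) B.2.2
  else if t = 2 then s.yv B.1 B.2.1 B.2.2.1 B.2.2.2.1
  else if t = 3 then s.yv B.1 B.2.1 (B.2.2.1 + 1) B.2.2.2.2
  else vz

def rhsB (B : Blk) : Bool := decide (B.2.1 = s.L) && decide (B.2.2.1 = 0) && (s.rule B.1.1).2.2.2.2.2

def csp : Csp Var Blk := ⟨vz, fun B t => s.varN B t, fun B => if s.rhsB B then 1 else 0⟩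

def Legal (B : Blk) : Prop := B.1.1 < s.R.length ∧ B.1.2 < 5 ∧ B.2.1 ≤ s.L ∧ LegE s.m s.F B.2.2

lemma slotD_lt {ℓ : Link} (h : ℓ.2 < 4) : s.slotD ℓ = fun _ => 0 := by
  funext l; simp [slotD, dvec, h]

lemma sat_col {g : Var → Z2} (hz : g vz = 0) {ℓ c e} (hc : c ≠ s.L) :
    s.csp.Sat g (ℓ, c, e) ↔ g (s.hv ℓ c e) + g (s.hv ℓ (c + 1) e) =
      g (s.yv ℓ c e.1 e.2.1) + g (s.yv ℓ c (e.1 + 1) e.2.2) := by
  simp only [Csp.Sat, csp, Fin.sum_univ_five, varN, rhsB, hc]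
  simp only [if_false, Fin.val_zero, if_true, Fin.val_one, one_ne_zero, Fin.val_two]
  have h3 : ((3 : Fin 5) : ℕ) = 3 := rfl
  have h4 : ((4 : Fin 5) : ℕ) = 4 := rfl
  simp only [h3, h4]
  simp only [OfNat.ofNat_ne_zero, OfNat.ofNat_ne_one, if_false, if_true, hz, decide_false,
    Bool.false_and, Bool.false_eq_true, Nat.reduceEqDiff]
  generalize g (s.hv ℓ c e) = a
  generalize g (s.hv ℓ (c + 1) e) = b
  generalize g (s.yv ℓ c e.1 e.2.1) = d
  generalize g (s.yv ℓ c (e.1 + 1) e.2.2) = f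
  revert a b d f; decide

lemma sat_rule {g : Var → Z2} {ℓ e} :
    s.csp.Sat g (ℓ, s.L, e) ↔ ∑ t ∈ range 5, g (s.hv (ℓ.1, t) s.L e) =
      if e.1 = 0 then s.cc ℓ.1 else 0 := by
  simp only [Csp.Sat, csp, varN, rhsB, if_true]
  rw [Fin.sum_univ_eq_sum_range (fun t => g (s.hv (ℓ.1, t) s.L e)) 5]
  by_cases h : e.1 = 0 <;> simp [h, cc]

/-- the family of positions from which Duplicator survives -/
structure IsFam (Fam : (Fin s.m → Blk) → (Var → Z2) → Prop) : Prop where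
  sat : ∀ B g, Fam B g → g vz = 0 ∧ ∀ i, s.csp.Sat g (B i)
  move : ∀ B g, Fam B g → ∀ i B', s.Legal B' → ∃ g', Fam (update B i B') g' ∧
    ∀ i' t, g' (s.csp.var (B i') t) = g (s.csp.var (B i') t)
  ne : ∃ B g, Fam B g

variable {s} {Fam : (Fin s.m → Blk) → (Var → Z2) → Prop}

lemma IsFam.jump (hF : s.IsFam Fam) (V : Fin s.m → Option Var) {B g} (h : Fam B g)
    (hV : ∀ i v, V i = some v → ∃ t, s.csp.var (B i) t = v) (B' : Fin s.m → Blk)
    (hB' : ∀ i, s.Legal (B' i)) (hV' : ∀ i v, V i = some v → ∃ t, s.csp.var (B' i) t = v) :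
    ∃ g', Fam B' g' ∧ ∀ i v, V i = some v → g' v = g v := by
  have key : ∀ I : Finset (Fin s.m), ∃ g', Fam (I.piecewise B' B) g' ∧
      ∀ i v, V i = some v → g' v = g v := by
    intro I
    induction I using Finset.induction_on with
    | empty => exact ⟨g, by simpa using h, fun _ _ _ => rfl⟩
    | insert i I hi ih =>
      obtain ⟨g1, h1, h2⟩ := ih
      obtain ⟨g2, h3, h4⟩ := hF.move _ _ h1 i (B' i) (hB' i)
      refine ⟨g2, by rwa [Finset.piecewise_insert], fun j v hv => ?_⟩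
      rw [← h2 j v hv]
      have : ∃ t, s.csp.var (I.piecewise B' B j) t = v := by
        by_cases hj : j ∈ I
        · rw [Finset.piecewise_eq_of_mem _ _ _ hj]; exact hV' j v hv
        · rw [Finset.piecewise_eq_of_notMem _ _ _ hj]; exact hV j v hv
      obtain ⟨t, rfl⟩ := this
      exact h4 j t
  simpa using key Finset.univ

variable (Fam) in
/-- the variables `V` can be pebbled with sum `σ` -/
def Cov (V : ℕ → Var) (σ : Z2) : Prop :=
  ∃ B g, Fam B g ∧ (∀ i, ∃ t, s.csp.var (B i) t = V i) ∧ ∑ j ∈ range s.m, g (V j) = σ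

lemma IsFam.cov_jump (hF : s.IsFam Fam) {V σ} (h : Cov Fam V σ) (B' : ℕ → Blk)
    (hB' : ∀ i < s.m, s.Legal (B' i)) (hV' : ∀ i, ∃ t, s.csp.var (B' i) t = V i) :
    ∃ g, Fam (fun i => B' i) g ∧ ∑ j ∈ range s.m, g (V j) = σ := by
  obtain ⟨B, g, h1, h2, h3⟩ := h
  obtain ⟨g', h4, h5⟩ := hF.jump (fun i => some (V i)) h1
    (fun i v e => by cases e; exact h2 i) (fun i => B' i) (fun i => hB' i i.2)
    (fun i v e => by cases e; exact hV' i)
  refine ⟨g', h4, ?_⟩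
  rw [← h3]
  exact sum_congr rfl fun j hj => h5 ⟨j, mem_range.1 hj⟩ _ rfl

lemma IsFam.col (hF : s.IsFam Fam) {ℓ : Link} (h1 : ℓ.1 < s.R.length) (h2 : ℓ.2 < 5) {P}
    (hP : IsSl s.m s.F P) {c} (hc : c < s.L) (σ) :
    Cov Fam (fun j => s.hv ℓ c (edge P j)) σ ↔ Cov Fam (fun j => s.hv ℓ (c + 1) (edge P j)) σ := by
  have leg : ∀ i < s.m, s.Legal (ℓ, c, edge P i) := fun i hi => ⟨h1, h2, hc.le, hP.leg hi⟩
  have v0 : ∀ i, ∃ t, s.csp.var (ℓ, c, edge P i) t = s.hv ℓ c (edge P i) := fun i =>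
    ⟨0, by simp [csp, varN, hc.ne]⟩
  have v1 : ∀ i, ∃ t, s.csp.var (ℓ, c, edge P i) t = s.hv ℓ (c + 1) (edge P i) := fun i =>
    ⟨1, by simp [csp, varN, hc.ne]⟩
  have key : ∀ g, Fam (fun i => (ℓ, c, edge P i)) g →
      ∑ j ∈ range s.m, g (s.hv ℓ c (edge P j)) = ∑ j ∈ range s.m, g (s.hv ℓ (c + 1) (edge P j)) := by
    intro g hg
    obtain ⟨hz, hs⟩ := hF.sat _ _ hg
    have e : ∑ j ∈ range s.m, (g (s.hv ℓ c (edge P j)) + g (s.hv ℓ (c + 1) (edge P j))) =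
        ∑ j ∈ range s.m, (g (s.yv ℓ c j (P j)) + g (s.yv ℓ c (j + 1) (P (j + 1)))) :=
      sum_congr rfl fun j hj => (s.sat_col hz hc.ne).1 (hs ⟨j, mem_range.1 hj⟩)
    rw [telescope (fun j => g (s.yv ℓ c j (P j))), sum_add_distrib] at e
    simp only [yv, true_or, le_refl, or_true, if_true, hz, add_zero] at e
    generalize ∑ j ∈ range s.m, g (s.hv ℓ c (edge P j)) = a at *
    generalize ∑ j ∈ range s.m, g (s.hv ℓ (c + 1) (edge P j)) = b at *
    revert a b; decide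
  constructor
  · intro h
    obtain ⟨g, h3, h4⟩ := hF.cov_jump h (fun i => (ℓ, c, edge P i)) leg v0
    exact ⟨_, g, h3, fun i => v1 i, (key g h3).symm.trans h4⟩
  · intro h
    obtain ⟨g, h3, h4⟩ := hF.cov_jump h (fun i => (ℓ, c, edge P i)) leg v1
    exact ⟨_, g, h3, fun i => v0 i, (key g h3).trans h4⟩

lemma IsFam.link (hF : s.IsFam Fam) {ℓ : Link} (h1 : ℓ.1 < s.R.length) (h2 : ℓ.2 < 5) {P}
    (hP : IsSl s.m s.F P) (σ) :
    Cov Fam (fun j => xv (s.slotP ℓ) (edge (s.shp ℓ P) j)) σ ↔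
      Cov Fam (fun j => s.hv ℓ s.L (edge P j)) σ := by
  have : ∀ c ≤ s.L, Cov Fam (fun j => xv (s.slotP ℓ) (edge (s.shp ℓ P) j)) σ ↔
      Cov Fam (fun j => s.hv ℓ c (edge P j)) σ := by
    intro c hc
    induction c with
    | zero => rfl
    | succ c ih => rw [ih (by omega), hF.col h1 h2 hP hc]
  exact this _ le_rfl

variable (Fam) in
/-- Spoiler can force the sum of the predicate variables over the slice to vanish -/
def Forced (τ : ℕ) (P : ℕ → ℕ) : Prop := ∀ σ, Cov Fam (fun j => xv τ (edge P j)) σ → σ = 0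

lemma IsFam.forced_zero (hF : s.IsFam Fam) : Forced Fam 0 0 := by
  rintro σ ⟨B, g, h1, -, rfl⟩
  simp [xv, edge, (hF.sat _ _ h1).1]

lemma IsFam.rule_sum (hF : s.IsFam Fam) (hm : 0 < s.m) {ρ} (h1 : ρ < s.R.length) {P}
    (hP : IsSl s.m s.F P) {g} (hg : Fam (fun i => ((ρ, 0), s.L, edge P i)) g)
    (hb : ∀ t < 4, Forced Fam (s.slotP (ρ, t)) (s.shp (ρ, t) P)) :
    ∑ j ∈ range s.m, g (s.hv (ρ, 4) s.L (edge P j)) = s.cc ρ := by
  obtain ⟨hz, hs⟩ := hF.sat _ _ hg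
  have e : ∑ j ∈ range s.m, ∑ t ∈ range 5, g (s.hv (ρ, t) s.L (edge P j)) =
      ∑ j ∈ range s.m, if j = 0 then s.cc ρ else 0 :=
    sum_congr rfl fun j hj => s.sat_rule.1 (hs ⟨j, mem_range.1 hj⟩)
  rw [sum_comm, sum_range_succ, sum_ite_eq', if_pos (mem_range.2 hm), sum_eq_zero, zero_add] at e
  · exact e
  · intro t ht
    have ht := mem_range.1 ht
    refine hb t ht _ ((hF.link (ℓ := (ρ, t)) h1 (by simp; omega) hP _).2 ⟨_, g, hg, fun i => ?_, rfl⟩)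
    exact ⟨⟨t, by omega⟩, by simp [csp, varN]⟩

lemma IsFam.forced_rule (hF : s.IsFam Fam) (hm : 0 < s.m) {ρ} (h1 : ρ < s.R.length) {P}
    (hP : IsSl s.m s.F P) (hb : ∀ t < 4, Forced Fam (s.slotP (ρ, t)) (s.shp (ρ, t) P))
    (hc : s.cc ρ = 0) : Forced Fam (s.slotP (ρ, 4)) (s.shp (ρ, 4) P) := by
  intro σ h
  rw [hF.link (ℓ := (ρ, 4)) h1 (by simp) hP] at h
  obtain ⟨g, h3, h4⟩ := hF.cov_jump h (fun i => ((ρ, 0), s.L, edge P i))
    (fun i hi => ⟨h1, by simp, le_rfl, hP.leg hi⟩) fun i => ⟨4, by simp [csp, varN]⟩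
  rw [← h4, hF.rule_sum hm h1 hP h3 hb, hc]

lemma IsFam.forced_goal (hF : s.IsFam Fam) (hm : 0 < s.m) {ρ} (h1 : ρ < s.R.length) {P}
    (hP : IsSl s.m s.F P) (hb : ∀ t < 5, Forced Fam (s.slotP (ρ, t)) (s.shp (ρ, t) P)) :
    s.cc ρ = 0 := by
  obtain ⟨B, g, h⟩ := hF.ne
  obtain ⟨g', h3, -⟩ := hF.jump (fun _ => none) h (by simp)
    (fun i => ((ρ, 0), s.L, edge P i)) (fun i => ⟨h1, by simp, le_rfl, hP.leg i.2⟩) (by simp)
  rw [← hF.rule_sum hm h1 hP h3 fun t ht => hb t (by omega)]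
  refine hb 4 (by omega) _ ((hF.link (ℓ := (ρ, 4)) h1 (by simp) hP _).2 ⟨_, g', h3, fun i => ?_, rfl⟩)
  exact ⟨4, by simp [csp, varN]⟩

/-- closure of a family of facts under the rules with right-hand side zero -/
structure Closed (s : Sys) (D : ℕ → (ℕ → ℕ) → Prop) : Prop where
  zero : D 0 0
  step : ∀ b1 b2 h dt dx P, (b1, b2, h, dt, dx, false) ∈ s.R → IsSl s.m s.F P → D b1 P → D b2 P →
    D h (shP s.m s.F (dvec s.m dt dx) P)

lemma exists_rule {r : Rule} (h : r ∈ s.R) : ∃ ρ < s.R.length, s.rule ρ = r := by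
  obtain ⟨i, hi, e⟩ := List.getElem_of_mem h
  exact ⟨i, hi, by simp [rule, hi, e]⟩

/-- Spoiler's side: forced facts are closed under the rules and never contain the goal. -/
theorem IsFam.closed (hF : s.IsFam Fam) (hm : 0 < s.m) : s.Closed (Forced Fam) ∧
    ∀ a P, (a, a, a, 0, 0, true) ∈ s.R → IsSl s.m s.F P → ¬ Forced Fam a P := by
  refine ⟨⟨hF.forced_zero, fun b1 b2 h dt dx P hr hP h1 h2 => ?_⟩, fun a P hr hP h => ?_⟩
  · obtain ⟨ρ, hρ, e⟩ := exists_rule hr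
    have := hF.forced_rule hm hρ hP (fun t ht => ?_) (by simp [cc, e])
    · simpa [slotP, shp, slotD, e] using this
    · rw [shp, s.slotD_lt ht, shP_zero hP]
      simp only [slotP, e, ht, if_true]
      split_ifs
      · exact h1
      · exact h2
  · obtain ⟨ρ, hρ, e⟩ := exists_rule hr
    have := hF.forced_goal hm hρ hP (fun t ht => ?_)
    · simp [cc, e] at this
    · have e1 : s.slotD (ρ, t) = fun _ => 0 := by
        funext l; simp [slotD, dvec, e]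
      have e2 : s.slotP (ρ, t) = a := by simp [slotP, e]
      rw [shp, e1, shP_zero hP, e2]
      exact h

end Sys

end Vale.Agent.P310
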