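import Vale.Agent.P310.Micro

/-! The graphs of the rules of a machine are equivalent iff the machine does not accept. -/

namespace Vale.Agent.P310

open Function

lemma crt_eq {m F a h t t' : ℕ} (hF : m.factorial ∣ F) (ha : a + h ≤ m)
    (H : ∀ l, a < l → l ≤ a + h → t % (l * F + 1) = t' % (l * F + 1)) (ht : t < F ^ h)
    (ht' : t' < F ^ h) : t = t' := by
  have key : ∀ x y, x < y → y ≤ m → IsCoprime ((x * F + 1 : ℕ) : ℤ) ((y * F + 1 : ℕ) : ℤ) := by
    intro x y h1 h2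
    rw [Nat.isCoprime_iff_coprime]
    exact Nat.coprime_mul_succ ((Nat.dvd_factorial (by omega) (by omega)).trans hF)
  have hd : ∏ l ∈ Finset.Ioc a (a + h), ((l * F + 1 : ℕ) : ℤ) ∣ (t' : ℤ) - t := by
    refine Finset.prod_dvd_of_coprime ?_ fun l hl => ?_
    · intro x hx y hy hxy
      simp only [Finset.coe_Ioc, Set.mem_Ioc] at hx hy
      rcases lt_or_gt_of_ne hxy with h | h
      · exact key x y h (by omega)
      · exact (key y x h (by omega)).symm
    · rw [Finset.mem_Ioc] at hl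
      exact (Nat.modEq_iff_dvd.1 (H l hl.1 hl.2))
  have hle : F ^ h ≤ ∏ l ∈ Finset.Ioc a (a + h), (l * F + 1) := by
    have := Finset.pow_card_le_prod (Finset.Ioc a (a + h)) (fun l => l * F + 1) F fun l hl => by
      rw [Finset.mem_Ioc] at hl
      have : 1 * F ≤ l * F := Nat.mul_le_mul_right _ (by omega)
      omega
    simpa using this
  rw [← Nat.cast_prod] at hd
  have := Int.eq_zero_of_abs_lt_dvd hd (by rw [abs_lt]; constructor <;> omega)
  omega

lemma pt_inj {m F t x t' x' : ℕ} (hF : m.factorial ∣ F) (h : pt m F t x = pt m F t' x')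
    (h1 : t < F ^ ((m - 1) / 2)) (h2 : t' < F ^ ((m - 1) / 2)) (h3 : x < F ^ ((m - 1) / 2))
    (h4 : x' < F ^ ((m - 1) / 2)) : t = t' ∧ x = x' := by
  refine ⟨crt_eq (a := 0) hF (by omega) (fun l a b => ?_) h1 h2,
    crt_eq (a := m / 2) hF (by omega) (fun l a b => ?_) h3 h4⟩
  · have := congrFun h l
    simp only [pt, dvec, md] at this
    rwa [if_pos (by omega), if_pos (by omega), if_pos (by omega)] at this
  · have := congrFun h l
    simp only [pt, dvec, md] at this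
    rwa [if_neg (by omega), if_pos (by omega), if_neg (by omega)] at this

namespace Mach

variable {Q K Γ : Type}

/-- a numbering of the relevant predicates -/
structure Code (QS : Set Q) (ΓS : Set Γ) (K : Type) where
  n : ℕ
  dec : ℕ → Pr Q K Γ
  code : Pr Q K Γ → ℕ
  spec : ∀ τ, InU QS ΓS τ → dec (code τ) = τ ∧ 0 < code τ ∧ code τ < n

lemma exists_code [Finite K] {QS : Set Q} {ΓS : Set Γ} (h1 : QS.Finite) (h2 : ΓS.Finite) :
    Nonempty (Code QS ΓS K) := by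
  classical
  have hf : {τ : Pr Q K Γ | InU QS ΓS τ}.Finite := by
    refine (((h1.image Pr.st0).union (h1.image Pr.st1)).union
      ((((Set.finite_univ (α := K)).prod ((h2.image some).insert none)).image
        fun p => Pr.cell p.1 p.2).insert Pr.acc)).subset ?_
    rintro (q | q | ⟨k, o⟩ | _) h
    · exact Or.inl (Or.inl ⟨q, h, rfl⟩)
    · exact Or.inl (Or.inr ⟨q, h, rfl⟩)
    · refine Or.inr (Or.inr ⟨(k, o), ⟨trivial, ?_⟩, rfl⟩)
      rcases o with _ | γ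
      · exact Or.inl rfl
      · exact Or.inr ⟨γ, h γ rfl, rfl⟩
    · exact Or.inr (Or.inl rfl)
  let l := hf.toFinset.toList
  refine ⟨⟨l.length + 1, fun p => l.getD (p - 1) .acc, fun τ => l.idxOf τ + 1, fun τ hτ => ?_⟩⟩
  have : τ ∈ l := by simpa [l] using hτ
  have h3 := List.idxOf_lt_length_iff.2 this
  exact ⟨by simp [h3], by omega, by omega⟩

variable [DecidableEq K] (M : Mach Q K Γ) {QS : Set Q} {ΓS : Set Γ} (C : Code QS ΓS K)

def CoreR (r : Rule) : Prop :=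
  (0 < r.1 ∧ r.1 < C.n) ∧ (0 < r.2.1 ∧ r.2.1 < C.n) ∧ (0 < r.2.2.1 ∧ r.2.2.1 < C.n) ∧
    r.2.2.2.1 ≤ 1 ∧ r.2.2.2.2.1 ≤ 2 ∧ r.2.2.2.2.2 = false ∧
    M.Sound (C.dec r.1) (C.dec r.2.1) (C.dec r.2.2.1) r.2.2.2.1 r.2.2.2.2.1

lemma exists_core : ∃ l : List Rule, ∀ r, r ∈ l ↔ M.CoreR C r := by
  have hf : {r | M.CoreR C r}.Finite := by
    refine ((Set.finite_Iio C.n).prod ((Set.finite_Iio C.n).prod ((Set.finite_Iio C.n).prod
      ((Set.finite_Iic 1).prod ((Set.finite_Iic 2).prod (Set.finite_univ (α := Bool))))))).subset ?_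
    rintro r ⟨h1, h2, h3, h4, h5, -⟩
    exact ⟨h1.2, h2.2, h3.2, h4, h5, trivial⟩
  exact ⟨hf.toFinset.toList, by simp⟩

def goal : Rule := (C.code .acc, C.code .acc, C.code .acc, 0, 0, true)

def orig (τ : Pr Q K Γ) (i : ℕ) : Rule := (0, 0, C.code τ, 0, i, false)

variable {M C}

theorem equiv_iff (s : Sys) (hm : 2 ≤ s.m) (hF : s.m.factorial ∣ s.F) (hS : M.Supp QS ΓS)
    (hq : M.act M.qf = .stop) {c₀ c₁ : Cf Q K Γ} {T n₀ : ℕ} (hrun : M.Run c₀ c₁ T)
    (hstop : M.step c₁ = none) (h₀ : InS QS ΓS c₀) (hn : ∀ k, (c₀.2 k).length ≤ n₀)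
    (hT : n₀ + 2 * T < s.F ^ ((s.m - 1) / 2))
    (R1 : ∀ r ∈ s.R, M.CoreR C r ∨ r = goal C ∨
      ∃ τ i, InU QS ΓS τ ∧ M.Tr τ c₀ i ∧ r = orig C τ i)
    (R2 : ∀ r, M.CoreR C r → r ∈ s.R) (R3 : goal C ∈ s.R) (R4 : orig C (.st0 c₀.1) 0 ∈ s.R)
    (R5 : ∀ k, ∀ i ≤ (c₀.2 k).length, orig C (.cell k (c₀.2 k)[i]?) i ∈ s.R)
    {N N' : ℕ} (blk : Fin N → Blk) (hb : ∀ i, s.Legal (blk i)) (hb' : ∀ B, s.Legal B → ∃ i, blk i = B)
    (hN : N * (32 * N + 1) ≤ N') :
    WLEquiv s.m (s.csp.graph N' blk 0) (s.csp.graph N' blk 1) ↔ ¬ M.Tr .acc c₁ 0 := by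
  obtain ⟨c, rfl, rfl, hc⟩ := hrun.seq
  have hin : ∀ t ≤ T, InS QS ΓS (c t) := by
    intro t ht
    induction t with
    | zero => exact h₀
    | succ t ih => exact step_inS hS (ih (by omega)) (hc t ht)
  have hlen : ∀ t ≤ T, ∀ k, ((c t).2 k).length ≤ n₀ + t := by
    intro t ht k
    induction t with
    | zero => exact hn k
    | succ t ih =>
      have := step_len (hc t ht) k
      have := ih (by omega)
      omega
  have ha := C.spec .acc trivial
  constructor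
  · intro h hacc
    obtain ⟨j₀, -⟩ := hb' ((0, 0), 0, 0, 0, 0)
      ⟨List.length_pos_of_mem R3, by simp, by simp, by simp; omega, md_pos _, md_pos _⟩
    obtain ⟨Fam, f1, f2, f3⟩ := s.csp.fam_of_equiv blk hN hm j₀ h
    have hFam : s.IsFam Fam := ⟨f1, fun B g hg i B' hB' => by
      obtain ⟨j, rfl⟩ := hb' B' hB'
      exact f2 B g hg i j, f3⟩
    obtain ⟨hcl, hgoal⟩ := hFam.closed (by omega)
    let D : Pr Q K Γ → ℕ → ℕ → Prop := fun τ t x => Sys.Forced Fam (C.code τ) (pt s.m s.F t x)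
    have hD : ∀ τ₁ τ₂ τ₃ dt dx t x, InU QS ΓS τ₁ → InU QS ΓS τ₂ → InU QS ΓS τ₃ → dt ≤ 1 → dx ≤ 2 →
        M.Sound τ₁ τ₂ τ₃ dt dx → D τ₁ t x → D τ₂ t x → D τ₃ (t + dt) (x + dx) := by
      intro τ₁ τ₂ τ₃ dt dx t x u1 u2 u3 a1 a2 hs d1 d2
      have := hcl.step _ _ (C.code τ₃) dt dx _ (R2 _ ⟨(C.spec _ u1).2, (C.spec _ u2).2,
        (C.spec _ u3).2, a1, a2, rfl, by
          simpa only [(C.spec _ u1).1, (C.spec _ u2).1, (C.spec _ u3).1] using hs⟩)
        (isSl_pt _ _ _ _) d1 d2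
      rwa [shP_pt] at this
    have horig : ∀ τ i, orig C τ i ∈ s.R → D τ 0 i := by
      intro τ i hr
      have := hcl.step 0 0 _ 0 i _ hr (isSl_pt _ _ 0 0) (by rw [pt_zero]; exact hcl.zero)
        (by rw [pt_zero]; exact hcl.zero)
      simpa only [shP_pt, zero_add] using this
    have hbase : ∀ t ≤ T, Base D (c t) t := by
      intro t ht
      induction t with
      | zero => exact ⟨horig _ _ R4, fun k i hi => horig _ _ (R5 k i hi)⟩
      | succ t ih => exact base_step hD hS (hin t (by omega)) (ih (by omega)) (hc t ht)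
    exact hgoal _ _ R3 (isSl_pt _ _ _ _) (base_acc hD (hin T le_rfl) (hbase T le_rfl) hacc)
  · intro hacc
    let TrP : ℕ → ℕ → ℕ → Prop := fun p t x => (p = 0 ∧ t = 0 ∧ x = 0) ∨
      (p ≠ 0 ∧ t ≤ T ∧ ∃ i, x = i + t ∧ M.Tr (C.dec p) (c t) i)
    have hbd : ∀ p t x, TrP p t x → t < s.F ^ ((s.m - 1) / 2) ∧ x < s.F ^ ((s.m - 1) / 2) := by
      rintro p t x (⟨-, rfl, rfl⟩ | ⟨-, h1, i, rfl, h2⟩)
      · omega
      · have := h2.le (hlen t h1)
        omega
    have hh : ∀ r ∈ s.R, r.2.2.1 ≠ 0 := by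
      intro r hr
      rcases R1 r hr with h | rfl | ⟨τ, i, h, -, rfl⟩
      · exact h.2.2.1.1.ne'
      · exact ha.2.1.ne'
      · exact (C.spec τ h).2.1.ne'
    refine Sys.equiv_of_model (Tr := fun p P => ∃ t x, P = pt s.m s.F t x ∧ TrP p t x)
      (Sys.model_of_closed (a := C.code .acc) (by omega) (fun P _ => ⟨?_, ?_⟩) hh
        ⟨⟨0, 0, (pt_zero _ _).symm, Or.inl ⟨rfl, rfl, rfl⟩⟩, ?_⟩ ?_ ?_) N' blk hb
    · rintro ⟨t, x, rfl, ⟨-, rfl, rfl⟩ | ⟨h, -⟩⟩
      · exact pt_zero _ _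
      · exact absurd rfl h
    · rintro rfl
      exact ⟨0, 0, (pt_zero _ _).symm, Or.inl ⟨rfl, rfl, rfl⟩⟩
    · rintro b1 b2 h dt dx P hr - ⟨t, x, rfl, h1⟩ ⟨t', x', e, h2⟩
      obtain ⟨rfl, rfl⟩ := pt_inj hF e (hbd _ _ _ h1).1 (hbd _ _ _ h2).1 (hbd _ _ _ h1).2
        (hbd _ _ _ h2).2
      refine ⟨_, _, shP_pt _ _ _ _ _ _, Or.inr ⟨hh _ hr, ?_⟩⟩
      rcases R1 _ hr with hcore | hg | ⟨τ, i, u, htr, hg⟩
      · obtain ⟨⟨p1, -⟩, ⟨p2, -⟩, -, -, -, -, hs⟩ := hcore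
        rcases h1 with h1 | ⟨-, h1, i, rfl, h3⟩
        · exact absurd h1.1 p1.ne'
        rcases h2 with h2 | ⟨-, -, i', e', h4⟩
        · exact absurd h2.1 p2.ne'
        obtain rfl : i = i' := by omega
        rcases hs _ _ h3 h4 with ⟨h5, h6⟩ | ⟨h5, c', j, h6, h7, h8⟩
        · simp only at h5 h6
          subst h5
          exact ⟨h1, i + dx, by omega, h6⟩
        · simp only at h5 h7 h8
          subst h5
          have ht : t < T := lt_of_le_of_ne h1 (by rintro rfl; simp [hstop] at h6)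
          rw [hc t ht] at h6
          obtain rfl := Option.some.inj h6
          exact ⟨ht, j, by omega, h8⟩
      · simp [goal] at hg
      · simp only [orig, Prod.mk.injEq, and_true] at hg
        obtain ⟨rfl, -, rfl, rfl, rfl⟩ := hg
        rcases h1 with ⟨-, rfl, rfl⟩ | ⟨h1, -⟩
        · exact ⟨by omega, dx, by omega, by rwa [(C.spec τ u).1]⟩
        · exact absurd rfl h1
    · intro r hr hc
      rcases R1 r hr with h | rfl | ⟨τ, i, h, -, rfl⟩
      · rw [h.2.2.2.2.2.1] at hc; cases hc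
      · rfl
      · cases hc
    · rintro P ⟨t, x, -, ⟨h, -⟩ | ⟨-, h1, i, -, h2⟩⟩
      · omega
      · rw [ha.1] at h2
        rcases lt_or_eq_of_le h1 with h | rfl
        · have := hc t h
          simp [step, h2.1, hq] at this
        · exact hacc ⟨h2.1, rfl, h2.2.2⟩

end Mach

end Vale.Agent.P310
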