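import Vale.Agent.P310.Defs

/-! General facts on Weisfeiler-Leman colours. -/

namespace Vale.Agent.P310

open Function

variable {V W : Type} [Fintype V] [Fintype W] {k : ℕ}

lemma color_eq_of_strategy (G : SimpleGraph V) (H : SimpleGraph W)
    (R : (Fin k → V) → (Fin k → W) → Prop)
    (h0 : ∀ x y, R x y → ∀ i j, (x i = x j ↔ y i = y j) ∧ (G.Adj (x i) (x j) ↔ H.Adj (y i) (y j)))
    (h1 : ∀ x y, R x y → ∃ f : V ≃ W, ∀ a i, R (update x i a) (update y i (f a))) :
    ∀ r x y, R x y → wlColor G k r x = wlColor H k r y := by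
  intro r
  induction r with
  | zero =>
    intro x y h
    funext i j
    exact Prod.ext (propext (h0 x y h i j).1) (propext (h0 x y h i j).2)
  | succ r ih =>
    intro x y h
    obtain ⟨f, hf⟩ := h1 x y h
    refine Prod.ext (ih x y h) ?_
    show Multiset.map _ _ = Multiset.map _ _
    rw [← Multiset.map_univ_val_equiv f, Multiset.map_map]
    refine Multiset.map_congr rfl fun a _ => ?_
    funext i
    exact ih _ _ (hf a i)

lemma wlEquiv_of_strategy (G H : SimpleGraph V) (R : (Fin k → V) → (Fin k → V) → Prop)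
    (h0 : ∀ x y, R x y → ∀ i j, (x i = x j ↔ y i = y j) ∧ (G.Adj (x i) (x j) ↔ H.Adj (y i) (y j)))
    (h1 : ∀ x y, R x y → ∃ f : V ≃ V, ∀ a i, R (update x i a) (update y i (f a)))
    (Φ : (Fin k → V) ≃ (Fin k → V)) (hΦ : ∀ x, R x (Φ x)) : WLEquiv k G H := by
  intro r
  conv_rhs => rw [← Multiset.map_univ_val_equiv Φ, Multiset.map_map]
  exact Multiset.map_congr rfl fun x _ => color_eq_of_strategy G H R h0 h1 r _ _ (hΦ x)

lemma color_comap (G : SimpleGraph W) (e : V ≃ W) (r : ℕ) (x : Fin k → V) :
    wlColor (G.comap e) k r x = wlColor G k r (fun i => e (x i)) := by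
  refine color_eq_of_strategy _ _ (fun x y => y = fun i => e (x i)) ?_ ?_ r _ _ rfl
  · rintro x y rfl i j
    simp
  · rintro x y rfl
    refine ⟨e, fun a i => ?_⟩
    funext j
    by_cases h : j = i
    · subst h; simp
    · simp [h]

lemma wlEquiv_comap (G H : SimpleGraph W) (e : V ≃ W) :
    WLEquiv k (G.comap e) (H.comap e) ↔ WLEquiv k G H := by
  have key : ∀ (G : SimpleGraph W) r, (Finset.univ : Finset (Fin k → V)).val.map
      (wlColor (G.comap e) k r) = (Finset.univ : Finset (Fin k → W)).val.map (wlColor G k r) := by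
    intro G r
    rw [← Multiset.map_univ_val_equiv (Equiv.piCongrRight fun _ : Fin k => e), Multiset.map_map]
    exact Multiset.map_congr rfl fun x _ => color_comap G e r x
  simp only [WLEquiv, key]

/-- equal colours in all rounds -/
def Same (G H : SimpleGraph V) (k : ℕ) (x y : Fin k → V) : Prop :=
  ∀ r, wlColor G k r x = wlColor H k r y

lemma color_mono {G H : SimpleGraph V} {x y : Fin k → V} {r s : ℕ} (h : r ≤ s)
    (e : wlColor G k s x = wlColor H k s y) : wlColor G k r x = wlColor H k r y := by
  induction h with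
  | refl => exact e
  | step _ ih => exact ih (congrArg Prod.fst e)

lemma exists_forall_of_antitone {α : Type} [Finite α] (p : ℕ → α → Prop)
    (hm : ∀ r s a, r ≤ s → p s a → p r a) (h : ∀ r, ∃ a, p r a) : ∃ a, ∀ r, p r a := by
  by_contra hc
  push Not at hc
  choose f hf using hc
  obtain ⟨B, hB⟩ := (Set.finite_range f).bddAbove
  obtain ⟨a, ha⟩ := h B
  exact hf a (hm _ _ _ (hB ⟨a, rfl⟩) ha)

lemma WLEquiv.exists_same {G H : SimpleGraph V} (h : WLEquiv k G H) (x : Fin k → V) :
    ∃ y, Same G H k x y := by
  refine exists_forall_of_antitone (fun r y => wlColor G k r x = wlColor H k r y)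
    (fun r s a hrs => color_mono hrs) fun r => ?_
  have : wlColor G k r x ∈ (Finset.univ : Finset (Fin k → V)).val.map (wlColor H k r) := by
    rw [← h r]; exact Multiset.mem_map_of_mem _ (Finset.mem_univ x)
  obtain ⟨y, -, hy⟩ := Multiset.mem_map.1 this
  exact ⟨y, hy.symm⟩

lemma Same.ext {G H : SimpleGraph V} {x y : Fin k → V} (h : Same G H k x y) (a : V) :
    ∃ b, ∀ i, Same G H k (update x i a) (update y i b) := by
  obtain ⟨b, hb⟩ := exists_forall_of_antitone
    (fun r b => ∀ i, wlColor G k r (update x i a) = wlColor H k r (update y i b))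
    (fun r s a hrs hs i => color_mono hrs (hs i)) fun r => by
      have e := congrArg Prod.snd (h (r + 1))
      have : (fun i => wlColor G k r (update x i a)) ∈ (Finset.univ : Finset V).val.map
          fun b i => wlColor H k r (update y i b) := by
        rw [← show _ = (Finset.univ : Finset V).val.map
          (fun b i => wlColor H k r (update y i b)) from e]
        exact Multiset.mem_map_of_mem _ (Finset.mem_univ a)
      obtain ⟨b, -, hb⟩ := Multiset.mem_map.1 this
      exact ⟨b, fun i => (congrFun hb i).symm⟩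
  exact ⟨b, fun i r => hb r i⟩

lemma Same.atom {G H : SimpleGraph V} {x y : Fin k → V} (h : Same G H k x y) (i j : Fin k) :
    (x i = x j ↔ y i = y j) ∧ (G.Adj (x i) (x j) ↔ H.Adj (y i) (y j)) := by
  have e := congrFun (congrFun (h 0) i) j
  exact ⟨Iff.of_eq (congrArg Prod.fst e), Iff.of_eq (congrArg Prod.snd e)⟩

open Classical in
lemma Same.deg {G H : SimpleGraph V} {x y : Fin k → V} (h : Same G H k x y) {i j : Fin k}
    (hij : i ≠ j) :
    ∑ a, (if G.Adj (x i) a then 1 else 0 : ℕ) = ∑ a, if H.Adj (y i) a then 1 else 0 := by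
  have e : (Finset.univ : Finset V).val.map (fun a i => wlColor G k 0 (update x i a)) =
      (Finset.univ : Finset V).val.map (fun a i => wlColor H k 0 (update y i a)) :=
    congrArg Prod.snd (h 1)
  have e2 := congrArg (fun s : Multiset (Fin k → Color k 0) =>
    (s.map fun t => (if (t j i j).2 then 1 else 0 : ℕ)).sum) e
  beta_reduce at e2
  rw [Multiset.map_map, Multiset.map_map] at e2
  have k1 : ∀ (G : SimpleGraph V) (x : Fin k → V) (a : V),
      (wlColor G k 0 (update x j a) i j).2 = G.Adj (x i) a := by
    intro G x a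
    show G.Adj (update x j a i) (update x j a j) = _
    rw [update_self, update_of_ne hij]
  simp only [Function.comp_def, k1] at e2
  exact e2

end Vale.Agent.P310
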